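import Vale.Agent.Lib.P329.Kleene

open Computability

namespace Vale.Agent.Lib.P329

variable {α : Type}

inductive St
  | A | B | bot

open Classical in
noncomputable def stp (I E D : Set α) : St → α → St
  | .A, x => if x ∈ I then .A else if x ∈ E then .B else .bot
  | .B, x => if x ∈ I then .B else if x ∈ D then .A else .bot
  | .bot, _ => .bot

theorem run_bot (I E D : Set α) (w : List α) : w.foldl (stp I E D) .bot = .bot := by
  induction w with
  | nil => rfl
  | cons x w ih => simpa [stp] using ih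

theorem run_allIn (I E D : Set α) {v : List α} (hv : v ∈ allIn I) (s : St) :
    v.foldl (stp I E D) s = s := by
  induction v with
  | nil => rfl
  | cons x v ih =>
    have hx : x ∈ I := hv x (by simp)
    have hv' : v ∈ allIn I := fun y hy => hv y (by simp [hy])
    have : stp I E D s x = s := by
      cases s <;> simp [stp, hx]
    simp only [List.foldl_cons, this]
    exact ih hv'

theorem kstar_append_mem {L : Language α} {w y : List α} (hw : w ∈ L∗) (hy : y ∈ L) :
    w ++ y ∈ L∗ := by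
  obtain ⟨S, rfl, hS⟩ := hw
  refine ⟨S ++ [y], by simp, ?_⟩
  intro t ht
  rcases List.mem_append.1 ht with h | h
  · exact hS t h
  · simp at h; subst h; exact hy

theorem mem_top_lets_mul {X : Set α} {L : Language α} {w : List α} :
    w ∈ (⊤ : Language α) * lets X * L ↔ ∃ u x v, x ∈ X ∧ v ∈ L ∧ w = u ++ x :: v := by
  constructor
  · intro h
    obtain ⟨a, ha, v, hv, rfl⟩ := Language.mem_mul.1 h
    obtain ⟨u, _, b, ⟨x, hx, rfl⟩, rfl⟩ := Language.mem_mul.1 ha
    exact ⟨u, x, v, hx, hv, by simp⟩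
  · rintro ⟨u, x, v, hx, hv, rfl⟩
    exact Language.mem_mul.2 ⟨u ++ [x], Language.mem_mul.2 ⟨u, trivial, [x], ⟨x, hx, rfl⟩, rfl⟩,
      v, hv, by simp⟩

theorem mem_allIn_lets_top {I X : Set α} {w : List α} :
    w ∈ allIn I * lets X * (⊤ : Language α) ↔ ∃ v x z, v ∈ allIn I ∧ x ∈ X ∧ w = v ++ x :: z := by
  constructor
  · intro h
    obtain ⟨a, ha, z, _, rfl⟩ := Language.mem_mul.1 h
    obtain ⟨v, hv, b, ⟨x, hx, rfl⟩, rfl⟩ := Language.mem_mul.1 ha
    exact ⟨v, x, z, hv, hx, by simp⟩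
  · rintro ⟨v, x, z, hv, hx, rfl⟩
    exact Language.mem_mul.2 ⟨v ++ [x], Language.mem_mul.2 ⟨v, hv, [x], ⟨x, hx, rfl⟩, rfl⟩,
      z, trivial, by simp⟩

section
variable (I E D : Set α)

def tok : Language α := lets I + lets E * allIn I * lets D

def bad : Language α :=
  allIn I * lets D * ⊤ + ⊤ * lets E * allIn I + ⊤ * lets E * (allIn I * lets E * ⊤)
    + ⊤ * lets D * (allIn I * lets D * ⊤) + ⊤ * lets (I ∪ E ∪ D)ᶜ * ⊤

theorem run_tok (hIE : Disjoint I E) (hID : Disjoint I D) {y : List α} (hy : y ∈ tok I E D) :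
    y.foldl (stp I E D) .A = .A := by
  rcases hy with ⟨x, hx, rfl⟩ | hy
  · simp [stp, hx]
  · obtain ⟨a, ha, b, ⟨d, hd, rfl⟩, rfl⟩ := Language.mem_mul.1 hy
    obtain ⟨c, ⟨e, he, rfl⟩, v, hv, rfl⟩ := Language.mem_mul.1 ha
    have heI : e ∉ I := fun h => Set.disjoint_left.1 hIE h he
    have hdI : d ∉ I := fun h => Set.disjoint_left.1 hID h hd
    simp only [List.foldl_append, List.foldl_cons, List.foldl_nil]
    have h1 : stp I E D .A e = .B := by simp [stp, heI, he]
    rw [h1, run_allIn I E D hv]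
    simp [stp, hdI, hd]

theorem run_kstar (hIE : Disjoint I E) (hID : Disjoint I D) {w : List α}
    (hw : w ∈ (tok I E D)∗) : w.foldl (stp I E D) .A = .A := by
  obtain ⟨S, rfl, hS⟩ := hw
  induction S with
  | nil => rfl
  | cons a S ih =>
    simp only [List.flatten_cons, List.foldl_append]
    rw [run_tok I E D hIE hID (hS a (by simp))]
    exact ih (fun y hy => hS y (by simp [hy]))

theorem kstar_le_bad_compl (hIE : Disjoint I E) (hID : Disjoint I D) (hED : Disjoint E D)
    {w : List α} (hw : w ∈ (tok I E D)∗) : w ∉ bad I E D := by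
  have hrun := run_kstar I E D hIE hID hw
  intro hb
  rcases hb with (((hb | hb) | hb) | hb) | hb
  · obtain ⟨v, d, z, hv, hd, rfl⟩ := mem_allIn_lets_top.1 hb
    have hdI : d ∉ I := fun h => Set.disjoint_left.1 hID h hd
    have hdE : d ∉ E := fun h => Set.disjoint_left.1 hED h hd
    simp only [List.foldl_append, List.foldl_cons] at hrun
    rw [run_allIn I E D hv] at hrun
    have : stp I E D .A d = .bot := by simp [stp, hdI, hdE]
    rw [this, run_bot] at hrun
    cases hrun
  · obtain ⟨u, e, v, he, hv, rfl⟩ := mem_top_lets_mul.1 hb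
    have heI : e ∉ I := fun h => Set.disjoint_left.1 hIE h he
    have heD : e ∉ D := fun h => Set.disjoint_left.1 hED he h
    simp only [List.foldl_append, List.foldl_cons] at hrun
    rw [run_allIn I E D hv] at hrun
    generalize u.foldl (stp I E D) .A = s at hrun
    cases s <;> simp [stp, heI, heD, he] at hrun
  · obtain ⟨u, e, v, he, hv, rfl⟩ := mem_top_lets_mul.1 hb
    obtain ⟨v1, e', z, hv1, he', rfl⟩ := mem_allIn_lets_top.1 hv
    have heI : e ∉ I := fun h => Set.disjoint_left.1 hIE h he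
    have heD : e ∉ D := fun h => Set.disjoint_left.1 hED he h
    have heI' : e' ∉ I := fun h => Set.disjoint_left.1 hIE h he'
    have heD' : e' ∉ D := fun h => Set.disjoint_left.1 hED he' h
    simp only [List.foldl_append, List.foldl_cons] at hrun
    rw [run_allIn I E D hv1] at hrun
    generalize u.foldl (stp I E D) .A = s at hrun
    cases s <;> simp [stp, heI, heD, he, heI', heD', he', run_bot] at hrun
  · obtain ⟨u, e, v, he, hv, rfl⟩ := mem_top_lets_mul.1 hb
    obtain ⟨v1, e', z, hv1, he', rfl⟩ := mem_allIn_lets_top.1 hv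
    have heI : e ∉ I := fun h => Set.disjoint_left.1 hID h he
    have heD : e ∉ E := fun h => Set.disjoint_left.1 hED h he
    have heI' : e' ∉ I := fun h => Set.disjoint_left.1 hID h he'
    have heD' : e' ∉ E := fun h => Set.disjoint_left.1 hED h he'
    simp only [List.foldl_append, List.foldl_cons] at hrun
    rw [run_allIn I E D hv1] at hrun
    generalize u.foldl (stp I E D) .A = s at hrun
    cases s <;> simp [stp, heI, heD, he, heI', heD', he', run_bot] at hrun
  · obtain ⟨u, o, v, ho, _, rfl⟩ := mem_top_lets_mul.1 hb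
    have h1 : o ∉ I := fun h => ho (Or.inl (Or.inl h))
    have h2 : o ∉ E := fun h => ho (Or.inl (Or.inr h))
    have h3 : o ∉ D := fun h => ho (Or.inr h)
    simp only [List.foldl_append, List.foldl_cons] at hrun
    generalize u.foldl (stp I E D) .A = s at hrun
    cases s <;> simp [stp, h1, h2, h3, run_bot] at hrun

theorem claim_alt (w : List α) :
    w ∉ allIn I * lets D * ⊤ → w ∉ ⊤ * lets E * (allIn I * lets E * ⊤) →
    w ∉ ⊤ * lets D * (allIn I * lets D * ⊤) → w ∉ ⊤ * lets (I ∪ E ∪ D)ᶜ * ⊤ →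
    (w ∈ (tok I E D)∗ ∧ (w ∈ allIn I ∨ ∃ u d v, d ∈ D ∧ v ∈ allIn I ∧ w = u ++ d :: v)) ∨
    (∃ k e v, k ∈ (tok I E D)∗ ∧ e ∈ E ∧ v ∈ allIn I ∧ w = k ++ e :: v) := by
  induction w using List.reverseRecOn with
  | nil =>
    intro _ _ _ _
    exact Or.inl ⟨Language.nil_mem_kstar _, Or.inl (nil_mem_allIn I)⟩
  | append_singleton w x ih =>
    intro h1 h3 h4 h5
    have g1 : w ∉ allIn I * lets D * ⊤ := by
      intro h
      obtain ⟨v, d, z, hv, hd, rfl⟩ := mem_allIn_lets_top.1 h
      exact h1 (mem_allIn_lets_top.2 ⟨v, d, z ++ [x], hv, hd, by simp⟩)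
    have g3 : w ∉ ⊤ * lets E * (allIn I * lets E * ⊤) := by
      intro h
      obtain ⟨u, e, v, he, hv, rfl⟩ := mem_top_lets_mul.1 h
      obtain ⟨v1, e', z, hv1, he', rfl⟩ := mem_allIn_lets_top.1 hv
      exact h3 (mem_top_lets_mul.2 ⟨u, e, v1 ++ e' :: (z ++ [x]), he,
        mem_allIn_lets_top.2 ⟨v1, e', z ++ [x], hv1, he', rfl⟩, by simp⟩)
    have g4 : w ∉ ⊤ * lets D * (allIn I * lets D * ⊤) := by
      intro h
      obtain ⟨u, e, v, he, hv, rfl⟩ := mem_top_lets_mul.1 h
      obtain ⟨v1, e', z, hv1, he', rfl⟩ := mem_allIn_lets_top.1 hv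
      exact h4 (mem_top_lets_mul.2 ⟨u, e, v1 ++ e' :: (z ++ [x]), he,
        mem_allIn_lets_top.2 ⟨v1, e', z ++ [x], hv1, he', rfl⟩, by simp⟩)
    have g5 : w ∉ ⊤ * lets (I ∪ E ∪ D)ᶜ * ⊤ := by
      intro h
      obtain ⟨u, o, v, ho, _, rfl⟩ := mem_top_lets_mul.1 h
      exact h5 (mem_top_lets_mul.2 ⟨u, o, v ++ [x], ho, trivial, by simp⟩)
    have hx : x ∈ I ∪ E ∪ D := by
      by_contra hx
      exact h5 (mem_top_lets_mul.2 ⟨w, x, [], hx, trivial, rfl⟩)
    rcases ih g1 g3 g4 g5 with ⟨hK, hlast⟩ | ⟨k, e, v, hk, he, hv, rfl⟩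
    · rcases hx with (hx | hx) | hx
      · left
        refine ⟨kstar_append_mem hK (Or.inl ⟨x, hx, rfl⟩), ?_⟩
        rcases hlast with hl | ⟨u, d, v, hd, hv, rfl⟩
        · left; exact allIn_append hl (allIn_singleton hx)
        · right
          exact ⟨u, d, v ++ [x], hd, allIn_append hv (allIn_singleton hx), by simp⟩
      · right
        exact ⟨w, x, [], hK, hx, nil_mem_allIn I, rfl⟩
      · exfalso
        rcases hlast with hl | ⟨u, d, v, hd, hv, rfl⟩
        · exact h1 (mem_allIn_lets_top.2 ⟨w, x, [], hl, hx, rfl⟩)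
        · exact h4 (mem_top_lets_mul.2 ⟨u, d, v ++ x :: [], hd,
            mem_allIn_lets_top.2 ⟨v, x, [], hv, hx, rfl⟩, by simp⟩)
    · rcases hx with (hx | hx) | hx
      · right
        exact ⟨k, e, v ++ [x], hk, he, allIn_append hv (allIn_singleton hx), by simp⟩
      · exfalso
        exact h3 (mem_top_lets_mul.2 ⟨k, e, v ++ x :: [], he,
            mem_allIn_lets_top.2 ⟨v, x, [], hv, hx, rfl⟩, by simp⟩)
      · left
        refine ⟨?_, Or.inr ⟨k ++ e :: v, x, [], hx, nil_mem_allIn I, rfl⟩⟩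
        have : k ++ e :: v ++ [x] = k ++ ([e] ++ v ++ [x]) := by simp
        rw [this]
        refine kstar_append_mem hk (Or.inr ?_)
        exact Language.mem_mul.2 ⟨[e] ++ v, Language.mem_mul.2 ⟨[e], ⟨e, he, rfl⟩, v, hv, rfl⟩,
          [x], ⟨x, hx, rfl⟩, rfl⟩

theorem kstar_tok_eq (hIE : Disjoint I E) (hID : Disjoint I D) (hED : Disjoint E D) :
    (tok I E D)∗ = (bad I E D)ᶜ := by
  ext w
  constructor
  · intro hw
    exact kstar_le_bad_compl I E D hIE hID hED hw
  · intro hw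
    have h1 : w ∉ allIn I * lets D * ⊤ := fun h => hw (Or.inl (Or.inl (Or.inl (Or.inl h))))
    have h2 : w ∉ ⊤ * lets E * allIn I := fun h => hw (Or.inl (Or.inl (Or.inl (Or.inr h))))
    have h3 : w ∉ ⊤ * lets E * (allIn I * lets E * ⊤) := fun h => hw (Or.inl (Or.inl (Or.inr h)))
    have h4 : w ∉ ⊤ * lets D * (allIn I * lets D * ⊤) := fun h => hw (Or.inl (Or.inr h))
    have h5 : w ∉ ⊤ * lets (I ∪ E ∪ D)ᶜ * ⊤ := fun h => hw (Or.inr h)
    rcases claim_alt I E D w h1 h3 h4 h5 with ⟨hK, _⟩ | ⟨k, e, v, _, he, hv, rfl⟩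
    · exact hK
    · exact (h2 (mem_top_lets_mul.2 ⟨k, e, v, he, hv, rfl⟩)).elim

theorem SF_alt [Fintype α] (hIE : Disjoint I E) (hID : Disjoint I D) (hED : Disjoint E D) :
    SF ((lets I + lets E * allIn I * lets D)∗) := by
  have := kstar_tok_eq I E D hIE hID hED
  unfold tok at this
  rw [this]
  unfold bad
  have hI := SF.allIn (α := α) I
  have hE := SF.lets (α := α) E
  have hD := SF.lets (α := α) D
  have hT := SF.top (α := α)
  exact (((((hI.mul hD).mul hT).add ((hT.mul hE).mul hI)).add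
    ((hT.mul hE).mul ((hI.mul hE).mul hT))).add ((hT.mul hD).mul ((hI.mul hD).mul hT))).add
    ((hT.mul (SF.lets _)).mul hT) |>.compl

end

/-- eliminating the second state of a two-state alternating component -/
theorem SFm_insert_pair [Fintype α] {Q : Type} {δ : Q → α → Q} {U : Set Q} {s1 s2 : Q}
    (h : SFm δ U) (hne : s1 ≠ s2)
    (h1 : ∀ x, δ s1 x ∉ U) (h2 : ∀ x, δ s2 x ∉ U)
    (hI : ∀ x, δ s1 x = s1 ↔ δ s2 x = s2)
    (hED : ∀ x, δ s2 x = s1 → δ s1 x ≠ s2) :
    SFm δ (insert s2 (insert s1 U)) := by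
  have hU1 : SFm δ (insert s1 U) := SFm_insert_exit h h1
  apply SFm_insert hU1
  rw [kleene_step, pathL_of_exit h2, pathL_of_exit h2, pathL_of_exit h1, pathL_of_exit h1,
    kstar_lets]
  have e : {x | δ s1 x = s1} = {x | δ s2 x = s2} := by
    ext x; exact hI x
  rw [e]
  apply SF_alt
  · rw [Set.disjoint_left]
    intro x hx hx'
    have a : δ s2 x = s2 := hx
    have b : δ s2 x = s1 := hx'
    exact hne (b.symm.trans a)
  · rw [Set.disjoint_left]
    intro x hx hx'
    have a : δ s1 x = s1 := (hI x).2 hx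
    have b : δ s1 x = s2 := hx'
    exact hne (a.symm.trans b)
  · rw [Set.disjoint_left]
    intro x hx hx'
    exact hED x hx hx'

end Vale.Agent.Lib.P329
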