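import Vale.Agent.Lib.P329.Rec

open Computability

namespace Vale.Agent.Lib.P329

variable {α : Type}

/-! ### two states -/

def tab2 : Fin 2 → Bool → Fin 2
  | q, false => q
  | q, true => q + 1

theorem Rec1_two [Fintype α] (k : α → Bool) (q : Fin 2) :
    Rec1 (fun w : List α => w.foldl (fun s x => tab2 s (k x)) q) := by
  have h1 : SFm (fun (s : Fin 2) (x : α) => tab2 s (k x)) (insert 1 ∅) :=
    SFm_insert_exit (SFm_empty _) (fun x => Set.notMem_empty _)
  refine Rec1_run (N := 0) h1 ?_ q
  ext s
  simp only [Set.mem_insert_iff, Set.mem_empty_iff_false, Set.mem_univ, iff_true]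
  revert s; decide

/-! ### four states -/

inductive K4
  | i | al | be | ga
  deriving DecidableEq

def tab4 : Fin 4 → K4 → Fin 4
  | q, .i => q
  | q, .al => ![1, 2, 0, 3] q
  | q, .be => ![2, 1, 3, 0] q
  | q, .ga => ![1, 3, 2, 0] q

theorem Rec1_four [Fintype α] (k : α → K4) (q : Fin 4) :
    Rec1 (fun w : List α => w.foldl (fun s x => tab4 s (k x)) q) := by
  have h1 : SFm (fun (s : Fin 4) (x : α) => tab4 s (k x)) (insert 1 ∅) :=
    SFm_insert_exit (SFm_empty _) (fun x => Set.notMem_empty _)
  have h2 : SFm (fun (s : Fin 4) (x : α) => tab4 s (k x)) (insert 2 (insert 1 ∅)) := by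
    refine SFm_insert_exit h1 (fun x => ?_)
    simp only [Set.mem_insert_iff, Set.mem_empty_iff_false]
    generalize k x = c
    cases c <;> decide
  have h3 : SFm (fun (s : Fin 4) (x : α) => tab4 s (k x)) (insert 3 (insert 2 (insert 1 ∅))) := by
    refine SFm_insert_exit h2 (fun x => ?_)
    simp only [Set.mem_insert_iff, Set.mem_empty_iff_false]
    generalize k x = c
    cases c <;> decide
  refine Rec1_run (N := 0) h3 ?_ q
  ext s
  simp only [Set.mem_insert_iff, Set.mem_empty_iff_false, Set.mem_univ, iff_true]
  revert s; decide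

/-! ### six states -/

inductive K6
  | z | a | d | e
  deriving DecidableEq

def tab6 : Fin 6 → K6 → Fin 6
  | q, .z => q
  | q, .a => ![3, 1, 2, 0, 4, 5] q
  | q, .d => ![1, 2, 3, 4, 5, 0] q
  | q, .e => ![2, 3, 1, 5, 0, 4] q

theorem Rec1_six [Fintype α] (k : α → K6) (q : Fin 6) :
    Rec1 (fun w : List α => w.foldl (fun s x => tab6 s (k x)) q) := by
  have h2 : SFm (fun (s : Fin 6) (x : α) => tab6 s (k x)) (insert 2 (insert 1 ∅)) := by
    refine SFm_insert_pair (SFm_empty _) (by decide) (fun x => Set.notMem_empty _)
      (fun x => Set.notMem_empty _) (fun x => ?_) (fun x => ?_)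
    · generalize k x = c
      cases c <;> decide
    · generalize k x = c
      cases c <;> decide
  have h3 : SFm (fun (s : Fin 6) (x : α) => tab6 s (k x)) (insert 3 (insert 2 (insert 1 ∅))) := by
    refine SFm_insert_exit h2 (fun x => ?_)
    simp only [Set.mem_insert_iff, Set.mem_empty_iff_false]
    generalize k x = c
    cases c <;> decide
  have h5 : SFm (fun (s : Fin 6) (x : α) => tab6 s (k x))
      (insert 5 (insert 4 (insert 3 (insert 2 (insert 1 ∅))))) := by
    refine SFm_insert_pair h3 (by decide) (fun x => ?_) (fun x => ?_) (fun x => ?_) (fun x => ?_)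
    · simp only [Set.mem_insert_iff, Set.mem_empty_iff_false]
      generalize k x = c
      cases c <;> decide
    · simp only [Set.mem_insert_iff, Set.mem_empty_iff_false]
      generalize k x = c
      cases c <;> decide
    · generalize k x = c
      cases c <;> decide
    · generalize k x = c
      cases c <;> decide
  refine Rec1_run (N := 0) h5 ?_ q
  ext s
  simp only [Set.mem_insert_iff, Set.mem_empty_iff_false, Set.mem_univ, iff_true]
  revert s; decide

end Vale.Agent.Lib.P329
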