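import Vale.Agent.Lib.P329.Defs

open Computability

namespace Vale.Agent.Lib.P329

variable {α : Type}

/-- star-free -/
def SF (L : Language α) : Prop := ∃ E : GRE α, E.sh = 0 ∧ E.lang = L

/-- generalized star height at most one -/
def H1 (L : Language α) : Prop := ∃ E : GRE α, E.sh ≤ 1 ∧ E.lang = L

theorem SF.h1 {L : Language α} (h : SF L) : H1 L := by
  obtain ⟨E, h0, hL⟩ := h
  exact ⟨E, by omega, hL⟩

theorem SF.zero : SF (0 : Language α) := ⟨.zero, rfl, rfl⟩
theorem SF.one : SF (1 : Language α) := ⟨.one, rfl, rfl⟩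
theorem SF.letter (a : α) : SF ({[a]} : Language α) := ⟨.letter a, rfl, rfl⟩

theorem SF.add {L M : Language α} (hL : SF L) (hM : SF M) : SF (L + M) := by
  obtain ⟨E, h0, rfl⟩ := hL
  obtain ⟨F, h1, rfl⟩ := hM
  exact ⟨.plus E F, by simp [GRE.sh, h0, h1], rfl⟩

theorem SF.mul {L M : Language α} (hL : SF L) (hM : SF M) : SF (L * M) := by
  obtain ⟨E, h0, rfl⟩ := hL
  obtain ⟨F, h1, rfl⟩ := hM
  exact ⟨.cat E F, by simp [GRE.sh, h0, h1], rfl⟩

theorem SF.compl {L : Language α} (hL : SF L) : SF (Lᶜ) := by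
  obtain ⟨E, h0, rfl⟩ := hL
  exact ⟨.neg E, by simp [GRE.sh, h0], rfl⟩

theorem SF.top : SF (⊤ : Language α) := by
  have h : SF ((0 : Language α)ᶜ) := SF.zero.compl
  have e : ((0 : Language α)ᶜ) = ⊤ := by
    have : (0 : Language α) = ⊥ := rfl
    rw [this, compl_bot]
  rwa [e] at h

theorem SF.inf {L M : Language α} (hL : SF L) (hM : SF M) : SF (L ⊓ M) := by
  have h : SF ((Lᶜ + Mᶜ)ᶜ) := (hL.compl.add hM.compl).compl
  have e : (Lᶜ + Mᶜ)ᶜ = L ⊓ M := by
    have : (Lᶜ + Mᶜ) = Lᶜ ⊔ Mᶜ := rfl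
    rw [this, compl_sup, compl_compl, compl_compl]
  rwa [e] at h

theorem SF.kstar {L : Language α} (hL : SF L) : H1 (L∗) := by
  obtain ⟨E, h0, rfl⟩ := hL
  exact ⟨.star E, by simp [GRE.sh, h0], rfl⟩

theorem H1.add {L M : Language α} (hL : H1 L) (hM : H1 M) : H1 (L + M) := by
  obtain ⟨E, h0, rfl⟩ := hL
  obtain ⟨F, h1, rfl⟩ := hM
  exact ⟨.plus E F, by simp [GRE.sh, h0, h1], rfl⟩

theorem H1.mul {L M : Language α} (hL : H1 L) (hM : H1 M) : H1 (L * M) := by
  obtain ⟨E, h0, rfl⟩ := hL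
  obtain ⟨F, h1, rfl⟩ := hM
  exact ⟨.cat E F, by simp [GRE.sh, h0, h1], rfl⟩

theorem H1.compl {L : Language α} (hL : H1 L) : H1 (Lᶜ) := by
  obtain ⟨E, h0, rfl⟩ := hL
  exact ⟨.neg E, by simpa [GRE.sh] using h0, rfl⟩

theorem H1.inf {L M : Language α} (hL : H1 L) (hM : H1 M) : H1 (L ⊓ M) := by
  have h : H1 ((Lᶜ + Mᶜ)ᶜ) := (hL.compl.add hM.compl).compl
  have e : (Lᶜ + Mᶜ)ᶜ = L ⊓ M := by
    have : (Lᶜ + Mᶜ) = Lᶜ ⊔ Mᶜ := rfl
    rw [this, compl_sup, compl_compl, compl_compl]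
  rwa [e] at h

/-- single letters from a set -/
def lets (B : Set α) : Language α := {w | ∃ x ∈ B, w = [x]}

/-- words all of whose letters lie in a set -/
def allIn (B : Set α) : Language α := {w | ∀ x ∈ w, x ∈ B}

theorem mem_lets {B : Set α} {w : List α} : w ∈ lets B ↔ ∃ x ∈ B, w = [x] := Iff.rfl
theorem mem_allIn {B : Set α} {w : List α} : w ∈ allIn B ↔ ∀ x ∈ w, x ∈ B := Iff.rfl

theorem SF.lets_finset (s : Finset α) : SF (lets (↑s : Set α)) := by
  classical
  induction s using Finset.induction_on with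
  | empty =>
    have : lets (↑(∅ : Finset α) : Set α) = 0 := by
      ext w; simp [mem_lets]
    rw [this]; exact SF.zero
  | insert a s _ ih =>
    have : lets (↑(insert a s : Finset α) : Set α) = {[a]} + lets (↑s : Set α) := by
      ext w
      rw [Language.mem_add, mem_lets, mem_lets]
      constructor
      · rintro ⟨x, hx, rfl⟩
        rw [Finset.coe_insert, Set.mem_insert_iff] at hx
        rcases hx with rfl | hx
        · left; rfl
        · right; exact ⟨x, hx, rfl⟩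
      · rintro (h | ⟨x, hx, rfl⟩)
        · have h' : w = [a] := h
          exact ⟨a, by simp, h'⟩
        · exact ⟨x, by simp [hx], rfl⟩
    rw [this]; exact (SF.letter a).add ih

theorem SF.lets [Fintype α] (B : Set α) : SF (lets B) := by
  classical
  have := SF.lets_finset (Finset.univ.filter (· ∈ B))
  have e : (↑(Finset.univ.filter (· ∈ B)) : Set α) = B := by ext x; simp
  rwa [e] at this

theorem allIn_eq (B : Set α) : allIn B = ((⊤ : Language α) * lets Bᶜ * ⊤)ᶜ := by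
  ext w
  constructor
  · intro h hw
    obtain ⟨u, hu, v, _, rfl⟩ := Language.mem_mul.1 hw
    obtain ⟨u1, _, u2, hu2, rfl⟩ := Language.mem_mul.1 hu
    obtain ⟨x, hx, rfl⟩ := hu2
    exact hx (h x (by simp))
  · intro h x hx
    by_contra hxB
    apply h
    obtain ⟨s, t, rfl⟩ := List.append_of_mem hx
    refine Language.mem_mul.2 ⟨s ++ [x], Language.mem_mul.2 ⟨s, trivial, [x], ⟨x, hxB, rfl⟩, rfl⟩,
      t, trivial, by simp⟩

theorem SF.allIn [Fintype α] (B : Set α) : SF (allIn B) := by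
  rw [allIn_eq]
  exact ((SF.top.mul (SF.lets _)).mul SF.top).compl

theorem kstar_lets (B : Set α) : (lets B)∗ = allIn B := by
  ext w
  constructor
  · rintro ⟨S, rfl, hS⟩ x hx
    obtain ⟨y, hy, hxy⟩ := List.mem_flatten.1 hx
    obtain ⟨z, hz, rfl⟩ := hS y hy
    simp at hxy; subst hxy; exact hz
  · intro h
    refine ⟨w.map (fun x => [x]), ?_, ?_⟩
    · clear h
      induction w with
      | nil => rfl
      | cons a t ih => simp [← ih]
    · intro y hy
      obtain ⟨x, hx, rfl⟩ := List.mem_map.1 hy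
      exact ⟨x, h x hx, rfl⟩

theorem nil_mem_allIn (B : Set α) : [] ∈ allIn B := by
  intro x hx; simp at hx

theorem allIn_append {B : Set α} {u v : List α} (hu : u ∈ allIn B) (hv : v ∈ allIn B) :
    u ++ v ∈ allIn B := by
  intro x hx
  rcases List.mem_append.1 hx with h | h
  · exact hu x h
  · exact hv x h

theorem allIn_singleton {B : Set α} {x : α} (hx : x ∈ B) : [x] ∈ allIn B := by
  intro y hy; simp at hy; subst hy; exact hx

end Vale.Agent.Lib.P329
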