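import Vale.Agent.Lib.P329.Aut

open Computability

namespace Vale.Agent.Lib.P329

variable {α : Type}

inductive JK
  | sp | c0 | c1 | c2
  deriving DecidableEq

/-- the counting automaton: tracks the grading and the parity of the number of special letters
read while the grading of the word read so far equals `σ` -/
def cst (c σ : ZMod 3) : ZMod 3 × ZMod 2 → JK → ZMod 3 × ZMod 2
  | (τ, n), .sp => (τ + c, if τ = σ then n + 1 else n)
  | (τ, n), .c0 => (τ, n)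
  | (τ, n), .c1 => (τ + 1, n)
  | (τ, n), .c2 => (τ + 2, n)

/-! ### special letter of grading zero -/

def k6a : JK → K6
  | .sp => .a | .c0 => .z | .c1 => .d | .c2 => .e

def k6z : JK → K6
  | .sp => .z | .c0 => .z | .c1 => .d | .c2 => .e

def start6 (σ : ZMod 3) : Fin 6 := ⟨(-σ).val, by have := ZMod.val_lt (-σ); omega⟩

def Inv0 (σ : ZMod 3) (s : Fin 6 × Fin 6) (c : ZMod 3 × ZMod 2) : Prop :=
  s.1.val % 3 = (c.1 - σ).val ∧ s.2.val % 3 = (c.1 - σ).val ∧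
    (s.1.val / 3 + s.2.val / 3 + c.2.val) % 2 = 0

instance (σ : ZMod 3) (s : Fin 6 × Fin 6) (c : ZMod 3 × ZMod 2) : Decidable (Inv0 σ s c) := by
  unfold Inv0; infer_instance

theorem Inv0_step : ∀ (σ : ZMod 3) (s : Fin 6 × Fin 6) (c : ZMod 3 × ZMod 2) (k : JK),
    Inv0 σ s c → Inv0 σ (tab6 s.1 (k6a k), tab6 s.2 (k6z k)) (cst 0 σ c k) := by
  intro σ s c k
  cases k <;> revert σ s c <;> decide

theorem Inv0_uniq : ∀ (σ : ZMod 3) (s : Fin 6 × Fin 6) (c c' : ZMod 3 × ZMod 2),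
    Inv0 σ s c → Inv0 σ s c' → c = c' := by
  decide


theorem foldl_pair {σ₁ σ₂ : Type} (δ₁ : σ₁ → α → σ₁) (δ₂ : σ₂ → α → σ₂) :
    ∀ (w : List α) (a : σ₁) (b : σ₂),
      w.foldl (fun (s : σ₁ × σ₂) x => (δ₁ s.1 x, δ₂ s.2 x)) (a, b) = (w.foldl δ₁ a, w.foldl δ₂ b)
  | [], _, _ => rfl
  | x :: w, a, b => foldl_pair δ₁ δ₂ w (δ₁ a x) (δ₂ b x)

theorem Inv0_init : ∀ σ : ZMod 3, Inv0 σ (start6 σ, start6 σ) (0, 0) := by decide

theorem count_rec0 [Fintype α] (jk : α → JK) (σ : ZMod 3) :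
    Rec1 (fun w : List α => w.foldl (fun s x => cst 0 σ s (jk x)) (0, 0)) := by
  have h1 := Rec1_six (fun x => k6a (jk x)) (start6 σ)
  have h2 := Rec1_six (fun x => k6z (jk x)) (start6 σ)
  refine Rec1.of_inv (h1.prod h2) (Inv0 σ) ?_ (Inv0_uniq σ)
  intro w
  have key := foldl_inv
    (fun (s : Fin 6 × Fin 6) (x : α) => (tab6 s.1 (k6a (jk x)), tab6 s.2 (k6z (jk x))))
    (fun s x => cst 0 σ s (jk x)) (Inv0 σ)
    (fun a b x hab => Inv0_step σ a b (jk x) hab) w (start6 σ, start6 σ) (0, 0) (Inv0_init σ)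
  rw [foldl_pair (fun s x => tab6 s (k6a (jk x))) (fun s x => tab6 s (k6z (jk x)))] at key
  exact key

/-! ### special letter of grading one -/

def k4a : JK → K4
  | .sp => .al | .c0 => .i | .c1 => .be | .c2 => .ga

def k4b : JK → K4
  | .sp => .be | .c0 => .i | .c1 => .be | .c2 => .ga

def k2 : JK → Bool
  | .sp => true | _ => false

def k6d : JK → K6
  | .sp => .d | .c0 => .z | .c1 => .d | .c2 => .e

/-- vector counting automaton (special letter of grading one) -/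
def vst : ZMod 3 × Fin 8 → JK → ZMod 3 × Fin 8
  | (τ, v), .sp => (τ + 1, ⟨(v.val ^^^ (2 ^ τ.val)) % 8, by omega⟩)
  | (τ, v), .c0 => (τ, v)
  | (τ, v), .c1 => (τ + 1, v)
  | (τ, v), .c2 => (τ + 2, v)

def Htab : List (List ℕ) :=
  [[0, 1, 2, 3, 3, 2, 1, 0], [0, 3, 1, 2, 2, 1, 3, 0], [0, 2, 3, 1, 1, 3, 2, 0]]

def par8 : List ℕ := [0, 1, 1, 0, 1, 0, 0, 1]

def Inv1 (s : (Fin 4 × Fin 4) × (Fin 2 × Fin 6)) (c : ZMod 3 × Fin 8) : Prop :=
  s.2.2.val % 3 = c.1.val ∧ s.1.1.val ^^^ s.1.2.val = (Htab.getD c.1.val []).getD c.2.val 0 ∧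
    s.2.1.val = par8.getD c.2.val 0

instance (s : (Fin 4 × Fin 4) × (Fin 2 × Fin 6)) (c : ZMod 3 × Fin 8) : Decidable (Inv1 s c) := by
  unfold Inv1; infer_instance

theorem Inv1_step : ∀ (s : (Fin 4 × Fin 4) × (Fin 2 × Fin 6)) (c : ZMod 3 × Fin 8) (k : JK),
    Inv1 s c → Inv1 ((tab4 s.1.1 (k4a k), tab4 s.1.2 (k4b k)), (tab2 s.2.1 (k2 k), tab6 s.2.2 (k6d k)))
      (vst c k) := by
  intro s c k
  cases k <;> revert s c <;> decide +kernel

theorem Inv1_uniq : ∀ (s : (Fin 4 × Fin 4) × (Fin 2 × Fin 6)) (c c' : ZMod 3 × Fin 8),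
    Inv1 s c → Inv1 s c' → c = c' := by
  decide +kernel

theorem Inv1_init : Inv1 ((0, 0), (0, 0)) (0, 0) := by decide

theorem vec_rec [Fintype α] (jk : α → JK) :
    Rec1 (fun w : List α => w.foldl (fun s x => vst s (jk x)) (0, 0)) := by
  have h1 := Rec1_four (fun x => k4a (jk x)) 0
  have h2 := Rec1_four (fun x => k4b (jk x)) 0
  have h3 := Rec1_two (fun x => k2 (jk x)) 0
  have h4 := Rec1_six (fun x => k6d (jk x)) 0
  refine Rec1.of_inv ((h1.prod h2).prod (h3.prod h4)) Inv1 ?_ Inv1_uniq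
  intro w
  have key := foldl_inv
    (fun (s : (Fin 4 × Fin 4) × (Fin 2 × Fin 6)) (x : α) =>
      ((tab4 s.1.1 (k4a (jk x)), tab4 s.1.2 (k4b (jk x))),
        (tab2 s.2.1 (k2 (jk x)), tab6 s.2.2 (k6d (jk x)))))
    (fun s x => vst s (jk x)) Inv1
    (fun a b x hab => Inv1_step a b (jk x) hab) w ((0, 0), (0, 0)) (0, 0) Inv1_init
  rw [foldl_pair (fun (s : Fin 4 × Fin 4) x => (tab4 s.1 (k4a (jk x)), tab4 s.2 (k4b (jk x))))
      (fun (s : Fin 2 × Fin 6) x => (tab2 s.1 (k2 (jk x)), tab6 s.2 (k6d (jk x)))),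
    foldl_pair (fun s x => tab4 s (k4a (jk x))) (fun s x => tab4 s (k4b (jk x))),
    foldl_pair (fun s x => tab2 s (k2 (jk x))) (fun s x => tab6 s (k6d (jk x)))] at key
  exact key

def InvV (σ : ZMod 3) (s : ZMod 3 × Fin 8) (c : ZMod 3 × ZMod 2) : Prop :=
  s.1 = c.1 ∧ c.2.val = (s.2.val / 2 ^ σ.val) % 2

instance (σ : ZMod 3) (s : ZMod 3 × Fin 8) (c : ZMod 3 × ZMod 2) : Decidable (InvV σ s c) := by
  unfold InvV; infer_instance

theorem InvV_step : ∀ (σ : ZMod 3) (s : ZMod 3 × Fin 8) (c : ZMod 3 × ZMod 2) (k : JK),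
    InvV σ s c → InvV σ (vst s k) (cst 1 σ c k) := by
  intro σ s c k
  cases k <;> revert σ s c <;> decide +kernel

theorem InvV_uniq : ∀ (σ : ZMod 3) (s : ZMod 3 × Fin 8) (c c' : ZMod 3 × ZMod 2),
    InvV σ s c → InvV σ s c' → c = c' := by
  decide +kernel

theorem InvV_init : ∀ σ : ZMod 3, InvV σ (0, 0) (0, 0) := by decide

theorem count_rec1 [Fintype α] (jk : α → JK) (σ : ZMod 3) :
    Rec1 (fun w : List α => w.foldl (fun s x => cst 1 σ s (jk x)) (0, 0)) := by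
  refine Rec1.of_inv (vec_rec jk) (InvV σ) ?_ (InvV_uniq σ)
  intro w
  exact foldl_inv (fun s x => vst s (jk x)) (fun s x => cst 1 σ s (jk x)) (InvV σ)
    (fun a b x hab => InvV_step σ a b (jk x) hab) w (0, 0) (0, 0) (InvV_init σ)

/-! ### special letter of grading two -/

def swp : JK → JK
  | .sp => .sp | .c0 => .c0 | .c1 => .c2 | .c2 => .c1

def InvS (s c : ZMod 3 × ZMod 2) : Prop := c.1 = - s.1 ∧ c.2 = s.2

instance (s c : ZMod 3 × ZMod 2) : Decidable (InvS s c) := by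
  unfold InvS; infer_instance

theorem InvS_step : ∀ (σ : ZMod 3) (s c : ZMod 3 × ZMod 2) (k : JK),
    InvS s c → InvS (cst 1 (-σ) s (swp k)) (cst 2 σ c k) := by
  intro σ s c k
  cases k <;> revert σ s c <;> decide +kernel

theorem InvS_uniq : ∀ (s c c' : ZMod 3 × ZMod 2), InvS s c → InvS s c' → c = c' := by
  decide +kernel

theorem count_rec2 [Fintype α] (jk : α → JK) (σ : ZMod 3) :
    Rec1 (fun w : List α => w.foldl (fun s x => cst 2 σ s (jk x)) (0, 0)) := by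
  refine Rec1.of_inv (count_rec1 (fun x => swp (jk x)) (-σ)) InvS ?_ InvS_uniq
  intro w
  exact foldl_inv (fun s x => cst 1 (-σ) s (swp (jk x))) (fun s x => cst 2 σ s (jk x)) InvS
    (fun a b x hab => InvS_step σ a b (jk x) hab) w (0, 0) (0, 0) (by decide)

theorem count_rec [Fintype α] (jk : α → JK) (c σ : ZMod 3) :
    Rec1 (fun w : List α => w.foldl (fun s x => cst c σ s (jk x)) (0, 0)) := by
  have hc : c = 0 ∨ c = 1 ∨ c = 2 := by revert c; decide
  rcases hc with rfl | rfl | rfl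
  · exact count_rec0 jk σ
  · exact count_rec1 jk σ
  · exact count_rec2 jk σ

end Vale.Agent.Lib.P329
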