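import Vale.Agent.Lib.P329.Rec

open Computability

namespace Vale.Agent.Lib.P329

variable {α T : Type}

/-- number of occurrences of the letter `x` in `w` such that `s` plus the grading of the part of
`w` before the occurrence equals `q` -/
def cntAt [DecidableEq α] [DecidableEq T] [Add T] (cls : α → T) (x : α) (q : T) :
    T → List α → ℕ
  | _, [] => 0
  | s, y :: w => (if y = x ∧ s = q then 1 else 0) + cntAt cls x q (s + cls y) w

/-- all graded letter counts, modulo all `n`, have fibres of generalized star height at most one -/
def GoodCount [DecidableEq α] [DecidableEq T] [Add T] [Zero T] (cls : α → T) : Prop :=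
  ∀ (n : ℕ) (_ : 0 < n) (x : α) (q : T), Rec1 (fun w : List α => (cntAt cls x q 0 w : ZMod n))

end Vale.Agent.Lib.P329
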