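import Vale.Agent.Lib.P329.Odo

open Computability

namespace Vale.Agent.Lib.P329

variable {α : Type}

/-- sum, over the jump letters, of a function of the running count of increment letters -/
def piv {R : Type} [AddMonoid R] (κ : α → OK) (g : ℕ → R) : ℕ → List α → R
  | _, [] => 0
  | c, x :: w => match κ x with
    | .z => piv κ g c w
    | .i => piv κ g (c + 1) w
    | .j => g c + piv κ g c w

section
variable {R : Type} [AddMonoid R] {κ : α → OK} {x : α} (g : ℕ → R)
theorem piv_z (h : κ x = .z) (c : ℕ) (w : List α) :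
    piv κ g c (x :: w) = piv κ g c w := by simp only [piv, h]
theorem piv_i (h : κ x = .i) (c : ℕ) (w : List α) :
    piv κ g c (x :: w) = piv κ g (c + 1) w := by simp only [piv, h]
theorem piv_j (h : κ x = .j) (c : ℕ) (w : List α) :
    piv κ g c (x :: w) = g c + piv κ g c w := by simp only [piv, h]
end

theorem piv_cast (m : ℕ) (κ : α → OK) (g : ℕ → ℕ) : ∀ (w : List α) (c : ℕ),
    ((piv κ g c w : ℕ) : ZMod m) = piv κ (fun c => (g c : ZMod m)) c w
  | [], _ => by simp [piv]
  | x :: w, c => by
    cases hk : κ x with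
    | z => rw [piv_z g hk, piv_z _ hk]; exact piv_cast m κ g w c
    | i => rw [piv_i g hk, piv_i _ hk]; exact piv_cast m κ g w _
    | j => rw [piv_j g hk, piv_j _ hk]; push_cast; rw [piv_cast m κ g w c]

theorem periodic_mod {R : Type} (M : ℕ) (g : ℕ → R) (hg : ∀ c, g (c + M) = g c) (c : ℕ) :
    g (c % M) = g c := by
  have h : ∀ q r : ℕ, g (r + M * q) = g r := by
    intro q r
    induction q with
    | zero => simp
    | succ q ih => rw [show r + M * (q + 1) = r + M * q + M by ring, hg, ih]
  conv_rhs => rw [← Nat.mod_add_div c M]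
  exact (h _ _).symm

theorem dvd_shift_iff (M : ℕ) (hM : 0 < M) (c i : ℕ) (hi : i < M) :
    M ∣ c + (M - i) ↔ i = c % M := by
  have hr : c % M < M := Nat.mod_lt _ hM
  have e : c + (M - i) = M * (c / M) + (c % M + (M - i)) := by
    have := Nat.mod_add_div c M
    omega
  rw [e, Nat.dvd_add_right (Dvd.intro _ rfl)]
  constructor
  · intro h
    have : c % M + (M - i) = M :=
      Nat.eq_of_dvd_of_lt_two_mul (by omega) h (by omega)
    omega
  · intro h
    have : c % M + (M - i) = M := by omega
    rw [this]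

theorem piv_eq_sum (M m : ℕ) (hM : 0 < M) (κ : α → OK) (g : ℕ → ZMod m)
    (hg : ∀ c, g (c + M) = g c) : ∀ (w : List α) (c : ℕ),
    piv κ g c w = ∑ i ∈ Finset.range M, g i * (cntJ M κ (c + (M - i)) w : ZMod m)
  | [], c => by simp [piv, cntJ]
  | x :: w, c => by
    cases hk : κ x with
    | z =>
      rw [piv_z g hk, piv_eq_sum M m hM κ g hg w c]
      apply Finset.sum_congr rfl
      intro i _
      rw [cntJ_z hk]
    | i =>
      rw [piv_i g hk, piv_eq_sum M m hM κ g hg w (c + 1)]
      apply Finset.sum_congr rfl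
      intro i _
      rw [cntJ_i hk, show c + (M - i) + 1 = c + 1 + (M - i) by omega]
    | j =>
      rw [piv_j g hk, piv_eq_sum M m hM κ g hg w c]
      have e : ∀ i ∈ Finset.range M, g i * (cntJ M κ (c + (M - i)) (x :: w) : ZMod m)
          = (if i = c % M then g i else 0) + g i * (cntJ M κ (c + (M - i)) w : ZMod m) := by
        intro i hi
        rw [cntJ_j hk]
        have hi' : i < M := Finset.mem_range.1 hi
        by_cases h : i = c % M
        · rw [if_pos h, if_pos ((dvd_shift_iff M hM c i hi').2 h)]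
          push_cast; ring
        · rw [if_neg h, if_neg (fun hc => h ((dvd_shift_iff M hM c i hi').1 hc))]
          push_cast; ring
      rw [Finset.sum_congr rfl e, Finset.sum_add_distrib, Finset.sum_ite_eq']
      rw [if_pos (Finset.mem_range.2 (Nat.mod_lt _ hM)), periodic_mod M g hg]

theorem Rec1_piv [Fintype α] (M m : ℕ) [NeZero M] [NeZero m] (κ : α → OK) (g : ℕ → ZMod m)
    (hg : ∀ c, g (c + M) = g c) (c : ℕ) : Rec1 (fun w : List α => piv κ g c w) := by
  have hM : 0 < M := Nat.pos_of_ne_zero (NeZero.ne M)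
  have h : Rec1 (fun (w : List α) (i : Fin M) => (cntJ M κ (c + (M - i.val)) w : ZMod m)) :=
    Rec1.pi (fun i => Rec1_cntJ M m κ (c + (M - i.val)))
  have h2 := h.comp (fun v => ∑ i : Fin M, g i.val * v i)
  have e : (fun w : List α => ∑ i : Fin M, g i.val * (cntJ M κ (c + (M - i.val)) w : ZMod m))
      = fun w => piv κ g c w := by
    funext w
    rw [piv_eq_sum M m hM κ g hg w c, Finset.sum_range]
  rwa [e] at h2

/-! ### closure of `Rec1` under ring operations -/

theorem Rec1.add' {m : ℕ} [NeZero m] {f g : List α → ZMod m} (hf : Rec1 f) (hg : Rec1 g) :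
    Rec1 (fun w => f w + g w) := (hf.prod hg).comp (fun p => p.1 + p.2)
theorem Rec1.sub' {m : ℕ} [NeZero m] {f g : List α → ZMod m} (hf : Rec1 f) (hg : Rec1 g) :
    Rec1 (fun w => f w - g w) := (hf.prod hg).comp (fun p => p.1 - p.2)
theorem Rec1.mul' {m : ℕ} [NeZero m] {f g : List α → ZMod m} (hf : Rec1 f) (hg : Rec1 g) :
    Rec1 (fun w => f w * g w) := (hf.prod hg).comp (fun p => p.1 * p.2)

end Vale.Agent.Lib.P329
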