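import Vale.Agent.Lib.P329.Pure
import Vale.Agent.Lib.P329.CountDefs
import Vale.Agent.Lib.P329.Piv

open Computability

namespace Vale.Agent.Lib.P329

variable {α B : Type} {p : ℕ}

/-! ### weighted sums along runs -/

def wsum {R : Type} [AddMonoid R] (δ₀ : B → α → B) (τ : B → α → R) : B → List α → R
  | _, [] => 0
  | b, x :: w => τ b x + wsum δ₀ τ (δ₀ b x) w

theorem wsum_congr {R : Type} [AddMonoid R] (δ₀ : B → α → B) (τ τ' : B → α → R) (J : B → Prop)
    (hJ : ∀ b x, J b → J (δ₀ b x)) (h : ∀ b x, J b → τ b x = τ' b x) :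
    ∀ (w : List α) (b : B), J b → wsum δ₀ τ b w = wsum δ₀ τ' b w
  | [], _, _ => rfl
  | x :: w, b, hb => by
    simp only [wsum]
    rw [h b x hb, wsum_congr δ₀ τ τ' J hJ h w _ (hJ b x hb)]

theorem wsum_add {R : Type} [AddCommMonoid R] (δ₀ : B → α → B) (τ τ' : B → α → R) :
    ∀ (w : List α) (b : B), wsum δ₀ (fun b x => τ b x + τ' b x) b w = wsum δ₀ τ b w + wsum δ₀ τ' b w
  | [], _ => by simp [wsum]
  | x :: w, b => by
    simp only [wsum]
    rw [wsum_add δ₀ τ τ' w]
    abel

theorem wsum_sub {R : Type} [AddCommGroup R] (δ₀ : B → α → B) (τ τ' : B → α → R) :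
    ∀ (w : List α) (b : B), wsum δ₀ (fun b x => τ b x - τ' b x) b w = wsum δ₀ τ b w - wsum δ₀ τ' b w
  | [], _ => by simp [wsum]
  | x :: w, b => by
    simp only [wsum]
    rw [wsum_sub δ₀ τ τ' w]
    abel

theorem wsum_zero {R : Type} [AddMonoid R] (δ₀ : B → α → B) :
    ∀ (w : List α) (b : B), wsum δ₀ (fun _ _ => (0 : R)) b w = 0
  | [], _ => rfl
  | x :: w, b => by
    simp only [wsum]
    rw [wsum_zero δ₀ w, add_zero]

theorem wsum_finsum {R ι : Type} [AddCommMonoid R] (δ₀ : B → α → B) (s : Finset ι)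
    (τ : ι → B → α → R) (w : List α) (b : B) :
    wsum δ₀ (fun b x => ∑ i ∈ s, τ i b x) b w = ∑ i ∈ s, wsum δ₀ (τ i) b w := by
  classical
  induction s using Finset.induction_on with
  | empty => simp [wsum_zero]
  | insert a s ha ih =>
    simp only [Finset.sum_insert ha]
    rw [wsum_add δ₀ (τ a) (fun b x => ∑ i ∈ s, τ i b x), ih]

theorem wsum_tele {R : Type} [AddCommGroup R] (δ₀ : B → α → B) (ψ : B → R) :
    ∀ (w : List α) (b : B), wsum δ₀ (fun b x => ψ (δ₀ b x) - ψ b) b w = ψ (w.foldl δ₀ b) - ψ b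
  | [], _ => by simp [wsum]
  | x :: w, b => by
    simp only [wsum, List.foldl_cons]
    rw [wsum_tele δ₀ ψ w]
    abel

theorem cnt_cast {R : Type} [AddMonoidWithOne R] (δ₀ : B → α → B) (inc : B → α → Bool) :
    ∀ (w : List α) (b : B),
      ((cnt δ₀ inc b w : ℕ) : R) = wsum δ₀ (fun b x => if inc b x then 1 else 0) b w
  | [], _ => by simp [cnt, wsum]
  | x :: w, b => by
    simp only [cnt, wsum]
    push_cast
    rw [cnt_cast δ₀ inc w]

/-! ### the global automaton -/

/-- grading and last letter of nonzero grading -/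
def gstep (cls : α → ZMod p) : ZMod p × Option α → α → ZMod p × Option α :=
  fun s x => if cls x = 0 then s else (s.1 + cls x, some x)

def ginc (cls : α → ZMod p) (P : Option α → α → Bool) (Y : α → Bool) (t : ZMod p) :
    ZMod p × Option α → α → Bool :=
  fun s x => if cls x = 0 then (decide (s.1 = t) && Y x)
    else (decide (s.1 + cls x = t) && !(P s.2 x))

def Inv (t : ZMod p) (g b : ZMod p × Option α) : Prop :=
  b.1 = g.1 - t ∧ (b.1 ≠ 0 → b.2 = g.2) ∧ (b.1 = 0 → b.2 = none)

theorem Inv_step (cls : α → ZMod p) (t : ZMod p) (g b : ZMod p × Option α) (x : α)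
    (h : Inv t g b) : Inv t (gstep cls g x) (bstep cls b x) := by
  obtain ⟨h1, h2, h3⟩ := h
  unfold gstep bstep
  by_cases hx : cls x = 0
  · rw [if_pos hx, if_pos hx]; exact ⟨h1, h2, h3⟩
  · rw [if_neg hx, if_neg hx]
    by_cases h0 : b.1 + cls x = 0
    · rw [if_pos h0]
      refine ⟨?_, fun h => absurd rfl h, fun _ => rfl⟩
      show (0 : ZMod p) = g.1 + cls x - t
      rw [← h0, h1]; ring
    · rw [if_neg h0]
      refine ⟨?_, fun _ => rfl, fun h => absurd h h0⟩
      show b.1 + cls x = g.1 + cls x - t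
      rw [h1]; ring

theorem Inv_inc (cls : α → ZMod p) (P : Option α → α → Bool) (Y : α → Bool) (t : ZMod p)
    (g b : ZMod p × Option α) (x : α) (h : Inv t g b) :
    binc cls P Y b x = ginc cls P Y t g x := by
  obtain ⟨h1, h2, h3⟩ := h
  unfold binc ginc
  by_cases hx : cls x = 0
  · rw [if_pos hx, if_pos hx]
    by_cases h0 : b.1 = 0
    · have : g.1 = t := by rw [h1] at h0; exact sub_eq_zero.1 h0
      simp [h0, h3 h0, this]
    · have : g.1 ≠ t := by
        intro hh; apply h0; rw [h1, hh, sub_self]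
      simp [h0, this]
  · rw [if_neg hx, if_neg hx]
    by_cases h0 : b.1 + cls x = 0
    · have hb : b.1 ≠ 0 := by
        intro hh; rw [hh, zero_add] at h0; exact hx h0
      have : g.1 + cls x = t := by
        rw [h1] at h0
        have : g.1 + cls x - t = 0 := by rw [← h0]; ring
        exact sub_eq_zero.1 this
      simp [h0, this, h2 hb]
    · have : g.1 + cls x ≠ t := by
        intro hh; apply h0; rw [h1, ← hh]; ring
      simp [h0, this]

theorem cnt_transfer (cls : α → ZMod p) (P : Option α → α → Bool) (Y : α → Bool) (t : ZMod p) :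
    ∀ (w : List α) (g b : ZMod p × Option α), Inv t g b →
      cnt (bstep cls) (binc cls P Y) b w = cnt (gstep cls) (ginc cls P Y t) g w
  | [], _, _, _ => rfl
  | x :: w, g, b, h => by
    simp only [cnt]
    rw [Inv_inc cls P Y t g b x h, cnt_transfer cls P Y t w _ _ (Inv_step cls t g b x h)]

theorem Inv_run (cls : α → ZMod p) (t : ZMod p) :
    ∀ (w : List α) (g b : ZMod p × Option α), Inv t g b →
      Inv t (w.foldl (gstep cls) g) (w.foldl (bstep cls) b)
  | [], _, _, h => h
  | x :: w, g, b, h => Inv_run cls t w _ _ (Inv_step cls t g b x h)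

theorem Inv_init (t : ZMod p) : Inv t ((0 : ZMod p), (none : Option α)) (-t, none) :=
  ⟨by simp, fun _ => rfl, fun _ => rfl⟩

theorem gstep_fst (cls : α → ZMod p) (s : ZMod p × Option α) (x : α) :
    (gstep cls s x).1 = s.1 + cls x := by
  unfold gstep
  split_ifs with h
  · rw [h, add_zero]
  · rfl

theorem cntAt_eq [DecidableEq α] (cls : α → ZMod p) (x : α) (q : ZMod p) :
    ∀ (w : List α) (g : ZMod p × Option α),
      cntAt cls x q g.1 w = cnt (gstep cls) (fun s y => decide (y = x ∧ s.1 = q)) g w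
  | [], _ => rfl
  | y :: w, g => by
    simp only [cntAt, cnt]
    rw [← gstep_fst, cntAt_eq cls x q w]
    simp

/-- available counts -/
theorem Rec1_avail [Fact p.Prime] [Fintype α] [DecidableEq α] (M : ℕ) [NeZero M]
    (cls : α → ZMod p) (P : Option α → α → Bool) (Y : α → Bool)
    (X₂ : α → Prop) (hP : ∀ l x, P l x = true → X₂ x ∧ ∃ x', l = some x' ∧ ¬ X₂ x') (t : ZMod p) :
    Rec1 (fun w : List α => wsum (gstep cls)
      (fun b x => if ginc cls P Y t b x then (1 : ZMod M) else 0) (0, none) w) := by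
  have h := (Rec1_layrun M cls P Y X₂ hP ((-t, none), 0)).comp Prod.snd
  have e : (fun w : List α => (w.foldl (lay M (bstep cls) (binc cls P Y)) ((-t, none), 0)).2)
      = fun w : List α => wsum (gstep cls)
      (fun b x => if ginc cls P Y t b x then (1 : ZMod M) else 0) (0, none) w := by
    funext w
    rw [lay_run, ← cnt_cast, cnt_transfer cls P Y t w _ _ (Inv_init t)]
    simp
  rwa [e] at h

theorem Rec1.congr {β : Type} {f g : List α → β} (hf : Rec1 f) (h : ∀ w, f w = g w) : Rec1 g := by
  have : f = g := funext h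
  rwa [this] at hf

theorem Rec1.finsum {ι : Type} [Fintype ι] {M : ℕ} [NeZero M] {f : ι → List α → ZMod M}
    (hf : ∀ i, Rec1 (f i)) : Rec1 (fun w => ∑ i, f i w) :=
  (Rec1.pi (f := fun w i => f i w) hf).comp (fun v => ∑ i, v i)

def P0 : Option α → α → Bool := fun _ _ => false
def Y0 : α → Bool := fun _ => false

theorem av_diff {R : Type} [AddGroupWithOne R] (cls : α → ZMod p) (P : Option α → α → Bool)
    (t : ZMod p) (b : ZMod p × Option α) (y : α) :
    (if ginc cls P0 Y0 t b y then (1 : R) else 0) - (if ginc cls P Y0 t b y then (1 : R) else 0)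
      = if (cls y ≠ 0 ∧ b.1 + cls y = t ∧ P b.2 y = true) then 1 else 0 := by
  unfold ginc P0 Y0
  by_cases hy : cls y = 0
  · simp [hy]
  · by_cases ht : b.1 + cls y = t
    · by_cases hP : P b.2 y = true
      · simp [hy, ht, hP]
      · simp [hy, ht, hP]
    · simp [hy, ht]

section diff
variable [DecidableEq α]

def Pc (cls : α → ZMod p) (a : α) (c : ZMod p) : Option α → α → Bool :=
  fun l y => decide (l = some a ∧ y ≠ a ∧ cls y = c)

def PB (a : α) : Option α → α → Bool :=
  fun l y => decide (y = a ∧ l ≠ none ∧ l ≠ some a)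

theorem Pc_ok (cls : α → ZMod p) (a : α) (c : ZMod p) :
    ∀ l x, Pc cls a c l x = true → (x ≠ a) ∧ ∃ x', l = some x' ∧ ¬ (x' ≠ a) := by
  intro l x h
  unfold Pc at h
  simp only [decide_eq_true_eq] at h
  exact ⟨h.2.1, a, h.1, by simp⟩

theorem PB_ok (a : α) :
    ∀ l x, PB a l x = true → (x = a) ∧ ∃ x', l = some x' ∧ ¬ (x' = a) := by
  intro l x h
  unfold PB at h
  simp only [decide_eq_true_eq] at h
  obtain ⟨h1, h2, h3⟩ := h
  cases l with
  | none => exact absurd rfl h2
  | some y => exact ⟨h1, y, rfl, fun hy => h3 (by rw [hy])⟩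

theorem P0_ok : ∀ (l : Option α) (x : α), P0 l x = true → True ∧ ∃ x', l = some x' ∧ ¬ True := by
  intro l x h
  simp [P0] at h

theorem local_id {R : Type} [AddCommGroup R] [One R] [NeZero p] (cls : α → ZMod p) (a : α) (ha : cls a ≠ 0)
    (h : ZMod p) (hh : h + cls a ≠ 0) (b : ZMod p × Option α) (y : α) (hJ : b.2 = none → b.1 = 0) :
    (if decide (y = a ∧ b.1 = h) then (1 : R) else 0)
      - (if decide (y = a ∧ b.1 = h + cls a) then (1 : R) else 0)
    = (∑ c : ZMod p, (if (cls y ≠ 0 ∧ b.1 + cls y = h + cls a + c ∧ Pc cls a c b.2 y = true)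
          then (1 : R) else 0))
      - (if (cls y ≠ 0 ∧ b.1 + cls y = h + cls a + cls a ∧ PB a b.2 y = true) then (1 : R) else 0)
      + ((if ((gstep cls b y).2 = some a ∧ (gstep cls b y).1 = h + cls a) then (1 : R) else 0)
        - (if (b.2 = some a ∧ b.1 = h + cls a) then (1 : R) else 0)) := by
  have hsum : (∑ c : ZMod p, (if (cls y ≠ 0 ∧ b.1 + cls y = h + cls a + c ∧ Pc cls a c b.2 y = true)
          then (1 : R) else 0))
      = if (cls y ≠ 0 ∧ b.1 = h + cls a ∧ b.2 = some a ∧ y ≠ a) then 1 else 0 := by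
    rw [Finset.sum_eq_single (cls y)]
    · unfold Pc
      simp only [decide_eq_true_eq, and_true, add_left_inj]
    · intro c _ hc
      rw [if_neg]
      unfold Pc
      simp only [decide_eq_true_eq]
      rintro ⟨_, _, _, _, h5⟩
      exact hc h5.symm
    · intro hc; exact absurd (Finset.mem_univ _) hc
  rw [hsum]
  unfold gstep PB
  by_cases hy0 : cls y = 0
  · have hya : y ≠ a := by
      intro e; rw [e] at hy0; exact ha hy0
    simp [hy0, hya]
  · by_cases hya : y = a
    · subst hya
      by_cases h1 : b.1 = h + cls y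
      · have h2 : b.1 ≠ h := by
          intro e; rw [e] at h1
          exact ha (left_eq_add.mp h1)
        have h3 : b.2 ≠ none := by
          intro e; apply hh; rw [← h1]; exact hJ e
        by_cases h4 : b.2 = some y
        · simp [hy0, h1, h4, ha]
        · simp [hy0, h1, h3, h4, ha]
      · by_cases h2 : b.1 = h
        · simp [hy0, h2, ha]
        · simp [hy0, h1, h2]
    · have hya' : ¬ (some y = some a) := by simpa using hya
      by_cases h1 : b.1 = h + cls a
      · by_cases h4 : b.2 = some a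
        · simp [hy0, hya, h1, h4]
        · simp [hy0, hya, h1, h4]
      · simp [hy0, hya, h1]

theorem gJ_step (cls : α → ZMod p) (b : ZMod p × Option α) (x : α)
    (h : b.2 = none → b.1 = 0) : (gstep cls b x).2 = none → (gstep cls b x).1 = 0 := by
  unfold gstep
  split_ifs
  · exact h
  · intro h'; simp at h'

theorem Rec1_final [Fact p.Prime] [Fintype α] (M : ℕ) [NeZero M] (cls : α → ZMod p) (a : α)
    (ha : cls a ≠ 0) (h : ZMod p) :
    Rec1 (fun w : List α => if ((w.foldl (gstep cls) (0, none)).2 = some a ∧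
      (w.foldl (gstep cls) (0, none)).1 = h + cls a) then (1 : ZMod M) else 0) := by
  have h1 := (Rec1_layrun M cls P0 Y0 (fun _ => True) P0_ok ((-h, none), 0)).comp
    (fun s => if (s.1.2 = some a ∧ s.1.1 = cls a) then (1 : ZMod M) else 0)
  refine h1.congr (fun w => ?_)
  rw [lay_run]
  obtain ⟨i1, i2, i3⟩ := Inv_run cls h w _ _ (Inv_init (α := α) h)
  set g := w.foldl (gstep cls) (0, none)
  set b := w.foldl (bstep cls) (-h, none)
  show (if (b.2 = some a ∧ b.1 = cls a) then (1 : ZMod M) else 0) = _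
  by_cases hb : b.1 = cls a
  · have hg : g.1 = h + cls a := by
      rw [i1] at hb
      rw [← hb]; ring
    have : b.2 = g.2 := i2 (by rw [hb]; exact ha)
    simp [hb, hg, this]
  · have hg : g.1 ≠ h + cls a := by
      intro e; apply hb; rw [i1, e]; ring
    simp [hb, hg]

theorem Rec1_diff [Fact p.Prime] [Fintype α] (M : ℕ) [NeZero M] (cls : α → ZMod p) (a : α)
    (ha : cls a ≠ 0) (h : ZMod p) (hh : h + cls a ≠ 0) :
    Rec1 (fun w : List α => ((cntAt cls a h 0 w : ℕ) : ZMod M)
      - ((cntAt cls a (h + cls a) 0 w : ℕ) : ZMod M)) := by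
  have hp : NeZero p := ⟨(Fact.out : p.Prime).ne_zero⟩
  have A0 : ∀ t, Rec1 (fun w : List α => wsum (gstep cls)
      (fun b x => if ginc cls P0 Y0 t b x then (1 : ZMod M) else 0) (0, none) w) :=
    fun t => Rec1_avail M cls P0 Y0 (fun _ => True) P0_ok t
  have Ac : ∀ c t, Rec1 (fun w : List α => wsum (gstep cls)
      (fun b x => if ginc cls (Pc cls a c) Y0 t b x then (1 : ZMod M) else 0) (0, none) w) :=
    fun c t => Rec1_avail M cls (Pc cls a c) Y0 (fun x => x ≠ a) (Pc_ok cls a c) t
  have AB : ∀ t, Rec1 (fun w : List α => wsum (gstep cls)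
      (fun b x => if ginc cls (PB a) Y0 t b x then (1 : ZMod M) else 0) (0, none) w) :=
    fun t => Rec1_avail M cls (PB a) Y0 (fun x => x = a) (PB_ok a) t
  have hE := Rec1.finsum (fun c : ZMod p => (A0 (h + cls a + c)).sub' (Ac c (h + cls a + c)))
  have hB := (A0 (h + cls a + cls a)).sub' (AB (h + cls a + cls a))
  have hF := Rec1_final M cls a ha h
  have hall := (hE.sub' hB).add' hF
  refine hall.congr (fun w => ?_)
  symm
  have e1 := cntAt_eq cls a h w ((0 : ZMod p), (none : Option α))
  have e2 := cntAt_eq cls a (h + cls a) w ((0 : ZMod p), (none : Option α))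
  simp only at e1 e2
  rw [e1, e2, cnt_cast, cnt_cast, ← wsum_sub]
  rw [wsum_congr (gstep cls) _ _ (fun b => b.2 = none → b.1 = 0) (gJ_step cls)
    (fun b y hJ => local_id (R := ZMod M) cls a ha h hh b y hJ) w _ (fun _ => rfl)]
  rw [wsum_add (gstep cls)
    (fun b y => (∑ c : ZMod p, (if (cls y ≠ 0 ∧ b.1 + cls y = h + cls a + c ∧
        Pc cls a c b.2 y = true) then (1 : ZMod M) else 0))
      - (if (cls y ≠ 0 ∧ b.1 + cls y = h + cls a + cls a ∧ PB a b.2 y = true)
        then (1 : ZMod M) else 0))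
    (fun b y => ((if ((gstep cls b y).2 = some a ∧ (gstep cls b y).1 = h + cls a)
        then (1 : ZMod M) else 0) - (if (b.2 = some a ∧ b.1 = h + cls a) then (1 : ZMod M) else 0)))]
  rw [wsum_tele (gstep cls)
    (fun b => if (b.2 = some a ∧ b.1 = h + cls a) then (1 : ZMod M) else 0)]
  rw [wsum_sub (gstep cls)
    (fun b y => (∑ c : ZMod p, (if (cls y ≠ 0 ∧ b.1 + cls y = h + cls a + c ∧
        Pc cls a c b.2 y = true) then (1 : ZMod M) else 0)))
    (fun b y => (if (cls y ≠ 0 ∧ b.1 + cls y = h + cls a + cls a ∧ PB a b.2 y = true)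
        then (1 : ZMod M) else 0))]
  rw [wsum_finsum (gstep cls) Finset.univ
    (fun c b y => (if (cls y ≠ 0 ∧ b.1 + cls y = h + cls a + c ∧
        Pc cls a c b.2 y = true) then (1 : ZMod M) else 0))]
  simp only [← av_diff, wsum_sub]
  simp

/-- letters of grading zero -/
theorem Rec1_zero [Fact p.Prime] [Fintype α] (M : ℕ) [NeZero M] (cls : α → ZMod p) (x : α)
    (hx : cls x = 0) (q : ZMod p) :
    Rec1 (fun w : List α => ((cntAt cls x q 0 w : ℕ) : ZMod M)) := by
  have A0 := Rec1_avail M cls P0 Y0 (fun _ => True) P0_ok q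
  have A1 := Rec1_avail M cls P0 (fun y => decide (y = x)) (fun _ => True) P0_ok q
  refine (A1.sub' A0).congr (fun w => ?_)
  have e1 := cntAt_eq cls x q w ((0 : ZMod p), (none : Option α))
  simp only at e1
  rw [e1, cnt_cast, ← wsum_sub]
  refine wsum_congr (gstep cls) _ _ (fun _ => True) (fun _ _ _ => trivial) (fun b y _ => ?_) w _
    trivial
  unfold ginc P0 Y0
  by_cases hy : cls y = 0
  · by_cases hq : b.1 = q
    · by_cases hyx : y = x
      · subst hyx
        simp [hy, hq]
      · simp [hy, hq, hyx]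
    · simp [hy, hq]
  · have hyx : y ≠ x := by
      intro e; rw [e] at hy; exact hy hx
    simp [hy, hyx]

theorem cntAt_sum [NeZero p] (cls : α → ZMod p) (x : α) : ∀ (w : List α) (s : ZMod p),
    ∑ h : ZMod p, cntAt cls x h s w = w.count x
  | [], _ => by simp [cntAt]
  | y :: w, s => by
    simp only [cntAt]
    rw [Finset.sum_add_distrib, cntAt_sum cls x w]
    by_cases hy : y = x
    · subst hy
      simp [Finset.sum_ite_eq]
      ring
    · simp [hy, List.count_cons_of_ne hy]

theorem cntAt_triv (x : α) : ∀ (w : List α),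
    cntAt (fun _ : α => (0 : ZMod p)) x 0 0 w = w.count x
  | [] => by simp [cntAt]
  | y :: w => by
    simp only [cntAt, add_zero]
    rw [cntAt_triv x w]
    by_cases hy : y = x
    · subst hy
      simp
      ring
    · simp [hy, List.count_cons_of_ne hy]

theorem Rec1_count [Fact p.Prime] [Fintype α] (M : ℕ) [NeZero M] (x : α) :
    Rec1 (fun w : List α => ((w.count x : ℕ) : ZMod M)) :=
  (Rec1_zero (p := p) M (fun _ => 0) x rfl 0).congr (fun w => by rw [cntAt_triv])

theorem Rec1_chain [Fact p.Prime] [Fintype α] (M : ℕ) [NeZero M] (cls : α → ZMod p) (a : α)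
    (ha : cls a ≠ 0) : ∀ j : ℕ, j < p →
    Rec1 (fun w : List α => ((cntAt cls a 0 0 w : ℕ) : ZMod M)
      - ((cntAt cls a ((j : ZMod p) * cls a) 0 w : ℕ) : ZMod M))
  | 0, _ => by
    refine ((Rec1_count (p := p) M a).comp (fun _ => (0 : ZMod M))).congr (fun w => ?_)
    simp
  | j + 1, hj => by
    have h1 := Rec1_chain M cls a ha j (by omega)
    have hne : ((j : ZMod p) * cls a) + cls a ≠ 0 := by
      have : ((j : ZMod p) * cls a) + cls a = ((j + 1 : ℕ) : ZMod p) * cls a := by
        push_cast; ring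
      rw [this]
      apply mul_ne_zero _ ha
      intro h0
      have := (ZMod.natCast_eq_zero_iff _ _).1 h0
      have := Nat.le_of_dvd (by omega) this
      omega
    have h2 := Rec1_diff M cls a ha ((j : ZMod p) * cls a) hne
    refine (h1.add' h2).congr (fun w => ?_)
    have : ((j : ZMod p) * cls a) + cls a = ((j + 1 : ℕ) : ZMod p) * cls a := by
      push_cast; ring
    rw [this]
    ring

theorem GoodCount_zmod [Fact p.Prime] [Fintype α] (cls : α → ZMod p) : GoodCount cls := by
  intro n hn x q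
  have hp : NeZero p := ⟨(Fact.out : p.Prime).ne_zero⟩
  have hp0 : 0 < p := (Fact.out : p.Prime).pos
  have hnz : NeZero n := ⟨by omega⟩
  by_cases hx : cls x = 0
  · exact Rec1_zero n cls x hx q
  · have hM : NeZero (p * n) := ⟨by positivity⟩
    set ν : ZMod p → List α → ZMod (p * n) := fun h w => ((cntAt cls x h 0 w : ℕ) : ZMod (p * n))
      with hν
    have hch : ∀ j : ZMod p, Rec1 (fun w => ν 0 w - ν (j * cls x) w) := by
      intro j
      have := Rec1_chain (p * n) cls x hx j.val (ZMod.val_lt j)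
      rw [ZMod.natCast_val, ZMod.cast_id', id] at this
      exact this
    have hsum : ∀ w, ∑ j : ZMod p, ν (j * cls x) w = ((w.count x : ℕ) : ZMod (p * n)) := by
      intro w
      rw [← cntAt_sum cls x w 0]
      push_cast
      exact Equiv.sum_comp (Equiv.mulRight₀ (cls x) hx) (fun h => ν h w)
    have hp0' : Rec1 (fun w => (p : ZMod (p * n)) * ν 0 w) := by
      refine ((Rec1.finsum hch).add' (Rec1_count (p := p) (p * n) x)).congr (fun w => ?_)
      rw [← hsum w, ← Finset.sum_add_distrib]
      simp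
    have hpq : Rec1 (fun w => (p : ZMod (p * n)) * ν q w) := by
      have h1 := hch (q / cls x)
      rw [div_mul_cancel₀ _ hx] at h1
      have h2 := h1.comp (fun z => (p : ZMod (p * n)) * z)
      refine (hp0'.sub' h2).congr (fun w => ?_)
      ring
    refine (hpq.comp (fun z => ((z.val / p : ℕ) : ZMod n))).congr (fun w => ?_)
    simp only [hν]
    rw [← Nat.cast_mul, ZMod.val_natCast, Nat.mul_mod_mul_left, Nat.mul_div_cancel_left _ hp0]
    simp

end diff

end Vale.Agent.Lib.P329
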