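import Mathlib

namespace Vale.Agent.Lib.P329

theorem exists_equivFun_of_module (p : ℕ) [Fact p.Prime] (V : Type) [AddCommGroup V]
    [Module (ZMod p) V] [Finite V] :
    ∃ (k : ℕ) (f : V →+ (Fin k → ZMod p)), Function.Injective f := by
  have iFD : Module.Finite (ZMod p) V := Module.Finite.of_finite
  exact ⟨Module.finrank (ZMod p) V,
    (Module.finBasis (ZMod p) V).equivFun.toLinearMap.toAddMonoidHom,
    (Module.finBasis (ZMod p) V).equivFun.injective⟩

theorem exists_inj_of_exponent (p : ℕ) [Fact p.Prime] (V : Type) [AddCommGroup V] [Finite V]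
    (hexp : ∀ x : V, p • x = 0) :
    ∃ (k : ℕ) (f : V →+ (Fin k → ZMod p)), Function.Injective f :=
  @exists_equivFun_of_module p _ V _ (AddCommGroup.zmodModule hexp) _

theorem exists_inj_of_comm (p : ℕ) [Fact p.Prime] (Q : Type) [CommGroup Q] [Finite Q]
    (hexp : ∀ x : Q, x ^ p = 1) :
    ∃ (k : ℕ) (f : Q →* Multiplicative (Fin k → ZMod p)), Function.Injective f := by
  have iF : Finite (Additive Q) := inferInstanceAs (Finite Q)
  obtain ⟨k, f, hf⟩ := exists_inj_of_exponent p (Additive Q)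
    (fun x => congrArg Additive.ofMul (hexp (Additive.toMul x)))
  refine ⟨k, AddMonoidHom.toMultiplicativeRight f, ?_⟩
  intro a b hab
  have h1 : f (Additive.ofMul a) = f (Additive.ofMul b) := congrArg Multiplicative.toAdd hab
  exact congrArg Additive.toMul (hf h1)

theorem exists_inj_of_group (p : ℕ) [Fact p.Prime] (Q : Type) [Group Q] [Finite Q]
    (hcomm : ∀ a b : Q, a * b = b * a) (hexp : ∀ x : Q, x ^ p = 1) :
    ∃ (k : ℕ) (f : Q →* Multiplicative (Fin k → ZMod p)), Function.Injective f :=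
  @exists_inj_of_comm p _ Q { (inferInstance : Group Q) with mul_comm := hcomm } _ hexp

/-- an abelian normal subgroup with elementary abelian quotient is the kernel of a morphism
to a power of `Z/p` -/
theorem exists_hom_of_elementary {G : Type} [Group G] [Finite G] (p : ℕ) [Fact p.Prime]
    (A : Subgroup G) [A.Normal] (hp : ∀ g : G, g ^ p ∈ A)
    (hc : ∀ g h : G, g * h * g⁻¹ * h⁻¹ ∈ A) :
    ∃ (k : ℕ) (t : G →* Multiplicative (Fin k → ZMod p)), t.ker = A := by
  classical
  have hcomm : ∀ a b : G ⧸ A, a * b = b * a := by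
    intro a b
    obtain ⟨g, rfl⟩ := QuotientGroup.mk_surjective a
    obtain ⟨h, rfl⟩ := QuotientGroup.mk_surjective b
    rw [← QuotientGroup.mk_mul, ← QuotientGroup.mk_mul, QuotientGroup.eq]
    have := hc h⁻¹ g⁻¹
    simpa [mul_assoc] using this
  have hexp : ∀ x : G ⧸ A, x ^ p = 1 := by
    intro x
    obtain ⟨g, rfl⟩ := QuotientGroup.mk_surjective x
    rw [← QuotientGroup.mk_pow]
    exact (QuotientGroup.eq_one_iff _).2 (hp g)
  obtain ⟨k, f, hf⟩ := exists_inj_of_group p (G ⧸ A) hcomm hexp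
  refine ⟨k, f.comp (QuotientGroup.mk' A), ?_⟩
  ext g
  rw [MonoidHom.mem_ker, MonoidHom.comp_apply]
  constructor
  · intro h
    have h3 : (QuotientGroup.mk' A g) = 1 := hf (h.trans (map_one f).symm)
    exact (QuotientGroup.eq_one_iff _).1 h3
  · intro h
    have h3 : (QuotientGroup.mk' A g) = 1 := (QuotientGroup.eq_one_iff _).2 h
    rw [h3, map_one]

end Vale.Agent.Lib.P329
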