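import Vale.Agent.Lib.P329.CountDefs

open Computability

namespace Vale.Agent.Lib.P329

variable {α : Type}

open Finset in
/-- dot product -/
def dotP {p k : ℕ} (l v : Fin k → ZMod p) : ZMod p := ∑ i, l i * v i

theorem dotP_add {p k : ℕ} (l v w : Fin k → ZMod p) : dotP l (v + w) = dotP l v + dotP l w := by
  simp [dotP, mul_add, Finset.sum_add_distrib]

theorem dotP_sub {p k : ℕ} (l v w : Fin k → ZMod p) : dotP l (v - w) = dotP l v - dotP l w := by
  simp [dotP, mul_sub, Finset.sum_sub_distrib]

theorem dotP_zero {p k : ℕ} (l : Fin k → ZMod p) : dotP l 0 = 0 := by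
  simp [dotP]

/-- the dot product with `v` as an additive morphism -/
def dotHom {p k : ℕ} (v : Fin k → ZMod p) : (Fin k → ZMod p) →+ ZMod p where
  toFun l := dotP l v
  map_zero' := by simp [dotP]
  map_add' a b := by simp [dotP, add_mul, Finset.sum_add_distrib]

open Finset in
theorem card_ker {p : ℕ} [Fact p.Prime] {k : ℕ} (v : Fin k → ZMod p) (hv : v ≠ 0) :
    p * #{l : Fin k → ZMod p | dotP l v = 0} = p ^ k := by
  classical
  obtain ⟨i0, hi0⟩ : ∃ i, v i ≠ 0 := by
    by_contra h
    push Not at h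
    exact hv (funext h)
  have hsurj : ∀ c : ZMod p, c ∈ Set.range (dotHom v) := by
    intro c
    refine ⟨Pi.single i0 (c * (v i0)⁻¹), ?_⟩
    show dotP (Pi.single i0 (c * (v i0)⁻¹)) v = c
    unfold dotP
    rw [Finset.sum_eq_single i0]
    · rw [Pi.single_eq_same, mul_assoc, inv_mul_cancel₀ hi0, mul_one]
    · intro j _ hj
      rw [Pi.single_eq_of_ne hj, zero_mul]
    · intro h; exact absurd (Finset.mem_univ _) h
  have h1 : #(Finset.univ : Finset (Fin k → ZMod p))
      = ∑ c : ZMod p, #{l : Fin k → ZMod p | dotHom v l = c} :=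
    Finset.card_eq_sum_card_fiberwise (fun _ _ => Finset.mem_univ _)
  have h2 : ∀ c : ZMod p, #{l : Fin k → ZMod p | dotHom v l = c}
      = #{l : Fin k → ZMod p | dotHom v l = 0} := fun c =>
    AddMonoidHom.card_fiber_eq_of_mem_range (dotHom v) (hsurj c) (hsurj 0)
  simp_rw [h2] at h1
  rw [Finset.sum_const, Finset.card_univ, Finset.card_univ, ZMod.card, smul_eq_mul] at h1
  simp only [Fintype.card_pi, ZMod.card, Finset.prod_const, Finset.card_univ, Fintype.card_fin] at h1
  exact h1.symm

open Finset in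
theorem card_dot {p : ℕ} [Fact p.Prime] {k : ℕ} (s q : Fin k → ZMod p) :
    p * #{l : Fin k → ZMod p | dotP l s = dotP l q}
      = p ^ k + p ^ k * (p - 1) * (if s = q then 1 else 0) := by
  classical
  have hp : 1 ≤ p := (Fact.out : p.Prime).one_lt.le
  by_cases h : s = q
  · subst h
    simp only [if_true, mul_one, Finset.filter_true]
    rw [Finset.card_univ]
    simp only [Fintype.card_pi, ZMod.card, Finset.prod_const, Finset.card_univ, Fintype.card_fin]
    obtain ⟨r, rfl⟩ : ∃ r, p = r + 1 := ⟨p - 1, by omega⟩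
    simp only [Nat.add_sub_cancel]
    ring
  · rw [if_neg h, mul_zero, add_zero, ← card_ker (s - q) (sub_ne_zero.2 h)]
    congr 2
    ext l
    simp only [Finset.mem_filter, Finset.mem_univ, true_and]
    rw [dotP_sub, sub_eq_zero]

/-- the scalar grading attached to a functional -/
def clsL {p k : ℕ} (cls : α → (Fin k → ZMod p)) (l : Fin k → ZMod p) : α → ZMod p :=
  fun x => dotP l (cls x)

theorem count_identity (p : ℕ) [Fact p.Prime] (k : ℕ) [DecidableEq α]
    (cls : α → (Fin k → ZMod p)) (x : α) (q : Fin k → ZMod p) (w : List α) :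
    ∀ s : Fin k → ZMod p,
    p * ∑ l : Fin k → ZMod p, cntAt (clsL cls l) x (dotP l q) (dotP l s) w
      = p ^ k * cntAt (fun _ : α => (0 : ZMod p)) x 0 0 w
        + p ^ k * (p - 1) * cntAt cls x q s w := by
  classical
  induction w with
  | nil => intro s; simp [cntAt]
  | cons y w ih =>
    intro s
    have e1 : ∀ l : Fin k → ZMod p, cntAt (clsL cls l) x (dotP l q) (dotP l s) (y :: w)
        = (if y = x ∧ dotP l s = dotP l q then 1 else 0)
          + cntAt (clsL cls l) x (dotP l q) (dotP l (s + cls y)) w := by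
      intro l
      rw [dotP_add]
      rfl
    have e2 : cntAt (fun _ : α => (0 : ZMod p)) x 0 0 (y :: w)
        = (if y = x then 1 else 0) + cntAt (fun _ : α => (0 : ZMod p)) x 0 0 w := by
      show (if y = x ∧ (0 : ZMod p) = 0 then 1 else 0)
        + cntAt (fun _ : α => (0 : ZMod p)) x 0 (0 + 0) w = _
      simp
    have e3 : cntAt cls x q s (y :: w)
        = (if y = x ∧ s = q then 1 else 0) + cntAt cls x q (s + cls y) w := rfl
    simp_rw [e1]
    rw [e2, e3, Finset.sum_add_distrib, mul_add, ih (s + cls y)]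
    by_cases hy : y = x
    · have e4 : (∑ l : Fin k → ZMod p, (if y = x ∧ dotP l s = dotP l q then 1 else 0))
          = (Finset.univ.filter (fun l : Fin k → ZMod p => dotP l s = dotP l q)).card := by
        simp [hy]
      rw [e4, card_dot]
      simp only [hy, true_and, if_true]
      ring
    · simp [hy]

theorem natCast_eq_of_mul (n D c : ℕ) (hD : 0 < D) :
    ((((D * c : ℕ) : ZMod (D * n)).val / D : ℕ) : ZMod n) = (c : ZMod n) := by
  rw [ZMod.val_natCast, Nat.mul_mod_mul_left, Nat.mul_div_cancel_left _ hD]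
  exact ZMod.natCast_mod c n

/-- from gradings in `Z/p` to gradings in `(Z/p)^k` -/
theorem GoodCount_pi (p : ℕ) [Fact p.Prime] (k : ℕ) [Fintype α] [DecidableEq α]
    (h1 : ∀ cls : α → ZMod p, GoodCount cls) (cls : α → (Fin k → ZMod p)) : GoodCount cls := by
  classical
  intro n hn x q
  have hp : 1 < p := (Fact.out : p.Prime).one_lt
  set D : ℕ := p ^ k * (p - 1) with hD
  have hDpos : 0 < D := Nat.mul_pos (pow_pos (by omega) _) (by omega)
  have hDn : 0 < D * n := Nat.mul_pos hDpos hn
  have iN : NeZero (D * n) := ⟨hDn.ne'⟩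
  have hA : Rec1 (fun w : List α => fun l : Fin k → ZMod p =>
      (cntAt (clsL cls l) x (dotP l q) 0 w : ZMod (D * n))) :=
    Rec1.pi (fun l => h1 (clsL cls l) (D * n) hDn x (dotP l q))
  have hB : Rec1 (fun w : List α =>
      (cntAt (fun _ : α => (0 : ZMod p)) x 0 0 w : ZMod (D * n))) :=
    h1 (fun _ => 0) (D * n) hDn x 0
  have hAB := (Rec1.prod hA hB).comp
    (fun d : ((Fin k → ZMod p) → ZMod (D * n)) × ZMod (D * n) =>
      ((((p : ZMod (D * n)) * ∑ l, d.1 l - (p : ZMod (D * n)) ^ k * d.2).val / D : ℕ) : ZMod n))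
  have e : (fun w : List α => (cntAt cls x q 0 w : ZMod n))
      = fun w : List α => ((((p : ZMod (D * n)) * ∑ l : Fin k → ZMod p,
          (cntAt (clsL cls l) x (dotP l q) 0 w : ZMod (D * n))
          - (p : ZMod (D * n)) ^ k * (cntAt (fun _ : α => (0 : ZMod p)) x 0 0 w : ZMod (D * n))).val
            / D : ℕ) : ZMod n) := by
    funext w
    have h := count_identity p k cls x q w 0
    simp_rw [dotP_zero] at h
    have h' := congrArg (fun z : ℕ => (z : ZMod (D * n))) h
    simp only [Nat.cast_add, Nat.cast_mul, Nat.cast_sum, Nat.cast_pow] at h'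
    have h2 : (p : ZMod (D * n)) * ∑ l : Fin k → ZMod p,
          (cntAt (clsL cls l) x (dotP l q) 0 w : ZMod (D * n))
          - (p : ZMod (D * n)) ^ k * (cntAt (fun _ : α => (0 : ZMod p)) x 0 0 w : ZMod (D * n))
        = ((D * cntAt cls x q 0 w : ℕ) : ZMod (D * n)) := by
      rw [h', hD]
      push_cast
      ring
    rw [h2, natCast_eq_of_mul n D _ hDpos]
  rw [e]
  exact hAB

theorem sum_eq_counts (p : ℕ) (k : ℕ) [Fintype α] [DecidableEq α]
    (cls : α → (Fin k → ZMod p)) (w : List α) :
    (w.map cls).sum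
      = ∑ x : α, (cntAt (fun _ : α => (0 : ZMod p)) x 0 0 w : ZMod p) • cls x := by
  induction w with
  | nil => simp [cntAt]
  | cons y w ih =>
    have e2 : ∀ x : α, cntAt (fun _ : α => (0 : ZMod p)) x 0 0 (y :: w)
        = (if y = x then 1 else 0) + cntAt (fun _ : α => (0 : ZMod p)) x 0 0 w := by
      intro x
      show (if y = x ∧ (0 : ZMod p) = 0 then 1 else 0)
        + cntAt (fun _ : α => (0 : ZMod p)) x 0 (0 + 0) w = _
      simp
    simp_rw [e2]
    rw [List.map_cons, List.sum_cons, ih]
    simp only [Nat.cast_add, add_smul, Finset.sum_add_distrib]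
    congr 1
    rw [Finset.sum_eq_single y]
    · simp
    · intro b _ hb
      simp [Ne.symm hb]
    · intro h; exact absurd (Finset.mem_univ _) h

/-- the grading itself is recognized -/
theorem Rec1_grade (p : ℕ) [Fact p.Prime] (k : ℕ) [Fintype α] [DecidableEq α]
    (h1 : ∀ cls : α → ZMod p, GoodCount cls) (cls : α → (Fin k → ZMod p)) :
    Rec1 (fun w : List α => (w.map cls).sum) := by
  classical
  have hp : 0 < p := (Fact.out : p.Prime).pos
  have hA : Rec1 (fun w : List α => fun x : α =>
      (cntAt (fun _ : α => (0 : ZMod p)) x 0 0 w : ZMod p)) :=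
    Rec1.pi (fun x => h1 (fun _ => 0) p hp x 0)
  have hB := hA.comp (fun d : α → ZMod p => ∑ x : α, d x • cls x)
  have e : (fun w : List α => (w.map cls).sum)
      = fun w : List α => ∑ x : α, (cntAt (fun _ : α => (0 : ZMod p)) x 0 0 w : ZMod p) • cls x := by
    funext w
    exact sum_eq_counts p k cls w
  rw [e]
  exact hB

end Vale.Agent.Lib.P329
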