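import Vale.Agent.Lib.P329.Count

open Computability

namespace Vale.Agent.Lib.P329

variable {α : Type}

/-! ### the big counting automaton -/

section big
variable [DecidableEq α] (cls : α → ZMod 3)

def stepD : ZMod 3 × (α × ZMod 3 → ZMod 2) → α → ZMod 3 × (α × ZMod 3 → ZMod 2) :=
  fun d y => (d.1 + cls y, fun p => if p = (y, d.1) then d.2 p + 1 else d.2 p)

def runD (w : List α) : ZMod 3 × (α × ZMod 3 → ZMod 2) := w.foldl (stepD cls) (0, fun _ => 0)

def jc (c : ZMod 3) : JK := if c = 0 then .c0 else if c = 1 then .c1 else .c2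

def jkOf (x : α) (y : α) : JK := if y = x then .sp else jc (cls y)

theorem cst_jc : ∀ (c σ c' : ZMod 3) (s : ZMod 3 × ZMod 2), cst c σ s (jc c') = (s.1 + c', s.2) := by
  decide +kernel

theorem coord_run (x : α) (σ : ZMod 3) (w : List α) :
    w.foldl (fun s y => cst (cls x) σ s (jkOf cls x y)) (0, 0)
      = ((runD cls w).1, (runD cls w).2 (x, σ)) := by
  have key := foldl_inv (stepD cls) (fun s y => cst (cls x) σ s (jkOf cls x y))
    (fun d s => s = (d.1, d.2 (x, σ))) ?_ w (0, fun _ => 0) (0, 0) rfl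
  · exact key
  · rintro ⟨τ, par⟩ s y rfl
    unfold jkOf stepD
    by_cases hy : y = x
    · subst hy
      simp only [if_true, cst, Prod.mk.injEq, true_and]
      by_cases hσ : τ = σ
      · subst hσ; simp
      · have : ¬ σ = τ := fun h => hσ h.symm
        simp [hσ, this]
    · have hxy : ¬ x = y := fun h => hy h.symm
      simp only [hy, if_false, cst_jc, Prod.mk.injEq, hxy, false_and]

theorem tau_run (w : List α) :
    w.foldl (fun s y => cst 0 0 s (jc (cls y))) (0, 0) = ((runD cls w).1, 0) := by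
  have key := foldl_inv (stepD cls) (fun s y => cst 0 0 s (jc (cls y)))
    (fun d s => s = (d.1, 0)) ?_ w (0, fun _ => 0) (0, 0) rfl
  · exact key
  · rintro ⟨τ, par⟩ s y rfl
    simp only [cst_jc, stepD]

theorem Rec1_runD [Fintype α] : Rec1 (runD cls) := by
  have h1 : Rec1 (fun w : List α => w.foldl (fun s y => cst 0 0 s (jc (cls y))) (0, 0)) :=
    count_rec (fun y => jc (cls y)) 0 0
  have h2 : Rec1 (fun (w : List α) (p : α × ZMod 3) =>
      w.foldl (fun s y => cst (cls p.1) p.2 s (jkOf cls p.1 y)) (0, 0)) :=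
    Rec1.pi (fun p => count_rec (jkOf cls p.1) (cls p.1) p.2)
  refine Rec1.of_inv (h1.prod h2)
    (fun b d => d.1 = b.1.1 ∧ ∀ p, d.2 p = (b.2 p).2) ?_ ?_
  · intro w
    refine ⟨?_, ?_⟩
    · simp only [tau_run]
    · intro p
      simp only [coord_run]
  · rintro b ⟨τ, par⟩ ⟨τ', par'⟩ ⟨h1, h2⟩ ⟨h3, h4⟩
    simp only at h1 h2 h3 h4
    have : par = par' := by
      funext p; rw [h2, h4]
    rw [h1, h3, this]

end big

/-! ### the group part -/

section grp
variable {G : Type} [Group G] (t : G →* Multiplicative (ZMod 3))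

theorem comm_of_sq {H : Type} [Group H] (h : ∀ a : H, a * a = 1) (a b : H) : a * b = b * a := by
  have h1 : a * b * (a * b) = 1 := h (a * b)
  calc a * b = (b * b) * (a * b) * (a * a) := by rw [h a, h b]; simp
    _ = b * (b * a * (b * a)) * a := by simp only [mul_assoc]
    _ = b * a := by rw [h (b * a)]; simp

/-- the kernel of `t` is commutative when all its elements are involutions -/
@[reducible] def kerComm (hA : ∀ g : G, t g = 1 → g * g = 1) : CommGroup t.ker :=
  { (inferInstance : Group t.ker) with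
    mul_comm := comm_of_sq (fun a => Subtype.ext (hA a.1 (MonoidHom.mem_ker.1 a.2))) }

noncomputable def PP [Fintype α] (hA : ∀ g : G, t g = 1 → g * g = 1)
    (b : α × ZMod 3 → t.ker) (par : α × ZMod 3 → ZMod 2) : t.ker :=
  letI := kerComm t hA
  ∏ p, (b p) ^ (par p).val

theorem pow_succ_two {H : Type} [Monoid H] (a : H) (h : a * a = 1) (n : ZMod 2) :
    a ^ (n + 1).val = a ^ n.val * a := by
  have hn : n = 0 ∨ n = 1 := by revert n; decide
  rcases hn with rfl | rfl
  · have : ((0 : ZMod 2) + 1).val = 1 := by decide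
    rw [this]; simp
  · have h1 : ((1 : ZMod 2) + 1).val = 0 := by decide
    have h2 : (1 : ZMod 2).val = 1 := by decide
    rw [h1, h2]; simp [h]

theorem PP_toggle [Fintype α] [DecidableEq α] (hA : ∀ g : G, t g = 1 → g * g = 1)
    (b : α × ZMod 3 → t.ker) (par : α × ZMod 3 → ZMod 2) (q : α × ZMod 3) :
    PP t hA b (fun p => if p = q then par p + 1 else par p) = PP t hA b par * b q := by
  letI := kerComm t hA
  unfold PP
  have h : ∀ p, (b p) ^ ((if p = q then par p + 1 else par p).val)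
      = (b p) ^ (par p).val * (if p = q then b p else 1) := by
    intro p
    split_ifs
    · exact pow_succ_two (b p) (Subtype.ext (hA (b p).1 (MonoidHom.mem_ker.1 (b p).2))) (par p)
    · simp
  simp_rw [h]
  rw [Finset.prod_mul_distrib, Finset.prod_ite_eq']
  simp

theorem exists_section (hA : ∀ g : G, t g = 1 → g * g = 1) :
    ∃ g0 : G, g0 ^ 3 = 1 ∧ ∀ g : G, t (g0 ^ (Multiplicative.toAdd (t g)).val) = t g := by
  by_cases h : ∃ g1 : G, t g1 = Multiplicative.ofAdd 1
  · obtain ⟨g1, h1⟩ := h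
    refine ⟨g1 ^ 4, ?_, ?_⟩
    · have h3 : t (g1 ^ 3) = 1 := by
        rw [map_pow, h1, ← ofAdd_nsmul]
        have : (3 • (1 : ZMod 3)) = 0 := by decide
        rw [this]; rfl
      have h6 := hA _ h3
      calc (g1 ^ 4) ^ 3 = (g1 ^ 3 * g1 ^ 3) * (g1 ^ 3 * g1 ^ 3) := by group
        _ = 1 := by rw [h6]; simp
    · intro g
      rw [map_pow, map_pow, h1, ← ofAdd_nsmul, ← ofAdd_nsmul]
      have : ∀ c : ZMod 3, c.val • (4 • (1 : ZMod 3)) = c := by decide
      rw [this]; rfl
  · refine ⟨1, by simp, ?_⟩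
    intro g
    have hg : ∀ c : ZMod 3, c = 0 ∨ c = 1 ∨ c = 2 := by decide
    rcases hg (Multiplicative.toAdd (t g)) with h0 | h1 | h2
    · simp only [one_pow, map_one]
      exact (Multiplicative.toAdd.injective (by rw [h0]; rfl))
    · exact (h ⟨g, Multiplicative.toAdd.injective (by rw [h1]; rfl)⟩).elim
    · refine (h ⟨g * g, Multiplicative.toAdd.injective ?_⟩).elim
      rw [map_mul, toAdd_mul, h2]; decide

theorem prod_eq_Phi [Fintype α] [DecidableEq α] (hA : ∀ g : G, t g = 1 → g * g = 1)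
    (φ : α → G) :
    ∃ Φ : ZMod 3 × (α × ZMod 3 → ZMod 2) → G, ∀ w : List α,
      (w.map φ).prod = Φ (runD (fun x => Multiplicative.toAdd (t (φ x))) w) := by
  obtain ⟨g0, h3, hsec⟩ := exists_section t hA
  set cls : α → ZMod 3 := fun x => Multiplicative.toAdd (t (φ x)) with hcls
  set s : ZMod 3 → G := fun τ => g0 ^ τ.val with hs
  have hs_add : ∀ a b : ZMod 3, s (a + b) = s a * s b := by
    intro a b
    simp only [hs]
    rw [← pow_add, ZMod.val_add, ← pow_eq_pow_mod _ h3]
  have hs_t : ∀ x, t (s (cls x)) = t (φ x) := fun x => hsec (φ x)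
  have hmem : ∀ p : α × ZMod 3, s p.2 * (φ p.1 * (s (cls p.1))⁻¹) * (s p.2)⁻¹ ∈ t.ker := by
    intro p
    rw [MonoidHom.mem_ker, map_mul, map_mul, map_mul, map_inv, map_inv, hs_t]
    simp
  set b : α × ZMod 3 → t.ker := fun p => ⟨_, hmem p⟩ with hb
  refine ⟨fun d => (PP t hA b d.2 : G) * s d.1, ?_⟩
  intro w
  have e : (w.map φ).prod = w.foldl (fun g y => g * φ y) 1 := by
    rw [List.prod_eq_foldl, List.foldl_map]
  rw [e]
  refine foldl_inv (fun g y => g * φ y) (stepD cls)
    (fun g d => g = (PP t hA b d.2 : G) * s d.1) ?_ w 1 (0, fun _ => 0) ?_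
  · rintro g ⟨τ, par⟩ y rfl
    simp only [stepD]
    rw [PP_toggle, Subgroup.coe_mul, hs_add]
    simp only [hb]
    group
  · simp [PP, hs]

end grp

/-- main statement in terms of `H1` -/
theorem main_H1 {G : Type} [Group G] (t : G →* Multiplicative (ZMod 3))
    (hA : ∀ g : G, t g = 1 → g * g = 1) [Fintype α] (φ : α → G) (S : Set G) :
    H1 (LangOf fun w : List α => (w.map φ).prod ∈ S) := by
  classical
  obtain ⟨Φ, hΦ⟩ := prod_eq_Phi t hA φ
  have h := (Rec1_runD (fun x => Multiplicative.toAdd (t (φ x)))).mem {d | Φ d ∈ S}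
  have e : (LangOf fun w : List α => runD (fun x => Multiplicative.toAdd (t (φ x))) w ∈ {d | Φ d ∈ S})
      = LangOf fun w : List α => (w.map φ).prod ∈ S := by
    ext w
    rw [mem_LangOf, mem_LangOf, hΦ w]
    rfl
  rwa [e] at h

end Vale.Agent.Lib.P329
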