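import Vale.Agent.Lib.P329.CountDefs

open Computability

namespace Vale.Agent.Lib.P329

variable {α : Type}

section grpC

variable {G T : Type} [Group G] [AddGroup T] (t : G →* Multiplicative T)

/-- the kernel of `t` as a commutative group -/
@[reducible] def kerCommC (hcomm : ∀ a b : G, t a = 1 → t b = 1 → a * b = b * a) :
    CommGroup t.ker :=
  { (inferInstance : Group t.ker) with
    mul_comm := fun a b => Subtype.ext
      (hcomm a.1 b.1 (MonoidHom.mem_ker.1 a.2) (MonoidHom.mem_ker.1 b.2)) }

/-- product of powers in the kernel -/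
noncomputable def KK [Fintype α] [Fintype T]
    (hcomm : ∀ a b : G, t a = 1 → t b = 1 → a * b = b * a)
    (b : α × T → t.ker) (e : α × T → ℕ) : t.ker :=
  letI := kerCommC t hcomm
  ∏ p, (b p) ^ (e p)

theorem KK_zero [Fintype α] [Fintype T]
    (hcomm : ∀ a b : G, t a = 1 → t b = 1 → a * b = b * a) (b : α × T → t.ker) :
    KK t hcomm b (fun _ => 0) = 1 := by
  let _ := kerCommC t hcomm
  unfold KK
  simp

theorem KK_bump [Fintype α] [Fintype T] [DecidableEq α] [DecidableEq T]
    (hcomm : ∀ a b : G, t a = 1 → t b = 1 → a * b = b * a)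
    (b : α × T → t.ker) (e : α × T → ℕ) (y : α) (q : T) :
    KK t hcomm b (fun p => (if y = p.1 ∧ q = p.2 then 1 else 0) + e p)
      = b (y, q) * KK t hcomm b e := by
  let _ := kerCommC t hcomm
  unfold KK
  have h : ∀ p : α × T, (b p) ^ ((if y = p.1 ∧ q = p.2 then 1 else 0) + e p)
      = (if p = (y, q) then b p else 1) * (b p) ^ (e p) := by
    intro p
    by_cases hp : p = (y, q)
    · subst hp
      simp [pow_add]
    · have : ¬ (y = p.1 ∧ q = p.2) := by
        rintro ⟨h1, h2⟩
        exact hp (Prod.ext h1.symm h2.symm)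
      simp [hp, this]
  simp_rw [h]
  rw [Finset.prod_mul_distrib, Finset.prod_ite_eq']
  simp

theorem KK_mod [Fintype α] [Fintype T]
    (hcomm : ∀ a b : G, t a = 1 → t b = 1 → a * b = b * a)
    (n : ℕ) (hexp : ∀ a : G, t a = 1 → a ^ n = 1)
    (b : α × T → t.ker) (e : α × T → ℕ) :
    KK t hcomm b e = KK t hcomm b (fun p => ((e p : ℕ) : ZMod n).val) := by
  let _ := kerCommC t hcomm
  unfold KK
  apply Finset.prod_congr rfl
  intro p _
  have h1 : (b p) ^ n = 1 := Subtype.ext (by
    rw [Subgroup.coe_pow]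
    exact hexp (b p).1 (MonoidHom.mem_ker.1 (b p).2))
  show b p ^ e p = b p ^ ((e p : ℕ) : ZMod n).val
  rw [ZMod.val_natCast]
  exact pow_eq_pow_mod _ h1

theorem prod_eq_PhiC [Fintype α] [Fintype T] [DecidableEq α] [DecidableEq T]
    (hcomm : ∀ a b : G, t a = 1 → t b = 1 → a * b = b * a)
    (n : ℕ) (hexp : ∀ a : G, t a = 1 → a ^ n = 1) (φ : α → G) :
    ∃ Φ : T × (α × T → ZMod n) → G, ∀ w : List α,
      (w.map φ).prod = Φ ((w.map (fun x => Multiplicative.toAdd (t (φ x)))).sum,
        fun p => (cntAt (fun x => Multiplicative.toAdd (t (φ x))) p.1 p.2 0 w : ZMod n)) := by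
  classical
  set cls : α → T := fun x => Multiplicative.toAdd (t (φ x)) with hcls
  -- section
  let s : T → G := fun q => if h : ∃ g : G, t g = Multiplicative.ofAdd q then h.choose else 1
  have hs : ∀ q : T, (∃ g : G, t g = Multiplicative.ofAdd q) → t (s q) = Multiplicative.ofAdd q := by
    intro q h
    simp only [s, dif_pos h]
    exact h.choose_spec
  have hstep : ∀ (q : T) (x : α), (∃ g : G, t g = Multiplicative.ofAdd q) →
      ∃ g : G, t g = Multiplicative.ofAdd (q + cls x) := by
    rintro q x ⟨g, hg⟩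
    refine ⟨g * φ x, ?_⟩
    rw [map_mul, hg, ofAdd_add]
    rfl
  let c : α × T → G := fun p => s p.2 * φ p.1 * (s (p.2 + cls p.1))⁻¹
  have hc : ∀ (q : T) (x : α), (∃ g : G, t g = Multiplicative.ofAdd q) → c (x, q) ∈ t.ker := by
    intro q x h
    rw [MonoidHom.mem_ker]
    simp only [c]
    rw [map_mul, map_mul, map_inv, hs q h, hs _ (hstep q x h), ofAdd_add]
    have : t (φ x) = Multiplicative.ofAdd (cls x) := rfl
    rw [this]
    group
  let b : α × T → t.ker := fun p => if h : c p ∈ t.ker then ⟨c p, h⟩ else 1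
  have hb : ∀ (q : T) (x : α), (∃ g : G, t g = Multiplicative.ofAdd q) →
      ((b (x, q) : t.ker) : G) = c (x, q) := by
    intro q x h
    simp only [b, dif_pos (hc q x h)]
  have key : ∀ (w : List α) (q : T), (∃ g : G, t g = Multiplicative.ofAdd q) →
      s q * (w.map φ).prod
        = (KK t hcomm b (fun p => cntAt cls p.1 p.2 q w) : G) * s (q + (w.map cls).sum) := by
    intro w
    induction w with
    | nil =>
      intro q _
      have : (fun p : α × T => cntAt cls p.1 p.2 q ([] : List α)) = fun _ => 0 := by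
        funext p; rfl
      rw [this, KK_zero]
      simp
    | cons y w ih =>
      intro q hq
      have e1 : (fun p : α × T => cntAt cls p.1 p.2 q (y :: w))
          = fun p => (if y = p.1 ∧ q = p.2 then 1 else 0) + cntAt cls p.1 p.2 (q + cls y) w := by
        funext p; rfl
      rw [e1, KK_bump, Subgroup.coe_mul, hb q y hq]
      have ih' := ih (q + cls y) (hstep q y hq)
      rw [List.map_cons, List.prod_cons, List.map_cons, List.sum_cons, ← add_assoc, mul_assoc
        (c (y, q)), ← ih']
      simp only [c]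
      group
  have h0 : ∃ g : G, t g = Multiplicative.ofAdd (0 : T) := ⟨1, by rw [map_one]; rfl⟩
  refine ⟨fun d => (s 0)⁻¹ * ((KK t hcomm b (fun p => (d.2 p).val) : t.ker) : G) * s (0 + d.1), ?_⟩
  intro w
  have h1 := key w 0 h0
  rw [KK_mod t hcomm n hexp] at h1
  simp only
  rw [mul_assoc, ← h1]
  group

end grpC

/-- group part: if `t : G → T` has commutative kernel of exponent dividing `n`, then the value of
a word in `G` is a function of its grading and of the graded letter counts modulo `n`. -/
theorem main_H1C {G T : Type} [Group G] [AddGroup T] [Finite T] [DecidableEq T]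
    (t : G →* Multiplicative T)
    (hcomm : ∀ a b : G, t a = 1 → t b = 1 → a * b = b * a)
    (n : ℕ) (hn : 0 < n) (hexp : ∀ a : G, t a = 1 → a ^ n = 1)
    [Fintype α] [DecidableEq α] (φ : α → G)
    (hgrade : Rec1 (fun w : List α => (w.map (fun x => Multiplicative.toAdd (t (φ x)))).sum))
    (hcount : GoodCount (fun x => Multiplicative.toAdd (t (φ x)))) (S : Set G) :
    H1 (LangOf fun w : List α => (w.map φ).prod ∈ S) := by
  have iT := Fintype.ofFinite T
  have iN : NeZero n := ⟨hn.ne'⟩
  obtain ⟨Φ, hΦ⟩ := prod_eq_PhiC t hcomm n hexp φ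
  have hR : Rec1 (fun w : List α => ((w.map (fun x => Multiplicative.toAdd (t (φ x)))).sum,
      fun p : α × T => (cntAt (fun x => Multiplicative.toAdd (t (φ x))) p.1 p.2 0 w : ZMod n))) :=
    Rec1.prod hgrade (Rec1.pi (fun p => hcount n hn p.1 p.2))
  have h := hR.mem {d | Φ d ∈ S}
  have e : (LangOf fun w : List α => ((w.map (fun x => Multiplicative.toAdd (t (φ x)))).sum,
      fun p : α × T => (cntAt (fun x => Multiplicative.toAdd (t (φ x))) p.1 p.2 0 w : ZMod n))
        ∈ {d | Φ d ∈ S})
      = LangOf fun w : List α => (w.map φ).prod ∈ S := by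
    ext w
    rw [mem_LangOf, mem_LangOf, hΦ w]
    rfl
  rwa [e] at h

end Vale.Agent.Lib.P329
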