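import Vale.Agent.Lib.P329.Basic

open Computability

namespace Vale.Agent.Lib.P329

variable {α Q : Type}

/-- nonempty words labelling a path from `q` to `q'` whose intermediate states lie in `U` -/
def Path (δ : Q → α → Q) (U : Set Q) : Q → Q → List α → Prop
  | _, _, [] => False
  | q, q', [x] => δ q x = q'
  | q, q', x :: y :: w => δ q x ∈ U ∧ Path δ U (δ q x) q' (y :: w)

def PathL (δ : Q → α → Q) (U : Set Q) (q q' : Q) : Language α := {w | Path δ U q q' w}

theorem mem_PathL {δ : Q → α → Q} {U : Set Q} {q q' : Q} {w : List α} :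
    w ∈ PathL δ U q q' ↔ Path δ U q q' w := Iff.rfl

theorem Path.mono {δ : Q → α → Q} {U V : Set Q} (hUV : U ⊆ V) :
    ∀ {w : List α} {q q' : Q}, Path δ U q q' w → Path δ V q q' w
  | [], _, _, h => h
  | [_], _, _, h => h
  | _ :: y :: w, _, _, h => ⟨hUV h.1, Path.mono hUV (w := y :: w) h.2⟩

theorem Path.cons {δ : Q → α → Q} {U : Set Q} {q q' : Q} {x : α} {w : List α}
    (h1 : δ q x ∈ U) (h2 : Path δ U (δ q x) q' w) : Path δ U q q' (x :: w) := by
  cases w with
  | nil => exact h2.elim
  | cons y w => exact ⟨h1, h2⟩

theorem Path.append {δ : Q → α → Q} {U : Set Q} {s : Q} (hs : s ∈ U) :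
    ∀ {u v : List α} {q q' : Q}, Path δ U q s u → Path δ U s q' v → Path δ U q q' (u ++ v)
  | [], _, _, _, h, _ => h.elim
  | [x], v, q, q', h, h' => by
      have h1 : δ q x = s := h
      exact Path.cons (by rw [h1]; exact hs) (by rw [h1]; exact h')
  | x :: y :: u, v, q, q', h, h' => by
      have := Path.append hs (u := y :: u) h.2 h'
      exact Path.cons h.1 this

theorem Path.star_append {δ : Q → α → Q} {U : Set Q} {s : Q} (hs : s ∈ U) {q' : Q}
    {v z : List α} (hv : v ∈ (PathL δ U s s)∗) (hz : Path δ U s q' z) :
    Path δ U s q' (v ++ z) := by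
  obtain ⟨S, rfl, hS⟩ := hv
  induction S with
  | nil => simpa using hz
  | cons a S ih =>
    have ha : Path δ U s s a := hS a (by simp)
    have := ih (fun y hy => hS y (by simp [hy]))
    simp only [List.flatten_cons, List.append_assoc]
    exact Path.append hs ha this

theorem kleene_step (δ : Q → α → Q) (U : Set Q) (s q q' : Q) :
    PathL δ (insert s U) q q' =
      PathL δ U q q' + PathL δ U q s * (PathL δ U s s)∗ * PathL δ U s q' := by
  apply le_antisymm
  · intro w hw
    induction w generalizing q with
    | nil => exact (hw : False).elim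
    | cons x w ih =>
      cases w with
      | nil => left; exact hw
      | cons y w =>
        have h1 : δ q x ∈ insert s U := hw.1
        have h2 : (y :: w) ∈ PathL δ (insert s U) (δ q x) q' := hw.2
        have h3 := ih (δ q x) h2
        rcases h1 with h1 | h1
        · rw [h1] at h3
          have hx : [x] ∈ PathL δ U q s := h1
          rcases h3 with h3 | h3
          · right
            refine Language.mem_mul.2 ⟨[x], Language.mem_mul.2 ⟨[x], hx, [],
              Language.nil_mem_kstar _, by simp⟩, _, h3, by simp⟩
          · right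
            obtain ⟨a, ha, z, hz, e⟩ := Language.mem_mul.1 h3
            obtain ⟨u, hu, v, hv, rfl⟩ := Language.mem_mul.1 ha
            refine Language.mem_mul.2 ⟨[x] ++ (u ++ v), Language.mem_mul.2 ⟨[x], hx, u ++ v, ?_,
              rfl⟩, z, hz, by simp [← e]⟩
            obtain ⟨S, rfl, hS⟩ := hv
            refine ⟨u :: S, by simp, ?_⟩
            intro t ht
            rcases List.mem_cons.1 ht with rfl | ht
            · exact hu
            · exact hS t ht
        · rcases h3 with h3 | h3
          · left
            exact Path.cons h1 h3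
          · right
            obtain ⟨a, ha, z, hz, e⟩ := Language.mem_mul.1 h3
            obtain ⟨u, hu, v, hv, rfl⟩ := Language.mem_mul.1 ha
            refine Language.mem_mul.2 ⟨(x :: u) ++ v, Language.mem_mul.2 ⟨x :: u,
              Path.cons h1 hu, v, hv, rfl⟩, z, hz, by simp [← e]⟩
  · intro w hw
    have hsub : U ⊆ insert s U := Set.subset_insert s U
    have hs : s ∈ insert s U := Set.mem_insert s U
    rcases hw with hw | hw
    · exact Path.mono hsub hw
    · obtain ⟨a, ha, z, hz, rfl⟩ := Language.mem_mul.1 hw
      obtain ⟨u, hu, v, hv, rfl⟩ := Language.mem_mul.1 ha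
      have hv' : v ∈ (PathL δ (insert s U) s s)∗ := by
        obtain ⟨S, rfl, hS⟩ := hv
        exact ⟨S, rfl, fun y hy => Path.mono hsub (hS y hy)⟩
      have h1 := Path.star_append hs hv' (Path.mono hsub hz)
      have h2 := Path.append hs (Path.mono hsub hu) h1
      show Path δ (insert s U) q q' (u ++ v ++ z)
      rw [List.append_assoc]; exact h2

theorem path_univ_iff (δ : Q → α → Q) :
    ∀ (w : List α) (q q' : Q), w ≠ [] → (Path δ Set.univ q q' w ↔ w.foldl δ q = q')
  | [], _, _, h => (h rfl).elim
  | [x], q, q', _ => by simp [Path]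
  | x :: y :: w, q, q', _ => by
      have := path_univ_iff δ (y :: w) (δ q x) q' (by simp)
      simp only [Path, Set.mem_univ, true_and, List.foldl_cons] at this ⊢
      exact this

theorem run_eq (δ : Q → α → Q) (q q' : Q) [Decidable (q = q')] :
    ({w | w.foldl δ q = q'} : Language α) =
      (if q = q' then 1 else 0) + PathL δ Set.univ q q' := by
  ext w
  by_cases hw : w = []
  · subst hw
    split_ifs with h
    · constructor
      · intro _; left; rfl
      · intro _; exact h
    · constructor
      · intro h'; exact (h h').elim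
      · rintro (h' | h')
        · exact h'.elim
        · exact (h' : False).elim
  · have := path_univ_iff δ w q q' hw
    constructor
    · intro h; right; exact this.2 h
    · rintro (h | h)
      · split_ifs at h
        · exact (hw h).elim
        · exact h.elim
      · exact this.1 h

/-- all path languages through `U` are star-free -/
def SFm (δ : Q → α → Q) (U : Set Q) : Prop := ∀ q q', SF (PathL δ U q q')

theorem pathL_of_exit {δ : Q → α → Q} {U : Set Q} {s : Q} (h : ∀ x, δ s x ∉ U) (q' : Q) :
    PathL δ U s q' = lets {x | δ s x = q'} := by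
  ext w
  cases w with
  | nil =>
    constructor
    · intro h'; exact (h' : False).elim
    · rintro ⟨x, _, h'⟩; simp at h'
  | cons x w =>
    cases w with
    | nil =>
      constructor
      · intro h'; exact ⟨x, h', rfl⟩
      · rintro ⟨y, hy, h'⟩
        simp at h'; subst h'; exact hy
    | cons y w =>
      constructor
      · intro h'; exact (h x h'.1).elim
      · rintro ⟨z, _, h'⟩; simp at h'

theorem SFm_empty [Fintype α] (δ : Q → α → Q) : SFm δ ∅ := by
  intro q q'
  rw [pathL_of_exit (fun x => Set.notMem_empty _)]
  exact SF.lets _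

theorem SFm_insert {δ : Q → α → Q} {U : Set Q} {s : Q} (h : SFm δ U)
    (hs : SF ((PathL δ U s s)∗)) : SFm δ (insert s U) := by
  intro q q'
  rw [kleene_step]
  exact (h q q').add (((h q s).mul hs).mul (h s q'))

theorem SFm_insert_exit [Fintype α] {δ : Q → α → Q} {U : Set Q} {s : Q} (h : SFm δ U)
    (hs : ∀ x, δ s x ∉ U) : SFm δ (insert s U) := by
  apply SFm_insert h
  rw [pathL_of_exit hs, kstar_lets]
  exact SF.allIn _

theorem H1_run {δ : Q → α → Q} {U : Set Q} {N : Q} (h : SFm δ U)
    (hU : insert N U = Set.univ) (q q' : Q) : H1 ({w | w.foldl δ q = q'} : Language α) := by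
  classical
  rw [run_eq, ← hU, kleene_step]
  refine H1.add ?_ ?_
  · split_ifs
    · exact SF.one.h1
    · exact SF.zero.h1
  · exact (h q q').h1.add (((h q N).h1.mul (h N N).kstar).mul (h N q').h1)

end Vale.Agent.Lib.P329
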