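import Vale.Agent.Lib.P329.Star

open Computability

namespace Vale.Agent.Lib.P329

variable {α B Q : Type}

/-! ### generalities on cut automata and powers -/

theorem pw_add (w : List α) : ∀ i j : ℕ, pw w (i + j) = pw w i ++ pw w j
  | 0, j => by simp [pw]
  | i + 1, j => by
    rw [show i + 1 + j = (i + j) + 1 by ring]
    simp only [pw, pw_add w i j, List.append_assoc]

theorem pw_mul (w : List α) (i : ℕ) : ∀ j : ℕ, pw w (i * j) = pw (pw w i) j
  | 0 => by simp [pw]
  | j + 1 => by
    rw [Nat.mul_succ, Nat.add_comm, pw_add, pw_mul w i j]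
    rfl

theorem cut_none [DecidableEq Q] (δ : Q → α → Q) (N : Q) (w : List α) :
    w.foldl (cut δ N) none = none := by
  induction w with
  | nil => rfl
  | cons x w ih => exact ih

theorem cut_some [DecidableEq Q] (δ : Q → α → Q) (N : Q) :
    ∀ (w : List α) (q q' : Q), w.foldl (cut δ N) (some q) = some q' → w.foldl δ q = q'
  | [], q, q', h => by simpa using h
  | x :: w, q, q', h => by
    simp only [List.foldl_cons, cut] at h ⊢
    split_ifs at h with hN
    · rw [cut_none] at h; exact absurd h (by simp)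
    · exact cut_some δ N w _ _ h

theorem cut_prefix [DecidableEq Q] (δ : Q → α → Q) (N : Q) (u v : List α) (q q' : Q)
    (h : (u ++ v).foldl (cut δ N) (some q) = some q') :
    u.foldl (cut δ N) (some q) = some (u.foldl δ q) := by
  rw [List.foldl_append] at h
  cases hu : u.foldl (cut δ N) (some q) with
  | none => rw [hu, cut_none] at h; exact absurd h (by simp)
  | some r => rw [cut_some δ N u q r hu]

theorem cut_ne [DecidableEq Q] (δ : Q → α → Q) (N : Q) (u : List α) (x : α) (q r : Q)
    (h : (u ++ [x]).foldl (cut δ N) (some q) = some r) : r ≠ N := by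
  rw [List.foldl_append] at h
  cases hu : u.foldl (cut δ N) (some q) with
  | none => rw [hu] at h; exact absurd h (by simp [cut])
  | some s =>
    rw [hu] at h
    simp only [List.foldl_cons, List.foldl_nil, cut] at h
    split_ifs at h with hN
    have : δ s x = r := by simpa using h
    rw [← this]; exact hN

/-! ### layered automata -/

/-- the automaton `δ₀` together with a counter modulo `M` -/
def lay (M : ℕ) (δ₀ : B → α → B) (inc : B → α → Bool) : B × ZMod M → α → B × ZMod M :=
  fun s x => (δ₀ s.1 x, if inc s.1 x then s.2 + 1 else s.2)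

/-- number of increments along a run -/
def cnt (δ₀ : B → α → B) (inc : B → α → Bool) : B → List α → ℕ
  | _, [] => 0
  | b, x :: w => (if inc b x then 1 else 0) + cnt δ₀ inc (δ₀ b x) w

theorem cnt_append (δ₀ : B → α → B) (inc : B → α → Bool) :
    ∀ (u v : List α) (b : B), cnt δ₀ inc b (u ++ v) = cnt δ₀ inc b u + cnt δ₀ inc (u.foldl δ₀ b) v
  | [], v, b => by simp [cnt]
  | x :: u, v, b => by
    simp only [List.cons_append, cnt, List.foldl_cons, cnt_append δ₀ inc u v]
    ring

theorem lay_run (M : ℕ) (δ₀ : B → α → B) (inc : B → α → Bool) :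
    ∀ (w : List α) (b : B) (c : ZMod M),
      w.foldl (lay M δ₀ inc) (b, c) = (w.foldl δ₀ b, c + (cnt δ₀ inc b w : ℕ))
  | [], b, c => by simp [cnt]
  | x :: w, b, c => by
    simp only [List.foldl_cons, cnt]
    rw [show lay M δ₀ inc (b, c) x = (δ₀ b x, if inc b x then c + 1 else c) from rfl, lay_run M δ₀ inc w]
    split_ifs <;> simp [add_assoc]

theorem cnt_ivt (δ₀ : B → α → B) (inc : B → α → Bool) :
    ∀ (w : List α) (b : B) (j : ℕ), 0 < j → j ≤ cnt δ₀ inc b w →
      ∃ u x v, w = u ++ x :: v ∧ inc (u.foldl δ₀ b) x = true ∧ cnt δ₀ inc b u + 1 = j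
  | [], b, j, h0, h => by simp [cnt] at h; omega
  | y :: w, b, j, h0, h => by
    simp only [cnt] at h
    by_cases hy : inc b y = true
    · by_cases hj : j = 1
      · exact ⟨[], y, w, rfl, hy, by simp [cnt, hj]⟩
      · simp only [hy, if_true] at h
        obtain ⟨u, x, v, e, h1, h2⟩ := cnt_ivt δ₀ inc w (δ₀ b y) (j - 1) (by omega) (by omega)
        refine ⟨y :: u, x, v, by rw [e]; rfl, h1, ?_⟩
        simp only [cnt, hy, if_true]
        omega
    · simp only [hy] at h
      obtain ⟨u, x, v, e, h1, h2⟩ := cnt_ivt δ₀ inc w (δ₀ b y) j h0 (by simpa using h)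
      refine ⟨y :: u, x, v, by rw [e]; rfl, h1, ?_⟩
      simp only [cnt, hy]
      simpa using h2

theorem lay_counterfree [DecidableEq B] (M : ℕ) [NeZero M] (δ₀ : B → α → B) (inc : B → α → Bool)
    (b₀ : B) (hinc : ∀ b x, inc b x = true → δ₀ b x = b₀)
    (hpure : ∀ (w : List α) (b : B) (k : ℕ), 0 < k → (pw w k).foldl δ₀ b = b →
      cnt δ₀ inc b (pw w k) = 0 → w.foldl δ₀ b = b) :
    ∀ (w : List α) (q : B × ZMod M) (k : ℕ), 0 < k →
      (pw w k).foldl (cut (lay M δ₀ inc) (b₀, 0)) (some q) = some q →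
      w.foldl (cut (lay M δ₀ inc) (b₀, 0)) (some q) = some q := by
  rintro w ⟨b, c⟩ k hk h
  have h1 := cut_some _ _ _ _ _ h
  rw [lay_run] at h1
  have hb : (pw w k).foldl δ₀ b = b := congrArg Prod.fst h1
  have hc : c + (cnt δ₀ inc b (pw w k) : ℕ) = c := congrArg Prod.snd h1
  obtain ⟨k', rfl⟩ : ∃ k', k = k' + 1 := ⟨k - 1, by omega⟩
  by_cases hz : cnt δ₀ inc b (pw w (k' + 1)) = 0
  · have hw := hpure w b (k' + 1) hk hb hz
    have hz' : cnt δ₀ inc b w = 0 := by
      have : pw w (k' + 1) = w ++ pw w k' := rfl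
      rw [this, cnt_append] at hz
      omega
    have h2 := cut_prefix _ _ w (pw w k') _ _ h
    rw [h2, lay_run, hw, hz']
    simp
  · exfalso
    have hdvd : (M : ℕ) ∣ cnt δ₀ inc b (pw w (k' + 1)) := by
      rw [← ZMod.natCast_eq_zero_iff]
      exact add_eq_left.mp hc
    have hM : 0 < M := Nat.pos_of_ne_zero (NeZero.ne M)
    have hle : M ≤ cnt δ₀ inc b (pw w (k' + 1)) := Nat.le_of_dvd (Nat.pos_of_ne_zero hz) hdvd
    have hcv : c.val < M := ZMod.val_lt c
    obtain ⟨u, x, v, e, hi, hj⟩ := cnt_ivt δ₀ inc (pw w (k' + 1)) b (M - c.val) (by omega) (by omega)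
    have e' : pw w (k' + 1) = (u ++ [x]) ++ v := by rw [e]; simp
    rw [e'] at h
    have h2 := cut_prefix _ _ (u ++ [x]) v _ _ h
    apply cut_ne _ _ u x _ _ h2
    rw [lay_run, List.foldl_append, cnt_append]
    simp only [List.foldl_cons, List.foldl_nil, cnt, hi, if_true]
    rw [hinc _ _ hi]
    have : c + ((cnt δ₀ inc b u + (1 + 0) : ℕ) : ZMod M) = 0 := by
      rw [show cnt δ₀ inc b u + (1 + 0) = M - c.val by omega]
      rw [Nat.cast_sub hcv.le]
      simp
    rw [this]

end Vale.Agent.Lib.P329
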