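import Vale.Agent.Lib.P329.Rec

open Computability

namespace Vale.Agent.Lib.P329

variable {α : Type}

/-- an automaton on `Fin n` all of whose transitions either go to `N` or do not decrease the
state has star-free path languages avoiding `N` -/
theorem SFm_mono [Fintype α] {n : ℕ} (δ : Fin n → α → Fin n) (N : Fin n)
    (h : ∀ s x, δ s x = N ∨ s.val ≤ (δ s x).val) :
    ∀ k, SFm δ {q | q ≠ N ∧ q.val < k} := by
  intro k
  induction k with
  | zero =>
    have : {q : Fin n | q ≠ N ∧ q.val < 0} = ∅ := by
      ext q; simp
    rw [this]; exact SFm_empty δ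
  | succ k ih =>
    by_cases hk : ∃ hk : k < n, (⟨k, hk⟩ : Fin n) ≠ N
    · obtain ⟨hk, hN⟩ := hk
      have e : {q : Fin n | q ≠ N ∧ q.val < k + 1}
          = insert (⟨k, hk⟩ : Fin n) {q | q ≠ N ∧ q.val < k} := by
        ext q
        simp only [Set.mem_setOf_eq, Set.mem_insert_iff]
        constructor
        · rintro ⟨h1, h2⟩
          by_cases hq : q.val = k
          · left; exact Fin.ext hq
          · right; exact ⟨h1, by omega⟩
        · rintro (rfl | ⟨h1, h2⟩)
          · exact ⟨hN, by simp⟩
          · exact ⟨h1, by omega⟩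
      rw [e]
      apply SFm_insert_exit ih
      intro x hx
      rcases h ⟨k, hk⟩ x with h1 | h1
      · exact hx.1 h1
      · have := hx.2
        simp at h1
        omega
    · have e : {q : Fin n | q ≠ N ∧ q.val < k + 1} = {q | q ≠ N ∧ q.val < k} := by
        ext q
        simp only [Set.mem_setOf_eq]
        constructor
        · rintro ⟨h1, h2⟩
          refine ⟨h1, ?_⟩
          by_contra hq
          have hq' : q.val = k := by omega
          apply hk
          refine ⟨hq' ▸ q.isLt, ?_⟩
          intro hc
          apply h1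
          rw [← hc]
          exact Fin.ext hq'
        · rintro ⟨h1, h2⟩
          exact ⟨h1, by omega⟩
      rw [e]; exact ih

theorem Rec1_mono [Fintype α] {n : ℕ} (δ : Fin n → α → Fin n) (N : Fin n)
    (h : ∀ s x, δ s x = N ∨ s.val ≤ (δ s x).val) (q : Fin n) :
    Rec1 (fun w : List α => w.foldl δ q) := by
  apply Rec1_run (SFm_mono δ N h n)
  ext s
  simp only [Set.mem_insert_iff, Set.mem_setOf_eq, Set.mem_univ, iff_true]
  by_cases hs : s = N
  · left; exact hs
  · right; exact ⟨hs, s.isLt⟩

end Vale.Agent.Lib.P329
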