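import Vale.Agent.Lib.P329.Suf

open Computability
open scoped commutatorElement

namespace Vale.Agent.Lib.P329

variable {α : Type}

section abstract_part

variable {G A : Type} [Group G] [CommGroup A] (ι : A →* G) (φ : α → G) (x : α)
  (c : α → ℕ → A) (T : α → A →* A)

/-- the weight-two part of the correction term -/
noncomputable def K2 : List α → A
  | [] => 1
  | a :: w => K2 w * c a (pc [({x} : Set α)] w)

/-- the weight-three part of the correction term -/
noncomputable def K3 : List α → A
  | [] => 1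
  | a :: w => K3 w * T a (K2 x c w)

theorem T_K3 (hTT : ∀ a b k, T a (T b k) = 1) (a : α) : ∀ w : List α, T a (K3 x c T w) = 1
  | [] => by simp [K3]
  | b :: w => by
    show T a (K3 x c T w * T b (K2 x c w)) = 1
    rw [map_mul, T_K3 hTT a w, hTT, one_mul]

theorem decomp [DecidableEq α] (hc : ∀ a r, ι (c a r) = ⁅φ a, (φ x) ^ r⁆)
    (hT : ∀ a k, ι (T a k) = ⁅φ a, ι k⁆) (hTT : ∀ a b k, T a (T b k) = 1) : ∀ w : List α,
    (w.map φ).prod = ι (K3 x c T w * K2 x c w) * (φ x) ^ (pc [({x} : Set α)] w)
      * (w.map (Function.update φ x 1)).prod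
  | [] => by simp [K3, K2, pc]
  | a :: w => by
    have ih := decomp hc hT hTT w
    have e1 : K3 x c T (a :: w) * K2 x c (a :: w)
        = T a (K3 x c T w * K2 x c w) * (K3 x c T w * K2 x c w) * c a (pc [({x} : Set α)] w) := by
      show K3 x c T w * T a (K2 x c w) * (K2 x c w * c a (pc [({x} : Set α)] w)) = _
      rw [map_mul, T_K3 x c T hTT a w, one_mul]
      simp only [mul_assoc, mul_left_comm, mul_comm]
    rw [e1, map_mul, map_mul, hT, hc, List.map_cons, List.prod_cons, ih, List.map_cons,
      List.prod_cons]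
    generalize ι (K3 x c T w * K2 x c w) = k
    generalize (w.map (Function.update φ x 1)).prod = P
    by_cases hax : a = x
    · subst hax
      rw [pc_pos (Set.mem_singleton a), pc_nil, Function.update_self]
      generalize pc [({a} : Set α)] w = r
      have : ⁅φ a, φ a ^ r⁆ = 1 :=
        (commutatorElement_eq_one_iff_commute).2 (Commute.pow_right (Commute.refl _) r)
      rw [this, commutatorElement_def, pow_succ']
      group
    · rw [pc_neg (fun h => hax (Set.mem_singleton_iff.1 h)), Function.update_of_ne hax]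
      generalize φ x ^ pc [({x} : Set α)] w = X
      rw [commutatorElement_def, commutatorElement_def]
      group

variable [Fintype α] [DecidableEq α]

theorem T_K2 (hpow : ∀ a b r, T a (c b r) = (T a (c b 1)) ^ r) (a : α) : ∀ w : List α,
    T a (K2 x c w) = ∏ b, (T a (c b 1)) ^ (pc [({b} : Set α), {x}] w)
  | [] => by simp [K2, pc]
  | a' :: w => by
    show T a (K2 x c w * c a' (pc [({x} : Set α)] w)) = _
    rw [map_mul, T_K2 hpow a w, hpow]
    have e : ∀ b, (T a (c b 1)) ^ (pc [({b} : Set α), {x}] (a' :: w))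
        = (T a (c b 1)) ^ (pc [({b} : Set α), {x}] w)
          * (if a' = b then (T a (c b 1)) ^ (pc [({x} : Set α)] w) else 1) := by
      intro b
      by_cases hb : a' = b
      · subst hb
        rw [pc_pos (Set.mem_singleton a'), pow_add, if_pos rfl]
      · rw [pc_neg (fun h => hb (Set.mem_singleton_iff.1 h)), if_neg hb, mul_one]
    rw [Finset.prod_congr rfl (fun b _ => e b), Finset.prod_mul_distrib, Finset.prod_ite_eq]
    simp

theorem K3_eq (hpow : ∀ a b r, T a (c b r) = (T a (c b 1)) ^ r) : ∀ w : List α,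
    K3 x c T w = ∏ a, ∏ b, (T a (c b 1)) ^ (pc [({a} : Set α), {b}, {x}] w)
  | [] => by simp [K3, pc]
  | a' :: w => by
    show K3 x c T w * T a' (K2 x c w) = _
    rw [K3_eq hpow w, T_K2 x c T hpow a' w]
    have e : ∀ a, (∏ b, (T a (c b 1)) ^ (pc [({a} : Set α), {b}, {x}] (a' :: w)))
        = (∏ b, (T a (c b 1)) ^ (pc [({a} : Set α), {b}, {x}] w))
          * (if a' = a then ∏ b, (T a (c b 1)) ^ (pc [({b} : Set α), {x}] w) else 1) := by
      intro a
      by_cases ha : a' = a
      · subst ha
        rw [if_pos rfl, ← Finset.prod_mul_distrib]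
        apply Finset.prod_congr rfl
        intro b _
        rw [pc_pos (Set.mem_singleton a'), pow_add]
      · rw [if_neg ha, mul_one]
        apply Finset.prod_congr rfl
        intro b _
        rw [pc_neg (fun h => ha (Set.mem_singleton_iff.1 h))]
    rw [Finset.prod_congr rfl (fun a _ => e a), Finset.prod_mul_distrib, Finset.prod_ite_eq]
    simp

/-- contribution of the letter `b` to `K2` -/
noncomputable def Sb (b : α) : List α → A
  | [] => 1
  | a :: w => Sb b w * (if a = b then c b (pc [({x} : Set α)] w) else 1)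

theorem K2_eq : ∀ w : List α, K2 x c w = ∏ b, Sb x c b w
  | [] => by simp [K2, Sb]
  | a :: w => by
    show K2 x c w * c a (pc [({x} : Set α)] w) = ∏ b, (Sb x c b w
      * (if a = b then c b (pc [({x} : Set α)] w) else 1))
    rw [K2_eq w, Finset.prod_mul_distrib, Finset.prod_ite_eq]
    simp

omit [Fintype α] in
theorem Sb_self (hx : ∀ r, c x r = 1) : ∀ w : List α, Sb x c x w = 1
  | [] => rfl
  | a :: w => by
    show Sb x c x w * (if a = x then c x (pc [({x} : Set α)] w) else 1) = 1
    rw [Sb_self hx w, hx]; simp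

omit [Fintype α] in
theorem Sb_eq (N : ℕ) (hN : 0 < N) (hper : ∀ a r, c a (r + N) = c a r) (b : α) (hb : b ≠ x) :
    ∀ w : List α, Sb x c b w
      = ∏ t ∈ Finset.range N, (c b t) ^ (sufJ N (kd ({x} : Set α) {b}) t w)
  | [] => by simp [Sb, sufJ]
  | a :: w => by
    have hd : Disjoint ({x} : Set α) {b} := disj_sing (Ne.symm hb)
    show Sb x c b w * (if a = b then c b (pc [({x} : Set α)] w) else 1) = _
    rw [Sb_eq N hN hper b hb w]
    by_cases hab : a = b
    · subst hab
      rw [if_pos rfl]
      have e : ∀ t ∈ Finset.range N, (c a t) ^ (sufJ N (kd ({x} : Set α) {a}) t (a :: w))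
          = (c a t) ^ (sufJ N (kd ({x} : Set α) {a}) t w)
            * (if pc [({x} : Set α)] w % N = t then c a t else 1) := by
        intro t _
        rw [sufJ_j (kd_j (Set.mem_singleton a)), cntI_kd' _ _ hd]
        by_cases ht : pc [({x} : Set α)] w % N = t
        · rw [if_pos ht, if_pos ht, pow_add, pow_one, mul_comm]
        · rw [if_neg ht, if_neg ht, Nat.zero_add, mul_one]
      rw [Finset.prod_congr rfl e, Finset.prod_mul_distrib, Finset.prod_ite_eq,
        if_pos (Finset.mem_range.2 (Nat.mod_lt _ hN)), periodic_mod N (c a) (hper a)]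
    · rw [if_neg hab, mul_one]
      apply Finset.prod_congr rfl
      intro t _
      by_cases hax : a = x
      · subst hax
        rw [sufJ_i (kd_i (fun h => hab (Set.mem_singleton_iff.1 h)) (Set.mem_singleton a))]
      · rw [sufJ_z (kd_z (fun h => hab (Set.mem_singleton_iff.1 h))
          (fun h => hax (Set.mem_singleton_iff.1 h)))]

theorem pow_val (N : ℕ) (hA : ∀ k : A, k ^ N = 1) (k : A) (n : ℕ) :
    k ^ ((n : ZMod N).val) = k ^ n := by
  rw [ZMod.val_natCast, ← pow_eq_pow_mod n (hA k)]

theorem Rec1_Sb [Finite A] (N : ℕ) [NeZero N] (hper : ∀ a r, c a (r + N) = c a r)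
    (hA : ∀ k : A, k ^ N = 1) (hx : ∀ r, c x r = 1) (b : α) :
    Rec1 (fun w : List α => Sb x c b w) := by
  have hN : 0 < N := Nat.pos_of_ne_zero (NeZero.ne N)
  by_cases hb : b = x
  · subst hb
    have h := (R_cnt N (∅ : Set α)).comp (fun _ => (1 : A))
    have e : (fun _ : List α => (1 : A)) = fun w => Sb b c b w := by
      funext w; rw [Sb_self b c hx w]
    rwa [e] at h
  · have h1 : Rec1 (fun (w : List α) (t : Fin N) =>
        (sufJ N (kd ({x} : Set α) {b}) t.val w : ZMod N)) :=
      Rec1.pi (fun t => Rec1_sufJ N N _ t.val t.isLt)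
    have h2 := h1.comp (fun v => ∏ t : Fin N, (c b t.val) ^ ((v t).val))
    have e : (fun w : List α => ∏ t : Fin N,
        (c b t.val) ^ (((sufJ N (kd ({x} : Set α) {b}) t.val w : ℕ) : ZMod N).val))
        = fun w => Sb x c b w := by
      funext w
      rw [Sb_eq x c N hN hper b hb w, Finset.prod_range]
      apply Finset.prod_congr rfl
      intro t _
      rw [pow_val N hA]
    rwa [e] at h2

theorem Rec1_K2 [Finite A] (N : ℕ) [NeZero N] (hper : ∀ a r, c a (r + N) = c a r)
    (hA : ∀ k : A, k ^ N = 1) (hx : ∀ r, c x r = 1) :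
    Rec1 (fun w : List α => K2 x c w) := by
  have h1 : Rec1 (fun (w : List α) (b : α) => Sb x c b w) :=
    Rec1.pi (fun b => Rec1_Sb x c N hper hA hx b)
  have h2 := h1.comp (fun v => ∏ b, v b)
  have e : (fun w : List α => ∏ b, Sb x c b w) = fun w => K2 x c w := by
    funext w; rw [K2_eq]
  rwa [e] at h2

theorem Rec1_K3 [Finite A] (N : ℕ) [NeZero N] (hA : ∀ k : A, k ^ N = 1)
    (hpow : ∀ a b r, T a (c b r) = (T a (c b 1)) ^ r) :
    Rec1 (fun w : List α => K3 x c T w) := by
  have h1 : Rec1 (fun (w : List α) (p : α × α) =>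
      (pc [({p.1} : Set α), {p.2}, {x}] w : ZMod N)) :=
    Rec1.pi (fun p => R_word N [p.1, p.2, x] (by simp))
  have h2 := h1.comp (fun v => ∏ a, ∏ b, (T a (c b 1)) ^ ((v (a, b)).val))
  have e : (fun w : List α => ∏ a, ∏ b,
      (T a (c b 1)) ^ (((pc [({a} : Set α), {b}, {x}] w : ℕ) : ZMod N).val))
      = fun w => K3 x c T w := by
    funext w
    rw [K3_eq x c T hpow w]
    apply Finset.prod_congr rfl
    intro a _
    apply Finset.prod_congr rfl
    intro b _
    rw [pow_val N hA]
  rwa [e] at h2

end abstract_part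

end Vale.Agent.Lib.P329
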