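import Vale.Agent.Lib.P329.Nil3

open Computability
open scoped commutatorElement

namespace Vale.Agent.Lib.P329

variable {α : Type}

section facts
variable {G : Type} [Group G]

theorem mem2 (a b : G) : ⁅a, b⁆ ∈ (⊤ : Subgroup G).lowerCentralSeries 1 :=
  Subgroup.commutator_mem_commutator (Subgroup.mem_top a) (Subgroup.mem_top b)

theorem mem3 {k : G} (hk : k ∈ (⊤ : Subgroup G).lowerCentralSeries 1) (g : G) :
    ⁅k, g⁆ ∈ (⊤ : Subgroup G).lowerCentralSeries 2 :=
  Subgroup.commutator_mem_commutator hk (Subgroup.mem_top g)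

theorem mem3' {k : G} (hk : k ∈ (⊤ : Subgroup G).lowerCentralSeries 1) (g : G) :
    ⁅g, k⁆ ∈ (⊤ : Subgroup G).lowerCentralSeries 2 := by
  rw [← commutatorElement_inv]
  exact Subgroup.inv_mem _ (mem3 hk g)

variable (h3 : (⊤ : Subgroup G).lowerCentralSeries 3 = ⊥)
include h3

theorem cen {z : G} (hz : z ∈ (⊤ : Subgroup G).lowerCentralSeries 2) (g : G) : ⁅z, g⁆ = 1 := by
  have : ⁅z, g⁆ ∈ (⊤ : Subgroup G).lowerCentralSeries 3 :=
    Subgroup.commutator_mem_commutator hz (Subgroup.mem_top g)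
  rw [h3] at this
  exact Subgroup.mem_bot.1 this

theorem cen' {z : G} (hz : z ∈ (⊤ : Subgroup G).lowerCentralSeries 2) (g : G) : ⁅g, z⁆ = 1 := by
  rw [← commutatorElement_inv, cen h3 hz g, inv_one]

theorem cen_comm {z : G} (hz : z ∈ (⊤ : Subgroup G).lowerCentralSeries 2) (g : G) :
    g * z = z * g :=
  (commutatorElement_eq_one_iff_mul_comm).1 (cen' h3 hz g)

theorem comm2 {k k' : G} (hk : k ∈ (⊤ : Subgroup G).lowerCentralSeries 1)
    (hk' : k' ∈ (⊤ : Subgroup G).lowerCentralSeries 1) : k * k' = k' * k := by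
  have hb : ⁅⁅(⊤ : Subgroup G), (⊤ : Subgroup G)⁆, (⊤ : Subgroup G).lowerCentralSeries 1⁆ = ⊥ := by
    apply Subgroup.commutator_commutator_eq_bot_of_rotate
    · rw [Subgroup.commutator_comm (⊤ : Subgroup G) ((⊤ : Subgroup G).lowerCentralSeries 1)]
      exact h3
    · exact h3
  have : ⁅k, k'⁆ ∈ ⁅⁅(⊤ : Subgroup G), (⊤ : Subgroup G)⁆, (⊤ : Subgroup G).lowerCentralSeries 1⁆ :=
    Subgroup.commutator_mem_commutator hk hk'
  rw [hb] at this
  exact (commutatorElement_eq_one_iff_mul_comm).1 (Subgroup.mem_bot.1 this)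

theorem comm_mul {k k' : G} (g : G) (hk' : k' ∈ (⊤ : Subgroup G).lowerCentralSeries 1) :
    ⁅g, k * k'⁆ = ⁅g, k⁆ * ⁅g, k'⁆ := by
  rw [commutatorElement_mul_right_eq_mul_conj, mul_assoc ⁅g, k⁆ k, cen_comm h3 (mem3' hk' g) k]
  group

end facts

theorem class3_step {G : Type} [Group G] [Finite G]
    (h3 : (⊤ : Subgroup G).lowerCentralSeries 3 = ⊥) [Fintype α] [DecidableEq α]
    (φ : α → G) (x : α)
    (hrec : Rec1 (fun w : List α => (w.map (Function.update φ x 1)).prod)) :
    Rec1 (fun w : List α => (w.map φ).prod) := by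
  classical
  let Γ : Subgroup G := (⊤ : Subgroup G).lowerCentralSeries 1
  let iA : CommGroup Γ :=
    { (inferInstance : Group Γ) with
      mul_comm := fun a b => Subtype.ext (comm2 h3 a.2 b.2) }
  let N : ℕ := Nat.card G
  have hNpos : 0 < N := Nat.card_pos
  have : NeZero N := ⟨hNpos.ne'⟩
  have hG : ∀ g : G, g ^ N = 1 := fun g => pow_card_eq_one'
  let c : α → ℕ → Γ := fun a r => ⟨⁅φ a, (φ x) ^ r⁆, mem2 _ _⟩
  let T : α → Γ →* Γ := fun a =>
    { toFun := fun k => ⟨⁅φ a, (k : G)⁆, mem2 _ _⟩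
      map_one' := Subtype.ext (by simp)
      map_mul' := fun k k' => Subtype.ext (comm_mul h3 (φ a) k'.2) }
  have hc : ∀ a r, Γ.subtype (c a r) = ⁅φ a, (φ x) ^ r⁆ := fun _ _ => rfl
  have hT : ∀ a k, Γ.subtype (T a k) = ⁅φ a, Γ.subtype k⁆ := fun _ _ => rfl
  have hTz : ∀ (a : α) (k : Γ), (k : G) ∈ (⊤ : Subgroup G).lowerCentralSeries 2 → T a k = 1 :=
    fun a k hk => Subtype.ext (cen' h3 hk (φ a))
  have hTT : ∀ a b k, T a (T b k) = 1 := fun a b k => hTz a _ (mem3' k.2 (φ b))
  have hpow : ∀ a b r, T a (c b r) = (T a (c b 1)) ^ r := by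
    intro a b r
    induction r with
    | zero =>
      have : c b 0 = 1 := Subtype.ext (by simp [c])
      rw [this, map_one, pow_zero]
    | succ r ih =>
      let z : Γ := ⟨⁅(φ x) ^ r, ⁅φ b, φ x⁆⁆, mem2 _ _⟩
      have e : c b (r + 1) = c b r * z * c b 1 := by
        apply Subtype.ext
        show ⁅φ b, (φ x) ^ (r + 1)⁆
          = ⁅φ b, (φ x) ^ r⁆ * ⁅(φ x) ^ r, ⁅φ b, φ x⁆⁆ * ⁅φ b, (φ x) ^ 1⁆
        rw [pow_succ, pow_one]
        generalize (φ x) ^ r = X
        simp only [commutatorElement_def]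
        group
      rw [e, map_mul, map_mul, ih, hTz a z (mem3' (mem2 _ _) _), mul_one, pow_succ]
  have hper : ∀ a r, c a (r + N) = c a r := by
    intro a r
    apply Subtype.ext
    show ⁅φ a, (φ x) ^ (r + N)⁆ = ⁅φ a, (φ x) ^ r⁆
    rw [pow_add, hG, mul_one]
  have hA : ∀ k : Γ, k ^ N = 1 := fun k => Subtype.ext (by
    show ((k ^ N : Γ) : G) = 1
    rw [Subgroup.coe_pow, hG])
  have hx : ∀ r, c x r = 1 := fun r => Subtype.ext
    ((commutatorElement_eq_one_iff_commute).2 (Commute.pow_right (Commute.refl _) r))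
  have r2 := Rec1_K2 x c N hper hA hx
  have r3 := Rec1_K3 x c T N hA hpow
  have rc := R_cnt N ({x} : Set α)
  have h := (((r3.prod r2).prod rc).prod hrec).comp
    (fun p => Γ.subtype (p.1.1.1 * p.1.1.2) * (φ x) ^ (p.1.2.val) * p.2)
  have e : (fun w : List α => Γ.subtype (K3 x c T w * K2 x c w)
      * (φ x) ^ (((pc [({x} : Set α)] w : ℕ) : ZMod N).val)
      * (w.map (Function.update φ x 1)).prod) = fun w => (w.map φ).prod := by
    funext w
    rw [decomp Γ.subtype φ x c T hc hT hTT w, ZMod.val_natCast, ← pow_eq_pow_mod _ (hG (φ x))]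
  rwa [e] at h

open Classical in
theorem class3_all {G : Type} [Group G] [Finite G]
    (h3 : (⊤ : Subgroup G).lowerCentralSeries 3 = ⊥) [Fintype α] [DecidableEq α] :
    ∀ (n : ℕ) (φ : α → G), (Finset.univ.filter (fun a => φ a ≠ 1)).card ≤ n →
      Rec1 (fun w : List α => (w.map φ).prod) := by
  intro n
  induction n with
  | zero =>
    intro φ hφ
    have h1 : ∀ a, φ a = 1 := by
      intro a
      by_contra ha
      have : a ∈ Finset.univ.filter (fun a => φ a ≠ 1) := by simp [ha]
      have h0 : (Finset.univ.filter (fun a => φ a ≠ 1)) = ∅ :=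
        Finset.card_eq_zero.1 (Nat.le_zero.1 hφ)
      rw [h0] at this
      simp at this
    have h := (R_cnt 1 (∅ : Set α)).comp (fun _ => (1 : G))
    have e : (fun _ : List α => (1 : G)) = fun w => (w.map φ).prod := by
      funext w
      induction w with
      | nil => simp
      | cons a w ih => rw [List.map_cons, List.prod_cons, h1 a, one_mul, ← ih]
    rwa [e] at h
  | succ n ih =>
    intro φ hφ
    by_cases hex : ∃ x, φ x ≠ 1
    · obtain ⟨x, hx⟩ := hex
      apply class3_step h3 φ x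
      apply ih
      have hsub : (Finset.univ.filter (fun a => Function.update φ x 1 a ≠ 1))
          ⊆ (Finset.univ.filter (fun a => φ a ≠ 1)).erase x := by
        intro a ha
        have ha' : Function.update φ x 1 a ≠ 1 := by simpa using ha
        have hax : a ≠ x := by
          intro h
          apply ha'
          rw [h, Function.update_self]
        rw [Function.update_of_ne hax] at ha'
        simp [hax, ha']
      have h1 := Finset.card_le_card hsub
      have h2 : x ∈ Finset.univ.filter (fun a => φ a ≠ 1) := by simp [hx]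
      rw [Finset.card_erase_of_mem h2] at h1
      omega
    · apply ih
      have : (Finset.univ.filter (fun a => φ a ≠ 1)) = ∅ := by
        ext a
        simp only [Finset.mem_filter, Finset.mem_univ, true_and, Finset.notMem_empty, iff_false]
        intro ha
        exact hex ⟨a, ha⟩
      rw [this]; simp

end Vale.Agent.Lib.P329
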