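import Vale.Agent.Lib.P329.Mono

open Computability

namespace Vale.Agent.Lib.P329

variable {α : Type}

/-- kinds of letters for the two-digit counter: neutral, increment, jump -/
inductive OK
  | z | i | j

/-- two-digit counter on `Fin n` (used with `n = M * m`) -/
def ostep (M n : ℕ) (hn : 0 < n) (P : Fin n) : OK → Fin n
  | .z => P
  | .i => ⟨(P.val + 1) % n, Nat.mod_lt _ hn⟩
  | .j => if M ∣ P.val then ⟨(P.val + M) % n, Nat.mod_lt _ hn⟩ else P

theorem ostep_mono (M m : ℕ) (hn : 0 < M * m) (P : Fin (M * m)) (k : OK) :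
    ostep M (M * m) hn P k = ⟨0, hn⟩ ∨ P.val ≤ (ostep M (M * m) hn P k).val := by
  cases k with
  | z => right; exact le_refl _
  | i =>
    by_cases h : P.val + 1 < M * m
    · right
      show P.val ≤ (P.val + 1) % (M * m)
      rw [Nat.mod_eq_of_lt h]; omega
    · left
      have : P.val + 1 = M * m := by have := P.isLt; omega
      apply Fin.ext
      show (P.val + 1) % (M * m) = 0
      rw [this]; simp
  | j =>
    by_cases hd : M ∣ P.val
    · obtain ⟨t, ht⟩ := hd
      have hlt : M * t < M * m := ht ▸ P.isLt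
      have htm : t < m := Nat.lt_of_mul_lt_mul_left hlt
      have hle : M * (t + 1) ≤ M * m := Nat.mul_le_mul_left M htm
      have hd' : M ∣ P.val := ⟨t, ht⟩
      by_cases h : P.val + M < M * m
      · right
        show P.val ≤ (ostep M (M * m) hn P .j).val
        simp only [ostep, if_pos hd']
        rw [Nat.mod_eq_of_lt h]; omega
      · left
        have : P.val + M = M * m := by
          have : M * (t + 1) = P.val + M := by rw [ht]; ring
          omega
        apply Fin.ext
        simp only [ostep, if_pos hd']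
        rw [this]; simp
    · right
      simp only [ostep, if_neg hd]
      exact le_refl _

/-- the same counter on the natural numbers -/
def nstep (M : ℕ) (P : ℕ) : OK → ℕ
  | .z => P
  | .i => P + 1
  | .j => if M ∣ P then P + M else P

theorem ostep_nstep (M m : ℕ) (hn : 0 < M * m) (a : Fin (M * m)) (b : ℕ) (k : OK)
    (h : a.val = b % (M * m)) :
    (ostep M (M * m) hn a k).val = nstep M b k % (M * m) := by
  have hd : M ∣ a.val ↔ M ∣ b := by
    rw [h]; exact Nat.dvd_mod_iff (Dvd.intro m rfl)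
  cases k with
  | z => exact h
  | i =>
    show (a.val + 1) % (M * m) = (b + 1) % (M * m)
    rw [h, Nat.mod_add_mod]
  | j =>
    by_cases hb : M ∣ b
    · simp only [ostep, nstep, if_pos hb, if_pos (hd.2 hb)]
      rw [h, Nat.mod_add_mod]
    · simp only [ostep, nstep, if_neg hb, if_neg (fun hc => hb (hd.1 hc))]
      exact h

/-- number of increment letters -/
def cntI (κ : α → OK) : List α → ℕ
  | [] => 0
  | x :: w => match κ x with
    | .z => cntI κ w
    | .i => cntI κ w + 1
    | .j => cntI κ w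

/-- number of jump letters read while the running count (started at `c`) is divisible by `M` -/
def cntJ (M : ℕ) (κ : α → OK) : ℕ → List α → ℕ
  | _, [] => 0
  | c, x :: w => match κ x with
    | .z => cntJ M κ c w
    | .i => cntJ M κ (c + 1) w
    | .j => (if M ∣ c then 1 else 0) + cntJ M κ c w

theorem cntI_z {κ : α → OK} {x : α} (h : κ x = .z) (w : List α) :
    cntI κ (x :: w) = cntI κ w := by simp only [cntI, h]
theorem cntI_i {κ : α → OK} {x : α} (h : κ x = .i) (w : List α) :
    cntI κ (x :: w) = cntI κ w + 1 := by simp only [cntI, h]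
theorem cntI_j {κ : α → OK} {x : α} (h : κ x = .j) (w : List α) :
    cntI κ (x :: w) = cntI κ w := by simp only [cntI, h]
theorem cntJ_z {M : ℕ} {κ : α → OK} {x : α} (h : κ x = .z) (c : ℕ) (w : List α) :
    cntJ M κ c (x :: w) = cntJ M κ c w := by simp only [cntJ, h]
theorem cntJ_i {M : ℕ} {κ : α → OK} {x : α} (h : κ x = .i) (c : ℕ) (w : List α) :
    cntJ M κ c (x :: w) = cntJ M κ (c + 1) w := by simp only [cntJ, h]
theorem cntJ_j {M : ℕ} {κ : α → OK} {x : α} (h : κ x = .j) (c : ℕ) (w : List α) :
    cntJ M κ c (x :: w) = (if M ∣ c then 1 else 0) + cntJ M κ c w := by simp only [cntJ, h]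

theorem nrun (M : ℕ) (κ : α → OK) : ∀ (w : List α) (c t : ℕ),
    w.foldl (fun P x => nstep M P (κ x)) (c + M * t) = c + cntI κ w + M * (t + cntJ M κ c w)
  | [], c, t => by simp [cntI, cntJ]
  | x :: w, c, t => by
    rw [List.foldl_cons]
    cases hk : κ x with
    | z =>
      rw [cntI_z hk, cntJ_z hk]
      exact nrun M κ w c t
    | i =>
      rw [cntI_i hk, cntJ_i hk]
      have := nrun M κ w (c + 1) t
      show w.foldl (fun P x => nstep M P (κ x)) (c + M * t + 1) = _
      rw [show c + M * t + 1 = c + 1 + M * t by ring, this]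
      ring
    | j =>
      have hd : M ∣ c + M * t ↔ M ∣ c := by
        constructor
        · intro h
          exact (Nat.dvd_add_left (Dvd.intro t rfl)).1 h
        · intro h
          exact Dvd.dvd.add h (Dvd.intro t rfl)
      rw [cntI_j hk, cntJ_j hk]
      by_cases hc : M ∣ c
      · have e : nstep M (c + M * t) .j = c + M * (t + 1) := by
          simp only [nstep, if_pos (hd.2 hc)]; ring
        rw [e, nrun M κ w c (t + 1), if_pos hc]
        ring
      · have e : nstep M (c + M * t) .j = c + M * t := by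
          simp only [nstep, if_neg (fun h => hc (hd.1 h))]
        rw [e, nrun M κ w c t, if_neg hc]
        ring

theorem orun (M m : ℕ) (hn : 0 < M * m) (κ : α → OK) (c : ℕ) (w : List α) :
    (w.foldl (fun P x => ostep M (M * m) hn P (κ x)) ⟨c % (M * m), Nat.mod_lt _ hn⟩).val
      = (c + cntI κ w + M * cntJ M κ c w) % (M * m) := by
  have h := foldl_inv (fun P x => ostep M (M * m) hn P (κ x)) (fun P x => nstep M P (κ x))
    (fun a b => a.val = b % (M * m)) (fun a b x hab => ostep_nstep M m hn a b (κ x) hab) w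
    ⟨c % (M * m), Nat.mod_lt _ hn⟩ c rfl
  have h2 := nrun M κ w c 0
  simp only [Nat.mul_zero, Nat.add_zero, Nat.zero_add] at h2
  rw [h, h2]

theorem Rec1_orun [Fintype α] (M m : ℕ) (hn : 0 < M * m) (κ : α → OK) (q : Fin (M * m)) :
    Rec1 (fun w : List α => w.foldl (fun P x => ostep M (M * m) hn P (κ x)) q) :=
  Rec1_mono _ ⟨0, hn⟩ (fun s x => ostep_mono M m hn s (κ x)) q

/-- forget the jump letters -/
def unj : OK → OK
  | .z => .z
  | .i => .i
  | .j => .z

theorem cntI_unj (κ : α → OK) : ∀ w : List α, cntI (fun x => unj (κ x)) w = cntI κ w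
  | [] => rfl
  | x :: w => by
    cases hk : κ x with
    | z =>
      rw [cntI_z hk, cntI_z (κ := fun x => unj (κ x)) (by show unj (κ x) = .z; rw [hk]; rfl)]
      exact cntI_unj κ w
    | i =>
      rw [cntI_i hk, cntI_i (κ := fun x => unj (κ x)) (by show unj (κ x) = .i; rw [hk]; rfl)]
      rw [cntI_unj κ w]
    | j =>
      rw [cntI_j hk, cntI_z (κ := fun x => unj (κ x)) (by show unj (κ x) = .z; rw [hk]; rfl)]
      exact cntI_unj κ w

theorem cntJ_unj (M : ℕ) (κ : α → OK) : ∀ (w : List α) (c : ℕ),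
    cntJ M (fun x => unj (κ x)) c w = 0
  | [], _ => rfl
  | x :: w, c => by
    cases hk : κ x with
    | z =>
      rw [cntJ_z (κ := fun x => unj (κ x)) (by show unj (κ x) = .z; rw [hk]; rfl)]
      exact cntJ_unj M κ w c
    | i =>
      rw [cntJ_i (κ := fun x => unj (κ x)) (by show unj (κ x) = .i; rw [hk]; rfl)]
      exact cntJ_unj M κ w _
    | j =>
      rw [cntJ_z (κ := fun x => unj (κ x)) (by show unj (κ x) = .z; rw [hk]; rfl)]
      exact cntJ_unj M κ w c

/-- counting increment letters modulo `n` -/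
theorem Rec1_cntI [Fintype α] (n : ℕ) [NeZero n] (κ : α → OK) :
    Rec1 (fun w : List α => (cntI κ w : ZMod n)) := by
  have hn : 0 < 1 * n := by simpa using Nat.pos_of_ne_zero (NeZero.ne n)
  have h := Rec1_orun 1 n hn (fun x => unj (κ x)) ⟨0 % (1 * n), Nat.mod_lt _ hn⟩
  have h2 := h.comp (fun P => ((P.val : ℕ) : ZMod n))
  have e : (fun w : List α => (((w.foldl (fun P x => ostep 1 (1 * n) hn P (unj (κ x)))
      ⟨0 % (1 * n), Nat.mod_lt _ hn⟩).val : ℕ) : ZMod n)) = fun w => (cntI κ w : ZMod n) := by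
    funext w
    rw [orun 1 n hn (fun x => unj (κ x)) 0 w, cntI_unj, cntJ_unj]
    simp
  rwa [e] at h2

/-- counting, modulo `m`, the jump letters read while the running count is divisible by `M` -/
theorem Rec1_cntJ [Fintype α] (M m : ℕ) [NeZero M] [NeZero m] (κ : α → OK) (c : ℕ) :
    Rec1 (fun w : List α => (cntJ M κ c w : ZMod m)) := by
  have hM : 0 < M := Nat.pos_of_ne_zero (NeZero.ne M)
  have hm : 0 < m := Nat.pos_of_ne_zero (NeZero.ne m)
  have hn : 0 < M * m := Nat.mul_pos hM hm
  have h1 := Rec1_orun M m hn κ ⟨c % (M * m), Nat.mod_lt _ hn⟩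
  have h2 := Rec1_orun M m hn (fun x => unj (κ x)) ⟨c % (M * m), Nat.mod_lt _ hn⟩
  refine Rec1.of_inv (h1.prod h2)
    (fun s r => ∃ C J : ℕ, s.1.val = (c + C + M * J) % (M * m) ∧ s.2.val = (c + C) % (M * m)
      ∧ r = (J : ZMod m)) ?_ ?_
  · intro w
    refine ⟨cntI κ w, cntJ M κ c w, orun M m hn κ c w, ?_, rfl⟩
    have := orun M m hn (fun x => unj (κ x)) c w
    rw [cntI_unj, cntJ_unj] at this
    simpa using this
  · rintro s r r' ⟨C, J, h1, h2, rfl⟩ ⟨C', J', h1', h2', rfl⟩
    have e1 : (c + C + M * J) ≡ (c + C' + M * J') [MOD M * m] := by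
      show _ % _ = _ % _
      rw [← h1, ← h1']
    have e2 : (c + C) ≡ (c + C') [MOD M * m] := by
      show _ % _ = _ % _
      rw [← h2, ← h2']
    have e3 : M * J ≡ M * J' [MOD M * m] := Nat.ModEq.add_left_cancel e2 e1
    have e4 : J ≡ J' [MOD m] := Nat.ModEq.mul_left_cancel' (NeZero.ne M) e3
    exact (ZMod.natCast_eq_natCast_iff J J' m).2 e4

end Vale.Agent.Lib.P329
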