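import Vale.Agent.Lib.P329.Piv

open Computability

namespace Vale.Agent.Lib.P329

variable {α : Type}

open Classical in
/-- number of ways of choosing positions `p₁ < ... < p_k` of `w` whose letters lie in the
given sets -/
noncomputable def pc : List (Set α) → List α → ℕ
  | [], _ => 1
  | _ :: _, [] => 0
  | U :: P, x :: w => pc (U :: P) w + (if x ∈ U then pc P w else 0)

theorem pc_nil (w : List α) : pc [] w = 1 := by cases w <;> rfl
theorem pc_cons_nil (U : Set α) (P : List (Set α)) : pc (U :: P) ([] : List α) = 0 := rfl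
theorem pc_pos {U : Set α} {x : α} (h : x ∈ U) (P : List (Set α)) (w : List α) :
    pc (U :: P) (x :: w) = pc (U :: P) w + pc P w := by simp only [pc, if_pos h]
theorem pc_neg {U : Set α} {x : α} (h : x ∉ U) (P : List (Set α)) (w : List α) :
    pc (U :: P) (x :: w) = pc (U :: P) w := by simp only [pc, if_neg h, Nat.add_zero]

open Classical in
theorem pc_cons (U : Set α) (P : List (Set α)) (x : α) (w : List α) :
    pc (U :: P) (x :: w) = pc (U :: P) w + (if x ∈ U then pc P w else 0) := by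
  simp only [pc]

theorem pc_empty (P : List (Set α)) : ∀ w : List α, pc (∅ :: P) w = 0
  | [] => rfl
  | x :: w => by rw [pc_neg (Set.notMem_empty x), pc_empty P w]

theorem pc_empty2 (T : Set α) (P : List (Set α)) : ∀ w : List α, pc (T :: ∅ :: P) w = 0
  | [] => rfl
  | x :: w => by
    classical
    rw [pc_cons, pc_empty2 T P w, pc_empty]; simp

/-- additivity in the first slot -/
theorem pc_union1 (U V : Set α) (h : Disjoint U V) (P : List (Set α)) : ∀ w : List α,
    pc ((U ∪ V) :: P) w = pc (U :: P) w + pc (V :: P) w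
  | [] => rfl
  | x :: w => by
    have ih := pc_union1 U V h P w
    by_cases hU : x ∈ U
    · have hV : x ∉ V := fun hV => (Set.disjoint_left.1 h) hU hV
      rw [pc_pos (Set.mem_union_left V hU), pc_pos hU, pc_neg hV, ih]; ring
    · by_cases hV : x ∈ V
      · rw [pc_pos (Set.mem_union_right U hV), pc_neg hU, pc_pos hV, ih]; ring
      · rw [pc_neg (fun hc => ((Set.mem_union x U V).1 hc).elim hU hV), pc_neg hU, pc_neg hV, ih]

/-- additivity in the second slot -/
theorem pc_union2 (T U V : Set α) (h : Disjoint U V) (P : List (Set α)) : ∀ w : List α,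
    pc (T :: (U ∪ V) :: P) w = pc (T :: U :: P) w + pc (T :: V :: P) w
  | [] => rfl
  | x :: w => by
    have ih := pc_union2 T U V h P w
    by_cases hT : x ∈ T
    · rw [pc_pos hT, pc_pos hT, pc_pos hT, ih, pc_union1 U V h P w]; ring
    · rw [pc_neg hT, pc_neg hT, pc_neg hT, ih]

theorem pc_two (U : Set α) : ∀ w : List α, pc [U, U] w = (pc [U] w).choose 2
  | [] => rfl
  | x :: w => by
    by_cases hU : x ∈ U
    · rw [pc_pos hU, pc_pos hU, pc_two U w, pc_nil, Nat.choose_succ_succ' (pc [U] w) 1]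
      simp [Nat.add_comm]
    · rw [pc_neg hU, pc_neg hU, pc_two U w]

theorem pc_three (U : Set α) : ∀ w : List α, pc [U, U, U] w = (pc [U] w).choose 3
  | [] => rfl
  | x :: w => by
    by_cases hU : x ∈ U
    · rw [pc_pos hU, pc_pos hU, pc_three U w, pc_two, pc_nil,
        Nat.choose_succ_succ' (pc [U] w) 2, Nat.add_comm]
    · rw [pc_neg hU, pc_neg hU, pc_three U w]

/-- product of two letter counts -/
theorem pc_mul11 (Y Z : Set α) : ∀ w : List α,
    pc [Y] w * pc [Z] w = pc [Y, Z] w + pc [Z, Y] w + pc [Y ∩ Z] w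
  | [] => rfl
  | x :: w => by
    have ih := pc_mul11 Y Z w
    by_cases hY : x ∈ Y <;> by_cases hZ : x ∈ Z
    · rw [pc_pos hY, pc_pos hZ, pc_pos hY, pc_pos hZ, pc_pos (Set.mem_inter hY hZ)]
      simp only [pc_nil]
      have : (pc [Y] w + 1) * (pc [Z] w + 1) = pc [Y] w * pc [Z] w + pc [Y] w + pc [Z] w + 1 := by
        ring
      rw [this, ih]; ring
    · rw [pc_pos hY, pc_neg hZ, pc_pos hY, pc_neg hZ, pc_neg (fun h : x ∈ Y ∩ Z => hZ (Set.mem_of_mem_inter_right h))]
      simp only [pc_nil]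
      have : (pc [Y] w + 1) * pc [Z] w = pc [Y] w * pc [Z] w + pc [Z] w := by ring
      rw [this, ih]; ring
    · rw [pc_neg hY, pc_pos hZ, pc_neg hY, pc_pos hZ, pc_neg (fun h : x ∈ Y ∩ Z => hY (Set.mem_of_mem_inter_left h))]
      simp only [pc_nil]
      have : pc [Y] w * (pc [Z] w + 1) = pc [Y] w * pc [Z] w + pc [Y] w := by ring
      rw [this, ih]; ring
    · rw [pc_neg hY, pc_neg hZ, pc_neg hY, pc_neg hZ, pc_neg (fun h : x ∈ Y ∩ Z => hY (Set.mem_of_mem_inter_left h)), ih]

/-- product of a two-slot count and a letter count -/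
theorem pc_mul21 (X Y Z : Set α) : ∀ w : List α,
    pc [X, Y] w * pc [Z] w = pc [X, Y, Z] w + pc [X, Z, Y] w + pc [Z, X, Y] w
      + pc [X ∩ Z, Y] w + pc [X, Y ∩ Z] w
  | [] => rfl
  | x :: w => by
    have ih := pc_mul21 X Y Z w
    have ih2 := pc_mul11 Y Z w
    by_cases hX : x ∈ X <;> by_cases hZ : x ∈ Z
    · rw [pc_pos hX, pc_pos hZ, pc_pos hX, pc_pos hX, pc_pos hZ,
        pc_pos (Set.mem_inter hX hZ), pc_pos hX]
      simp only [pc_nil]
      have : (pc [X, Y] w + pc [Y] w) * (pc [Z] w + 1)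
          = pc [X, Y] w * pc [Z] w + pc [Y] w * pc [Z] w + pc [X, Y] w + pc [Y] w := by ring
      rw [this, ih, ih2]; ring
    · rw [pc_pos hX, pc_neg hZ, pc_pos hX, pc_pos hX, pc_neg hZ,
        pc_neg (fun h : x ∈ X ∩ Z => hZ (Set.mem_of_mem_inter_right h)), pc_pos hX]
      have : (pc [X, Y] w + pc [Y] w) * pc [Z] w
          = pc [X, Y] w * pc [Z] w + pc [Y] w * pc [Z] w := by ring
      rw [this, ih, ih2]; ring
    · rw [pc_neg hX, pc_pos hZ, pc_neg hX, pc_neg hX, pc_pos hZ,
        pc_neg (fun h : x ∈ X ∩ Z => hX (Set.mem_of_mem_inter_left h)), pc_neg hX]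
      simp only [pc_nil]
      have : pc [X, Y] w * (pc [Z] w + 1) = pc [X, Y] w * pc [Z] w + pc [X, Y] w := by ring
      rw [this, ih]; ring
    · rw [pc_neg hX, pc_neg hZ, pc_neg hX, pc_neg hX, pc_neg hZ,
        pc_neg (fun h : x ∈ X ∩ Z => hX (Set.mem_of_mem_inter_left h)), pc_neg hX, ih]

/-! ### the kind map attached to a pair of disjoint sets -/

open Classical in
noncomputable def kd (S B : Set α) (x : α) : OK :=
  if x ∈ B then .j else if x ∈ S then .i else .z

theorem kd_j {S B : Set α} {x : α} (h : x ∈ B) : kd S B x = .j := by simp only [kd, if_pos h]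
theorem kd_i {S B : Set α} {x : α} (h : x ∉ B) (h' : x ∈ S) : kd S B x = .i := by
  simp only [kd, if_neg h, if_pos h']
theorem kd_z {S B : Set α} {x : α} (h : x ∉ B) (h' : x ∉ S) : kd S B x = .z := by
  simp only [kd, if_neg h, if_neg h']

theorem cntI_kd (S : Set α) : ∀ w : List α, cntI (kd S ∅) w = pc [S] w
  | [] => rfl
  | x :: w => by
    by_cases hS : x ∈ S
    · rw [cntI_i (kd_i (Set.notMem_empty x) hS), pc_pos hS, pc_nil, cntI_kd S w]
    · rw [cntI_z (kd_z (Set.notMem_empty x) hS), pc_neg hS, cntI_kd S w]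

theorem piv_one (S B : Set α) (h : Disjoint S B) : ∀ (w : List α) (c : ℕ),
    piv (kd S B) (fun c => c) c w = c * pc [B] w + pc [S, B] w
  | [], c => by simp [piv, pc]
  | x :: w, c => by
    by_cases hB : x ∈ B
    · have hS : x ∉ S := fun hS => (Set.disjoint_left.1 h) hS hB
      rw [piv_j _ (kd_j hB), piv_one S B h w c, pc_pos hB, pc_neg hS, pc_nil]; ring
    · by_cases hS : x ∈ S
      · rw [piv_i _ (kd_i hB hS), piv_one S B h w (c + 1), pc_neg hB, pc_pos hS]; ring
      · rw [piv_z _ (kd_z hB hS), piv_one S B h w c, pc_neg hB, pc_neg hS]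

theorem piv_two (S B : Set α) (h : Disjoint S B) : ∀ (w : List α) (c : ℕ),
    piv (kd S B) (fun c => c.choose 2) c w
      = c.choose 2 * pc [B] w + c * pc [S, B] w + pc [S, S, B] w
  | [], c => by simp [piv, pc]
  | x :: w, c => by
    by_cases hB : x ∈ B
    · have hS : x ∉ S := fun hS => (Set.disjoint_left.1 h) hS hB
      rw [piv_j _ (kd_j hB), piv_two S B h w c, pc_pos hB, pc_neg hS, pc_neg hS, pc_nil]; ring
    · by_cases hS : x ∈ S
      · rw [piv_i _ (kd_i hB hS), piv_two S B h w (c + 1), pc_neg hB, pc_pos hS, pc_pos hS,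
          Nat.choose_succ_succ' c 1, Nat.choose_one_right]
        ring
      · rw [piv_z _ (kd_z hB hS), piv_two S B h w c, pc_neg hB, pc_neg hS, pc_neg hS]

end Vale.Agent.Lib.P329
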