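import Vale.Agent.Lib.P329.Layer

open Computability

namespace Vale.Agent.Lib.P329

variable {α : Type} {p : ℕ}

/-- base automaton: grading, and the last letter of nonzero grading read since the last visit
of the grading zero -/
def bstep (cls : α → ZMod p) : ZMod p × Option α → α → ZMod p × Option α :=
  fun s x => if cls x = 0 then s else if s.1 + cls x = 0 then (0, none) else (s.1 + cls x, some x)

/-- increments: arrivals at the grading zero, except for the ones allowed by `P`, and letters of
grading zero from `Y` read at the hub -/
def binc (cls : α → ZMod p) (P : Option α → α → Bool) (Y : α → Bool) :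
    ZMod p × Option α → α → Bool :=
  fun s x => if cls x = 0 then (decide (s.1 = 0) && s.2.isNone && Y x)
    else (decide (s.1 + cls x = 0) && !(P s.2 x))

def canon (f : ZMod p) (y : α) : ZMod p × Option α := if f = 0 then (0, none) else (f, some y)

def lastnz (cls : α → ZMod p) : List α → Option α
  | [] => none
  | x :: w => match lastnz cls w with
    | some y => some y
    | none => if cls x = 0 then none else some x

theorem bstep_fst (cls : α → ZMod p) (s : ZMod p × Option α) (x : α) :
    (bstep cls s x).1 = s.1 + cls x := by
  unfold bstep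
  split_ifs with h1 h2
  · rw [h1, add_zero]
  · exact h2.symm
  · rfl

theorem brun_fst (cls : α → ZMod p) : ∀ (w : List α) (s : ZMod p × Option α),
    (w.foldl (bstep cls) s).1 = s.1 + (w.map cls).sum
  | [], s => by simp
  | x :: w, s => by
    simp only [List.foldl_cons, List.map_cons, List.sum_cons]
    rw [brun_fst cls w, bstep_fst, add_assoc]

theorem binc_hub (cls : α → ZMod p) (P : Option α → α → Bool) (Y : α → Bool)
    (s : ZMod p × Option α) (x : α)
    (h : binc cls P Y s x = true) : bstep cls s x = (0, none) := by
  unfold binc at h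
  unfold bstep
  split_ifs at h with h0
  · simp only [Bool.and_eq_true, decide_eq_true_eq, Option.isNone_iff_eq_none] at h
    rw [if_pos h0]
    exact Prod.ext h.1.1 h.1.2
  · simp only [Bool.and_eq_true, decide_eq_true_eq] at h
    rw [if_neg h0, if_pos h.1]

theorem lastnz_none (cls : α → ZMod p) : ∀ (w : List α), lastnz cls w = none →
    (w.map cls).sum = 0 ∧ ∀ s, w.foldl (bstep cls) s = s
  | [], _ => by simp
  | x :: w, h => by
    simp only [lastnz] at h
    cases hw : lastnz cls w with
    | some y => rw [hw] at h; exact absurd h (by simp)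
    | none =>
      rw [hw] at h
      have hx : cls x = 0 := by
        by_contra hx
        simp [hx] at h
      obtain ⟨h1, h2⟩ := lastnz_none cls w hw
      refine ⟨by simp [hx, h1], fun s => ?_⟩
      simp only [List.foldl_cons]
      rw [h2]
      unfold bstep
      rw [if_pos hx]

theorem brun_of_some (cls : α → ZMod p) : ∀ (w : List α) (y : α) (s : ZMod p × Option α),
    lastnz cls w = some y → w.foldl (bstep cls) s = canon (s.1 + (w.map cls).sum) y
  | [], y, s, h => by simp [lastnz] at h
  | x :: w, y, s, h => by
    simp only [lastnz] at h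
    simp only [List.foldl_cons, List.map_cons, List.sum_cons]
    cases hw : lastnz cls w with
    | some y' =>
      rw [hw] at h
      have : y' = y := by simpa using h
      subst this
      rw [brun_of_some cls w y' _ hw, bstep_fst, add_assoc]
    | none =>
      rw [hw] at h
      obtain ⟨h1, h2⟩ := lastnz_none cls w hw
      have hx : cls x ≠ 0 := by
        intro hx
        simp [hx] at h
      have hxy : x = y := by simpa [hx] using h
      subst hxy
      rw [h2, h1, add_zero]
      unfold bstep canon
      rw [if_neg hx]

theorem lastnz_mem (cls : α → ZMod p) : ∀ (w : List α) (y : α), lastnz cls w = some y →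
    cls y ≠ 0 ∧ ∃ w₁ w₂, w = w₁ ++ y :: w₂
  | [], y, h => by simp [lastnz] at h
  | x :: w, y, h => by
    simp only [lastnz] at h
    cases hw : lastnz cls w with
    | some y' =>
      rw [hw] at h
      have : y' = y := by simpa using h
      subst this
      obtain ⟨h1, w₁, w₂, e⟩ := lastnz_mem cls w y' hw
      exact ⟨h1, x :: w₁, w₂, by rw [e]; rfl⟩
    | none =>
      rw [hw] at h
      have hx : cls x ≠ 0 := by
        intro hx
        simp [hx] at h
      have hxy : x = y := by simpa [hx] using h
      subst hxy
      exact ⟨hx, [], w, rfl⟩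

theorem lastnz_append (cls : α → ZMod p) (v : List α) (y : α) (hv : lastnz cls v = some y) :
    ∀ u : List α, lastnz cls (u ++ v) = some y
  | [] => hv
  | x :: u => by
    simp only [List.cons_append, lastnz, lastnz_append cls v y hv u]

theorem pw_succ' (w : List α) (k : ℕ) : pw w (k + 1) = pw w k ++ w := by
  rw [pw_add]
  simp [pw]

theorem mem_pw (w : List α) (y : α) : ∀ k, y ∈ pw w k → y ∈ w
  | 0, h => by simp [pw] at h
  | k + 1, h => by
    simp only [pw, List.mem_append] at h
    rcases h with h | h
    · exact h
    · exact mem_pw w y k h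

theorem sum_pw (cls : α → ZMod p) (w : List α) : ∀ k : ℕ,
    ((pw w k).map cls).sum = k * (w.map cls).sum
  | 0 => by simp [pw]
  | k + 1 => by
    simp only [pw, List.map_append, List.sum_append, sum_pw cls w k]
    push_cast
    ring

/-- in `p` consecutive copies of a word of nonzero grading, every letter of nonzero grading
arrives once at the grading zero -/
theorem arrive [Fact p.Prime] (cls : α → ZMod p) (P : Option α → α → Bool) (Y : α → Bool)
    (w w₁ w₂ : List α) (y : α)
    (hw : w = w₁ ++ y :: w₂) (hy : cls y ≠ 0) (hγ : (w.map cls).sum ≠ 0)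
    (b : ZMod p × Option α) (hc : cnt (bstep cls) (binc cls P Y) b (pw w p) = 0) :
    ∃ i : ℕ, P ((pw w i ++ w₁).foldl (bstep cls) b).2 y = true := by
  set g := (w.map cls).sum with hg
  set i : ℕ := (-(b.1 + (w₁.map cls).sum + cls y) / g).val with hi
  have hip : i < p := ZMod.val_lt _
  have hig : (i : ZMod p) * g = -(b.1 + (w₁.map cls).sum + cls y) := by
    rw [hi, ZMod.natCast_val, ZMod.cast_id', id, div_mul_cancel₀ _ hγ]
  refine ⟨i, ?_⟩
  have e : pw w p = (pw w i ++ w₁) ++ (y :: (w₂ ++ pw w (p - i - 1))) := by
    have : p = i + (1 + (p - i - 1)) := by omega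
    conv_lhs => rw [this, pw_add, pw_add]
    have h1 : pw w 1 = w := by simp [pw]
    rw [h1, hw]
    simp
  rw [e, cnt_append] at hc
  simp only [cnt] at hc
  set s := (pw w i ++ w₁).foldl (bstep cls) b with hs
  have hinc : binc cls P Y s y = false := by
    by_contra h
    have h' : binc cls P Y s y = true := by simpa using h
    rw [h'] at hc
    simp at hc
  have hs1 : s.1 + cls y = 0 := by
    rw [hs, brun_fst, List.map_append, List.sum_append, sum_pw, ← hg, hig]
    ring
  unfold binc at hinc
  simpa [hy, hs1] using hinc

theorem base_pure [Fact p.Prime] (cls : α → ZMod p) (P : Option α → α → Bool) (Y : α → Bool)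
    (X₂ : α → Prop) (hP : ∀ l x, P l x = true → X₂ x ∧ ∃ x', l = some x' ∧ ¬ X₂ x') :
    ∀ (w : List α) (b : ZMod p × Option α) (k : ℕ), 0 < k → (pw w k).foldl (bstep cls) b = b →
      cnt (bstep cls) (binc cls P Y) b (pw w k) = 0 → w.foldl (bstep cls) b = b := by
  intro w b k hk hb hc
  obtain ⟨k', rfl⟩ : ∃ k', k = k' + 1 := ⟨k - 1, by omega⟩
  cases hl : lastnz cls w with
  | none => exact (lastnz_none cls w hl).2 b
  | some y =>
    have hl' : lastnz cls (pw w (k' + 1)) = some y := by
      rw [pw_succ']; exact lastnz_append cls w y hl _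
    have hb' := brun_of_some cls _ y b hl'
    rw [hb, sum_pw] at hb'
    by_cases hγ : (w.map cls).sum = 0
    · rw [brun_of_some cls w y b hl, hγ]
      rw [hγ, mul_zero] at hb'
      exact hb'.symm
    · exfalso
      -- p divides k
      have hfst := brun_fst cls (pw w (k' + 1)) b
      rw [hb, sum_pw] at hfst
      have hk0 : ((k' + 1 : ℕ) : ZMod p) = 0 := by
        have : ((k' + 1 : ℕ) : ZMod p) * (w.map cls).sum = 0 := by
          have := hfst
          exact (add_eq_left.mp this.symm)
        rcases mul_eq_zero.1 this with h | h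
        · exact h
        · exact absurd h hγ
      have hdvd : p ∣ k' + 1 := (ZMod.natCast_eq_zero_iff _ _).1 hk0
      have hle : p ≤ k' + 1 := Nat.le_of_dvd hk hdvd
      have hcp : cnt (bstep cls) (binc cls P Y) b (pw w p) = 0 := by
        have : k' + 1 = p + (k' + 1 - p) := by omega
        rw [this, pw_add, cnt_append] at hc
        omega
      obtain ⟨hy, w₁, w₂, hw⟩ := lastnz_mem cls w y hl
      obtain ⟨i, hi⟩ := arrive cls P Y w w₁ w₂ y hw hy hγ b hcp
      obtain ⟨h2, x', h1, h3⟩ := hP _ _ hi
      cases hz : lastnz cls (pw w i ++ w₁) with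
      | none =>
        rw [(lastnz_none cls _ hz).2 b] at h1
        rw [hb'] at h1
        unfold canon at h1
        split_ifs at h1
        simp only [Option.some.injEq] at h1
        exact h3 (h1 ▸ h2)
      | some y' =>
        rw [brun_of_some cls _ y' b hz] at h1
        unfold canon at h1
        split_ifs at h1
        simp only [Option.some.injEq] at h1
        obtain ⟨hy', u₁, u₂, hu⟩ := lastnz_mem cls _ y' hz
        have hmem : y' ∈ w := by
          have : y' ∈ pw w i ++ w₁ := by rw [hu]; simp
          rcases List.mem_append.1 this with h | h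
          · exact mem_pw w y' i h
          · rw [hw]; simp [h]
        obtain ⟨v₁, v₂, hv⟩ := List.append_of_mem hmem
        obtain ⟨j, hj⟩ := arrive cls P Y w v₁ v₂ y' hv hy' hγ b hcp
        exact h3 (h1 ▸ (hP _ _ hj).1)

/-- the layered automaton over the base automaton is recognized in star height one -/
theorem Rec1_layrun [Fact p.Prime] [Fintype α] [DecidableEq α] (M : ℕ) [NeZero M]
    (cls : α → ZMod p) (P : Option α → α → Bool) (Y : α → Bool)
    (X₂ : α → Prop) (hP : ∀ l x, P l x = true → X₂ x ∧ ∃ x', l = some x' ∧ ¬ X₂ x')
    (q₀ : (ZMod p × Option α) × ZMod M) :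
    Rec1 (fun w : List α => w.foldl (lay M (bstep cls) (binc cls P Y)) q₀) :=
  Rec1_of_cut _ ((0, none), 0)
    (lay_counterfree M _ _ (0, none) (binc_hub cls P Y) (base_pure cls P Y X₂ hP)) q₀

end Vale.Agent.Lib.P329
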