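import Vale.Agent.Lib.P329.Alt

open Computability

namespace Vale.Agent.Lib.P329

variable {α : Type}

/-- the language of all words satisfying a predicate -/
def LangOf (p : List α → Prop) : Language α := {w | p w}

theorem mem_LangOf {p : List α → Prop} {w : List α} : w ∈ LangOf p ↔ p w := Iff.rfl

theorem H1.zero : H1 (0 : Language α) := SF.zero.h1
theorem H1.top : H1 (⊤ : Language α) := SF.top.h1

theorem H1.finset_union {ι : Type} (s : Finset ι) (L : ι → Language α)
    (h : ∀ i ∈ s, H1 (L i)) : H1 (LangOf fun w => ∃ i ∈ s, w ∈ L i) := by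
  classical
  induction s using Finset.induction_on with
  | empty =>
    have : (LangOf fun w => ∃ i ∈ (∅ : Finset ι), w ∈ L i) = 0 := by
      ext w; simp [mem_LangOf]
    rw [this]; exact H1.zero
  | insert a s _ ih =>
    have : (LangOf fun w => ∃ i ∈ insert a s, w ∈ L i) = L a + LangOf fun w => ∃ i ∈ s, w ∈ L i := by
      ext w
      rw [Language.mem_add, mem_LangOf, mem_LangOf]
      constructor
      · rintro ⟨i, hi, hw⟩
        rcases Finset.mem_insert.1 hi with rfl | hi
        · left; exact hw
        · right; exact ⟨i, hi, hw⟩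
      · rintro (hw | ⟨i, hi, hw⟩)
        · exact ⟨a, Finset.mem_insert_self _ _, hw⟩
        · exact ⟨i, Finset.mem_insert_of_mem hi, hw⟩
    rw [this]
    exact (h a (Finset.mem_insert_self _ _)).add
      (ih (fun i hi => h i (Finset.mem_insert_of_mem hi)))

theorem H1.finset_inter {ι : Type} (s : Finset ι) (L : ι → Language α)
    (h : ∀ i ∈ s, H1 (L i)) : H1 (LangOf fun w => ∀ i ∈ s, w ∈ L i) := by
  have := (H1.finset_union s (fun i => (L i)ᶜ) (fun i hi => (h i hi).compl)).compl
  have e : (LangOf fun w => ∃ i ∈ s, w ∈ (L i)ᶜ)ᶜ = LangOf fun w => ∀ i ∈ s, w ∈ L i := by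
    ext w
    constructor
    · intro hw i hi
      by_contra hc
      exact hw ⟨i, hi, hc⟩
    · rintro hw ⟨i, hi, hc⟩
      exact hc (hw i hi)
  rwa [e] at this

/-- every fibre of `f` has generalized star height at most one -/
def Rec1 {β : Type} (f : List α → β) : Prop := ∀ b, H1 (LangOf fun w => f w = b)

theorem Rec1.mem {β : Type} [Finite β] {f : List α → β} (hf : Rec1 f) (S : Set β) :
    H1 (LangOf fun w => f w ∈ S) := by
  classical
  have := Fintype.ofFinite β
  have := H1.finset_union (Finset.univ.filter (· ∈ S)) (fun b => LangOf fun w => f w = b)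
    (fun b _ => hf b)
  have e : (LangOf fun w => ∃ i ∈ Finset.univ.filter (· ∈ S), w ∈ LangOf fun w => f w = i)
      = LangOf fun w => f w ∈ S := by
    ext w
    constructor
    · rintro ⟨i, hi, hw⟩
      have hw' : f w = i := hw
      have hi' : i ∈ S := by simpa using hi
      show f w ∈ S
      rw [hw']; exact hi'
    · intro hw
      have hw' : f w ∈ S := hw
      exact ⟨f w, by simpa using hw', rfl⟩
  rwa [e] at this

theorem Rec1.comp {β γ : Type} [Finite β] {f : List α → β} (hf : Rec1 f) (g : β → γ) :
    Rec1 (fun w => g (f w)) := fun c => hf.mem {b | g b = c}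

theorem Rec1.prod {β γ : Type} {f : List α → β} {g : List α → γ} (hf : Rec1 f) (hg : Rec1 g) :
    Rec1 (fun w => (f w, g w)) := by
  rintro ⟨b, c⟩
  have := (hf b).inf (hg c)
  have e : ((LangOf fun w => f w = b) ⊓ LangOf fun w => g w = c)
      = LangOf fun w => (f w, g w) = (b, c) := by
    ext w
    constructor
    · rintro ⟨h1, h2⟩
      have h1' : f w = b := h1
      have h2' : g w = c := h2
      show (f w, g w) = (b, c)
      rw [h1', h2']
    · intro h
      have h' : (f w, g w) = (b, c) := h
      exact ⟨congrArg Prod.fst h', congrArg Prod.snd h'⟩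
  rwa [e] at this

theorem Rec1.pi {ι β : Type} [Finite ι] {f : List α → ι → β} (hf : ∀ i, Rec1 (fun w => f w i)) :
    Rec1 f := by
  classical
  have := Fintype.ofFinite ι
  intro b
  have := H1.finset_inter (Finset.univ : Finset ι) (fun i => LangOf fun w => f w i = b i)
    (fun i _ => hf i (b i))
  have e : (LangOf fun w => ∀ i ∈ (Finset.univ : Finset ι), w ∈ LangOf fun w => f w i = b i)
      = LangOf fun w => f w = b := by
    ext w
    constructor
    · intro h
      show f w = b
      funext i
      exact h i (Finset.mem_univ i)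
    · intro h i _
      have h' : f w = b := h
      show f w i = b i
      rw [h']
  rwa [e] at this

/-- transfer along a functional invariant -/
theorem Rec1.of_inv {β γ : Type} [Finite β] {f : List α → β} {g : List α → γ} (hf : Rec1 f)
    (Inv : β → γ → Prop) (h : ∀ w, Inv (f w) (g w))
    (huniq : ∀ b c c', Inv b c → Inv b c' → c = c') : Rec1 g := by
  intro c
  have := hf.mem {b | Inv b c}
  have e : (LangOf fun w => f w ∈ {b | Inv b c}) = LangOf fun w => g w = c := by
    ext w
    constructor
    · intro hw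
      exact huniq _ _ _ (h w) hw
    · intro hw
      have hw' : g w = c := hw
      show Inv (f w) c
      rw [← hw']; exact h w
  rwa [e] at this

theorem foldl_inv {σ₁ σ₂ : Type} (δ₁ : σ₁ → α → σ₁) (δ₂ : σ₂ → α → σ₂) (R : σ₁ → σ₂ → Prop)
    (h : ∀ a b x, R a b → R (δ₁ a x) (δ₂ b x)) :
    ∀ (w : List α) (a : σ₁) (b : σ₂), R a b → R (w.foldl δ₁ a) (w.foldl δ₂ b)
  | [], _, _, hab => hab
  | x :: w, a, b, hab => foldl_inv δ₁ δ₂ R h w _ _ (h a b x hab)

theorem Rec1_run {Q : Type} {δ : Q → α → Q} {U : Set Q} {N : Q} (h : SFm δ U)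
    (hU : insert N U = Set.univ) (q : Q) : Rec1 (fun w => w.foldl δ q) :=
  fun q' => H1_run h hU q q'

end Vale.Agent.Lib.P329
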