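import Vale.Agent.Lib.P329.Rec

open Computability

namespace Vale.Agent.Lib.P329

variable {α : Type}

theorem SF.finset_union {ι : Type} (s : Finset ι) (L : ι → Language α)
    (h : ∀ i ∈ s, SF (L i)) : SF (LangOf fun w => ∃ i ∈ s, w ∈ L i) := by
  classical
  induction s using Finset.induction_on with
  | empty =>
    have : (LangOf fun w => ∃ i ∈ (∅ : Finset ι), w ∈ L i) = 0 := by
      ext w; simp [mem_LangOf]
    rw [this]; exact SF.zero
  | insert a s _ ih =>
    have : (LangOf fun w => ∃ i ∈ insert a s, w ∈ L i) = L a + LangOf fun w => ∃ i ∈ s, w ∈ L i := by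
      ext w
      rw [Language.mem_add, mem_LangOf, mem_LangOf]
      constructor
      · rintro ⟨i, hi, hw⟩
        rcases Finset.mem_insert.1 hi with rfl | hi
        · left; exact hw
        · right; exact ⟨i, hi, hw⟩
      · rintro (hw | ⟨i, hi, hw⟩)
        · exact ⟨a, Finset.mem_insert_self _ _, hw⟩
        · exact ⟨i, Finset.mem_insert_of_mem hi, hw⟩
    rw [this]
    exact (h a (Finset.mem_insert_self _ _)).add
      (ih (fun i hi => h i (Finset.mem_insert_of_mem hi)))

theorem SF.exists_union {ι : Type} [Finite ι] (P : ι → Prop) (L : ι → Language α)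
    (h : ∀ i, P i → SF (L i)) : SF (LangOf fun w => ∃ i, P i ∧ w ∈ L i) := by
  classical
  have := Fintype.ofFinite ι
  have h1 := SF.finset_union (Finset.univ.filter P) L (fun i hi => h i (by simpa using hi))
  have e : (LangOf fun w => ∃ i ∈ Finset.univ.filter P, w ∈ L i)
      = LangOf fun w => ∃ i, P i ∧ w ∈ L i := by
    ext w
    simp [mem_LangOf]
  rwa [e] at h1

section Aper

variable {M : Type} [Monoid M]

/-- `InI m s`: `s` lies in the two-sided ideal generated by `m` -/
def InI (m s : M) : Prop := ∃ u v, s = u * m * v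

theorem InI.refl (m : M) : InI m m := ⟨1, 1, by simp⟩

theorem InI.trans {n m s : M} (h1 : InI n m) (h2 : InI m s) : InI n s := by
  obtain ⟨u, v, rfl⟩ := h1
  obtain ⟨u', v', rfl⟩ := h2
  exact ⟨u' * u, v * v', by simp [mul_assoc]⟩

theorem exists_uniform [Finite M] (hM : ∀ x : M, ∃ n : ℕ, x ^ (n + 1) = x ^ n) :
    ∃ N : ℕ, ∀ x : M, x ^ (N + 1) = x ^ N := by
  classical
  have := Fintype.ofFinite M
  choose n hn using hM
  refine ⟨∑ x, n x, fun x => ?_⟩
  have hle : n x ≤ ∑ y, n y := Finset.single_le_sum (fun _ _ => Nat.zero_le _) (Finset.mem_univ x)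
  obtain ⟨j, hj⟩ := Nat.exists_eq_add_of_le hle
  rw [hj, show n x + j + 1 = (n x + 1) + j by omega, pow_add, hn x, ← pow_add]

theorem stab {N : ℕ} (hN : ∀ x : M, x ^ (N + 1) = x ^ N) {u y v : M} (h : y = u * y * v) :
    y = u * y ∧ y = y * v := by
  have key : ∀ k : ℕ, y = u ^ k * y * v ^ k := by
    intro k
    induction k with
    | zero => simp
    | succ k ih =>
      calc y = u * y * v := h
        _ = u * (u ^ k * y * v ^ k) * v := by rw [← ih]
        _ = u ^ (k + 1) * y * v ^ (k + 1) := by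
          rw [pow_succ' u k, pow_succ v k]
          simp only [mul_assoc]
  constructor
  · calc y = u ^ N * y * v ^ N := key N
      _ = u ^ (N + 1) * y * v ^ N := by rw [hN u]
      _ = u * (u ^ N * y * v ^ N) := by
        rw [pow_succ' u N]
        simp only [mul_assoc]
      _ = u * y := by rw [← key N]
  · calc y = u ^ N * y * v ^ N := key N
      _ = u ^ N * y * v ^ (N + 1) := by rw [hN v]
      _ = (u ^ N * y * v ^ N) * v := by
        rw [pow_succ v N]
        simp only [mul_assoc]
      _ = y * v := by rw [← key N]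

theorem one_of_mul {N : ℕ} (hN : ∀ x : M, x ^ (N + 1) = x ^ N) {x y : M} (h : x * y = 1) :
    x = 1 ∧ y = 1 := by
  have h' : (1 : M) = x * 1 * y := by rw [mul_one, h]
  obtain ⟨h1, h2⟩ := stab hN h'
  exact ⟨by rw [mul_one] at h1; exact h1.symm, by rw [one_mul] at h2; exact h2.symm⟩

theorem eq_one_of_InI {N : ℕ} (hN : ∀ x : M, x ^ (N + 1) = x ^ N) {m : M} (h : InI m 1) :
    m = 1 := by
  obtain ⟨u, v, h⟩ := h
  have h1 := (one_of_mul hN h.symm).1
  exact (one_of_mul hN h1).2

/-- `s ∈ mM`, `s ∈ Mm`, `m ∈ MsM` imply `s = m` -/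
theorem eq_of_RL {N : ℕ} (hN : ∀ x : M, x ^ (N + 1) = x ^ N) {m s c d : M}
    (h1 : s = m * c) (h2 : s = d * m) (h3 : InI s m) : s = m := by
  obtain ⟨u, v, h3⟩ := h3
  have e1 : m = u * m * (c * v) := by
    calc m = u * s * v := h3
      _ = u * (m * c) * v := by rw [← h1]
      _ = u * m * (c * v) := by simp only [mul_assoc]
  have e2 : m = s * v := by
    calc m = m * (c * v) := (stab hN e1).2
      _ = (m * c) * v := by simp only [mul_assoc]
      _ = s * v := by rw [← h1]
  have e3 : s = d * s * v := by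
    calc s = d * m := h2
      _ = d * (s * v) := by rw [← e2]
      _ = d * s * v := by simp only [mul_assoc]
  calc s = s * v := (stab hN e3).2
    _ = m := e2.symm

end Aper

section Words

variable {M : Type} [Monoid M] (φ : α → M)

/-- value of a word -/
def val (w : List α) : M := (w.map φ).prod

@[simp] theorem val_nil : val φ ([] : List α) = 1 := rfl
@[simp] theorem val_cons (a : α) (w : List α) : val φ (a :: w) = φ a * val φ w := by
  simp [val]
@[simp] theorem val_append (u v : List α) : val φ (u ++ v) = val φ u * val φ v := by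
  simp [val]

theorem first_entry (Q : M → Prop) (h1 : ¬ Q 1) (w : List α) (hw : Q (val φ w)) :
    ∃ p a r, w = p ++ a :: r ∧ ¬ Q (val φ p) ∧ Q (val φ p * φ a) := by
  induction w using List.reverseRecOn with
  | nil => exact absurd hw h1
  | append_singleton w a ih =>
    by_cases hq : Q (val φ w)
    · obtain ⟨p, a', r, rfl, h2, h3⟩ := ih hq
      exact ⟨p, a', r ++ [a], by simp, h2, h3⟩
    · refine ⟨w, a, [], rfl, hq, ?_⟩
      simpa using hw

theorem last_entry (Q : M → Prop) (h1 : ¬ Q 1) (w : List α) (hw : Q (val φ w)) :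
    ∃ p a r, w = p ++ a :: r ∧ ¬ Q (val φ r) ∧ Q (φ a * val φ r) := by
  induction w with
  | nil => exact absurd hw h1
  | cons a w ih =>
    by_cases hq : Q (val φ w)
    · obtain ⟨p, a', r, rfl, h2, h3⟩ := ih hq
      exact ⟨a :: p, a', r, by simp, h2, h3⟩
    · refine ⟨[], a, w, rfl, hq, ?_⟩
      simpa using hw

/-- a word whose value does not generate `m` has a minimal bad factor -/
theorem bad_factor (m : M) : ∀ (k : ℕ) (f : List α), f.length ≤ k → ¬ InI (val φ f) m →
    ∃ x g y, f = x ++ g ++ y ∧ ((∃ a, g = [a] ∧ ¬ InI (φ a) m) ∨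
      (∃ a z b, g = a :: (z ++ [b]) ∧ InI (φ a * val φ z) m ∧ InI (val φ z * φ b) m ∧
        ¬ InI (φ a * val φ z * φ b) m)) := by
  intro k
  induction k with
  | zero =>
    intro f hf hm
    have : f = [] := List.length_eq_zero_iff.1 (Nat.le_zero.1 hf)
    subst this
    exact absurd ⟨m, 1, by simp⟩ hm
  | succ k ih =>
    intro f hf hm
    rcases f with _ | ⟨a, t⟩
    · exact absurd ⟨m, 1, by simp⟩ hm
    · rcases List.eq_nil_or_concat t with rfl | ⟨z, b, ht⟩
      swap
      · rw [List.concat_eq_append] at ht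
        subst ht
        by_cases h1 : InI (φ a * val φ z) m
        · by_cases h2 : InI (val φ z * φ b) m
          · refine ⟨[], a :: (z ++ [b]), [], by simp, Or.inr ⟨a, z, b, rfl, h1, h2, ?_⟩⟩
            simpa [mul_assoc] using hm
          · have hlen : (z ++ [b]).length ≤ k := by
              simp only [List.length_cons] at hf
              omega
            obtain ⟨x, g, y, hxy, hg⟩ := ih (z ++ [b]) hlen (by simpa using h2)
            exact ⟨a :: x, g, y, by rw [hxy]; simp, hg⟩
        · have hlen : (a :: z).length ≤ k := by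
            simp only [List.length_cons, List.length_append, List.length_nil] at hf ⊢
            omega
          obtain ⟨x, g, y, hxy, hg⟩ := ih (a :: z) hlen (by simpa using h1)
          refine ⟨x, g, y ++ [b], ?_, hg⟩
          have : a :: (z ++ [b]) = (a :: z) ++ [b] := by simp
          rw [this, hxy]
          simp
      · refine ⟨[], [a], [], by simp, Or.inl ⟨a, rfl, ?_⟩⟩
        simpa using hm

end Words

/-- fibre of the value map -/
def fib {M : Type} [Monoid M] (φ : α → M) (m : M) : Language α := LangOf fun w => val φ w = m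

theorem mem_fib {M : Type} [Monoid M] {φ : α → M} {m : M} {w : List α} :
    w ∈ fib φ m ↔ val φ w = m := Iff.rfl

theorem fib_one_eq {M : Type} [Monoid M] {N : ℕ} (hN : ∀ x : M, x ^ (N + 1) = x ^ N)
    (φ : α → M) : fib φ 1 = allIn {a | φ a = 1} := by
  ext w
  rw [mem_fib, mem_allIn]
  induction w with
  | nil => simp
  | cons a w ih =>
    rw [val_cons]
    constructor
    · intro h x hx
      obtain ⟨h1, h2⟩ := one_of_mul hN h
      rcases List.mem_cons.1 hx with rfl | hx
      · exact h1
      · exact ih.1 h2 x hx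
    · intro h
      have h1 : φ a = 1 := h a (by simp)
      have h2 : val φ w = 1 := ih.2 (fun x hx => h x (List.mem_cons_of_mem _ hx))
      rw [h1, h2, one_mul]

theorem fib_step {M : Type} [Monoid M] {N : ℕ} (hN : ∀ x : M, x ^ (N + 1) = x ^ N)
    (φ : α → M) (m : M) (h1 : ¬ InI m 1) :
    fib φ m =
      (((LangOf fun w => ∃ p : M × α, ((¬ ∃ t, p.1 = m * t) ∧ (∃ t, p.1 * φ p.2 = m * t) ∧
            (∃ t, m = p.1 * φ p.2 * t)) ∧ w ∈ fib φ p.1 * ({[p.2]} : Language α)) * ⊤) ⊓
        (⊤ * (LangOf fun w => ∃ p : M × α, ((¬ ∃ t, p.1 = t * m) ∧ (∃ t, φ p.2 * p.1 = t * m) ∧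
            (∃ t, m = t * (φ p.2 * p.1))) ∧ w ∈ ({[p.2]} : Language α) * fib φ p.1))) ⊓
      ((⊤ * lets {a | ¬ InI (φ a) m} * ⊤) +
        (⊤ * (LangOf fun w => ∃ p : α × M × α, (InI (φ p.1 * p.2.1) m ∧ InI (p.2.1 * φ p.2.2) m ∧
            ¬ InI (φ p.1 * p.2.1 * φ p.2.2) m) ∧
            w ∈ ({[p.1]} : Language α) * fib φ p.2.1 * ({[p.2.2]} : Language α)) * ⊤))ᶜ := by
  ext w
  constructor
  · intro hw
    have hw' : val φ w = m := hw
    refine ⟨⟨?_, ?_⟩, ?_⟩
    · -- first entry into mM
      obtain ⟨p, a, r, rfl, h2, h3⟩ := first_entry φ (fun x => ∃ t, x = m * t)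
        (fun ⟨t, ht⟩ => h1 ⟨1, t, by rw [one_mul]; exact ht⟩) w ⟨1, by rw [hw', mul_one]⟩
      refine Language.mem_mul.2 ⟨p ++ [a], ⟨(val φ p, a), ⟨h2, h3, val φ r, ?_⟩, ?_⟩, r, trivial,
        by simp⟩
      · rw [← hw']; simp [mul_assoc]
      · exact Language.mem_mul.2 ⟨p, rfl, [a], rfl, rfl⟩
    · obtain ⟨p, a, r, rfl, h2, h3⟩ := last_entry φ (fun x => ∃ t, x = t * m)
        (fun ⟨t, ht⟩ => h1 ⟨t, 1, by rw [mul_one]; exact ht⟩) w ⟨1, by rw [hw', one_mul]⟩
      refine Language.mem_mul.2 ⟨p, trivial, a :: r, ⟨(val φ r, a), ⟨h2, h3, val φ p, ?_⟩, ?_⟩, rfl⟩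
      · rw [← hw']; simp
      · exact Language.mem_mul.2 ⟨[a], rfl, r, rfl, rfl⟩
    · intro hbad
      rcases (Language.mem_add _ _ _).1 hbad with hb | hb
      · obtain ⟨u, hu, v, _, rfl⟩ := Language.mem_mul.1 hb
        obtain ⟨u1, _, u2, hu2, rfl⟩ := Language.mem_mul.1 hu
        obtain ⟨a, ha, rfl⟩ := hu2
        apply ha
        exact ⟨val φ u1, val φ v, by rw [← hw']; simp [mul_assoc]⟩
      · obtain ⟨u, hu, v, _, rfl⟩ := Language.mem_mul.1 hb
        obtain ⟨u1, _, u2, hu2, rfl⟩ := Language.mem_mul.1 hu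
        obtain ⟨⟨a, n, b⟩, ⟨_, _, hp⟩, hu2⟩ := hu2
        obtain ⟨x, hx, y, hy, rfl⟩ := Language.mem_mul.1 hu2
        obtain ⟨x1, hx1, x2, hx2, rfl⟩ := Language.mem_mul.1 hx
        have e1 : x1 = [a] := hx1
        have e2 : y = [b] := hy
        have e3 : val φ x2 = n := hx2
        subst e1 e2
        apply hp
        refine ⟨val φ u1, val φ v, ?_⟩
        rw [← hw', ← e3]
        simp [mul_assoc]
  · rintro ⟨⟨hU, hV⟩, hbad⟩
    show val φ w = m
    -- s in mM
    have hR : ∃ c, val φ w = m * c := by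
      obtain ⟨x, hx, r, _, rfl⟩ := Language.mem_mul.1 hU
      obtain ⟨⟨n, a⟩, ⟨_, ⟨t, ht⟩, _⟩, hx⟩ := hx
      obtain ⟨y, hy, z, hz, rfl⟩ := Language.mem_mul.1 hx
      have e1 : z = [a] := hz
      have e2 : val φ y = n := hy
      subst e1
      refine ⟨t * val φ r, ?_⟩
      have ht' : n * φ a = m * t := ht
      rw [val_append, val_append, e2, val_cons, val_nil, mul_one, ht', mul_assoc]
    have hL : ∃ d, val φ w = d * m := by
      obtain ⟨r, _, x, hx, rfl⟩ := Language.mem_mul.1 hV
      obtain ⟨⟨n, a⟩, ⟨_, ⟨t, ht⟩, _⟩, hx⟩ := hx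
      obtain ⟨z, hz, y, hy, rfl⟩ := Language.mem_mul.1 hx
      have e1 : z = [a] := hz
      have e2 : val φ y = n := hy
      subst e1
      refine ⟨val φ r * t, ?_⟩
      have ht' : φ a * n = t * m := ht
      rw [val_append, val_append, e2, val_cons, val_nil, mul_one, ht', mul_assoc]
    have hJ : InI (val φ w) m := by
      by_contra hc
      obtain ⟨x, g, y, hxy, hg⟩ := bad_factor φ m w.length w le_rfl hc
      apply hbad
      rcases hg with ⟨a, rfl, ha⟩ | ⟨a, z, b, rfl, hp1, hp2, hp3⟩
      · refine (Language.mem_add _ _ _).2 (Or.inl ?_)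
        exact Language.mem_mul.2 ⟨x ++ [a], Language.mem_mul.2 ⟨x, trivial, [a], ⟨a, ha, rfl⟩, rfl⟩,
          y, trivial, hxy.symm⟩
      · refine (Language.mem_add _ _ _).2 (Or.inr ?_)
        refine Language.mem_mul.2 ⟨x ++ a :: (z ++ [b]), Language.mem_mul.2 ⟨x, trivial,
          a :: (z ++ [b]), ⟨(a, val φ z, b), ⟨hp1, hp2, hp3⟩, ?_⟩, rfl⟩, y, trivial, hxy.symm⟩
        exact Language.mem_mul.2 ⟨[a] ++ z, Language.mem_mul.2 ⟨[a], rfl, z, rfl, rfl⟩, [b], rfl,
          by simp⟩
    obtain ⟨c, hc⟩ := hR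
    obtain ⟨d, hd⟩ := hL
    exact eq_of_RL hN hc hd hJ

/-- Schuetzenberger: the fibres of a morphism into a finite aperiodic monoid are star-free. -/
theorem SF_of_aperiodic {M : Type} [Fintype α] [Monoid M] [Finite M]
    (hM : ∀ x : M, ∃ n : ℕ, x ^ (n + 1) = x ^ n) (φ : α → M) (m : M) :
    SF (LangOf fun w : List α => (w.map φ).prod = m) := by
  classical
  obtain ⟨N, hN⟩ := exists_uniform hM
  suffices H : ∀ k : ℕ, ∀ m : M, Set.ncard {s : M | ¬ InI m s} = k → SF (fib φ m) from
    H _ m rfl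
  intro k
  induction k using Nat.strong_induction_on with
  | _ k ih =>
  intro m hk
  by_cases h1 : InI m 1
  · have hm : m = 1 := eq_one_of_InI hN h1
    rw [hm, fib_one_eq hN]
    exact SF.allIn _
  · have IH : ∀ n : M, InI n m → ¬ InI m n → SF (fib φ n) := by
      intro n hnm hmn
      refine ih (Set.ncard {s : M | ¬ InI n s}) ?_ n rfl
      rw [← hk]
      apply Set.ncard_lt_ncard _ (Set.toFinite _)
      constructor
      · intro s hs hms
        exact hs (hnm.trans hms)
      · intro hsub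
        exact (hsub (show n ∈ {s : M | ¬ InI m s} from hmn)) (InI.refl n)
    rw [fib_step hN φ m h1]
    refine SF.inf (SF.inf (SF.mul ?_ SF.top) (SF.mul SF.top ?_))
      (SF.compl (SF.add ((SF.top.mul (SF.lets _)).mul SF.top) ((SF.top.mul ?_).mul SF.top)))
    · apply SF.exists_union
      rintro ⟨n, a⟩ ⟨hn1, _, ⟨t, ht⟩⟩
      refine SF.mul (IH n ⟨1, φ a * t, ?_⟩ ?_) (SF.letter a)
      · rw [one_mul, ← mul_assoc]; exact ht
      · rintro ⟨u, v, huv⟩
        apply hn1
        -- n = u m v, m = n (φ a t)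
        have ht' : m = n * φ a * t := ht
        have e : n = u * n * (φ a * t * v) := by
          calc n = u * m * v := huv
            _ = u * (n * φ a * t) * v := by rw [← ht']
            _ = u * n * (φ a * t * v) := by simp only [mul_assoc]
        refine ⟨v, ?_⟩
        calc n = n * (φ a * t * v) := (stab hN e).2
          _ = (n * φ a * t) * v := by simp only [mul_assoc]
          _ = m * v := by rw [← ht']
    · apply SF.exists_union
      rintro ⟨n, a⟩ ⟨hn1, _, ⟨t, ht⟩⟩
      refine SF.mul (SF.letter a) (IH n ⟨t * φ a, 1, ?_⟩ ?_)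
      · rw [mul_one, mul_assoc]; exact ht
      · rintro ⟨u, v, huv⟩
        apply hn1
        have ht' : m = t * (φ a * n) := ht
        have e : n = (u * t * φ a) * n * v := by
          calc n = u * m * v := huv
            _ = u * (t * (φ a * n)) * v := by rw [← ht']
            _ = (u * t * φ a) * n * v := by simp only [mul_assoc]
        refine ⟨u, ?_⟩
        calc n = (u * t * φ a) * n := (stab hN e).1
          _ = u * (t * (φ a * n)) := by simp only [mul_assoc]
          _ = u * m := by rw [← ht']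
    · apply SF.exists_union
      rintro ⟨a, n, b⟩ ⟨hp1, hp2, hp3⟩
      have hp1' : InI (φ a * n) m := hp1
      have hp2' : InI (n * φ b) m := hp2
      have hp3' : ¬ InI (φ a * n * φ b) m := hp3
      have hnm : InI n m := InI.trans ⟨φ a, 1, by simp⟩ hp1'
      refine SF.mul (SF.mul (SF.letter a) (IH n hnm ?_)) (SF.letter b)
      intro hmn
      apply hp3'
      obtain ⟨u, v, h2⟩ := hp1'.trans hmn
      obtain ⟨u', v', h3⟩ := hp2'.trans hmn
      have e1 : n = (u * φ a) * n * v := by
        calc n = u * (φ a * n) * v := h2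
          _ = (u * φ a) * n * v := by simp only [mul_assoc]
      have e2 : n = u' * n * (φ b * v') := by
        calc n = u' * (n * φ b) * v' := h3
          _ = u' * n * (φ b * v') := by simp only [mul_assoc]
      have f1 : n = (u * φ a) * n := (stab hN e1).1
      have f2 : n = n * (φ b * v') := (stab hN e2).2
      refine InI.trans ⟨u, v', ?_⟩ hnm
      calc n = (u * φ a) * n := f1
        _ = (u * φ a) * (n * (φ b * v')) := by rw [← f2]
        _ = u * (φ a * n * φ b) * v' := by simp only [mul_assoc]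

end Vale.Agent.Lib.P329
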