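import Vale.Agent.Lib.P329.Schutz

open Computability

namespace Vale.Agent.Lib.P329

variable {α Q : Type}

/-- the automaton `δ` cut at the state `N`: entering `N` kills the run -/
def cut [DecidableEq Q] (δ : Q → α → Q) (N : Q) : Option Q → α → Option Q
  | none, _ => none
  | some q, x => if δ q x = N then none else some (δ q x)

/-- `k`-th power of a word -/
def pw (w : List α) : ℕ → List α
  | 0 => []
  | k + 1 => w ++ pw w k

theorem star_SF_union {ι : Type} (s : Finset ι) (L : ι → Language α)
    (h : ∀ i ∈ s, SF (L i)) : SF (LangOf fun w => ∃ i ∈ s, w ∈ L i) := by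
  classical
  induction s using Finset.induction_on with
  | empty =>
    have : (LangOf fun w => ∃ i ∈ (∅ : Finset ι), w ∈ L i) = 0 := by
      ext w; simp [mem_LangOf]
    rw [this]; exact SF.zero
  | insert a s _ ih =>
    have : (LangOf fun w => ∃ i ∈ insert a s, w ∈ L i) = L a + LangOf fun w => ∃ i ∈ s, w ∈ L i := by
      ext w
      rw [Language.mem_add, mem_LangOf, mem_LangOf]
      constructor
      · rintro ⟨i, hi, hw⟩
        rcases Finset.mem_insert.1 hi with rfl | hi
        · left; exact hw
        · right; exact ⟨i, hi, hw⟩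
      · rintro (hw | ⟨i, hi, hw⟩)
        · exact ⟨a, Finset.mem_insert_self _ _, hw⟩
        · exact ⟨i, Finset.mem_insert_of_mem hi, hw⟩
    rw [this]
    exact (h a (Finset.mem_insert_self _ _)).add
      (ih (fun i hi => h i (Finset.mem_insert_of_mem hi)))

/-- a self-map of a finite set without nontrivial cycles is eventually constant on orbits -/
theorem star_orbit {X : Type} [Finite X] (f : X → X)
    (h : ∀ (s : X) (k : ℕ), 0 < k → f^[k] s = s → f s = s) :
    ∃ n : ℕ, ∀ s, f^[n + 1] s = f^[n] s := by
  classical
  have := Fintype.ofFinite X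
  have h1 : ∀ s, ∃ i : ℕ, f^[i + 1] s = f^[i] s := by
    intro s
    obtain ⟨i, j, hij, e⟩ := Finite.exists_ne_map_eq_of_infinite (fun i : ℕ => f^[i] s)
    wlog hlt : i < j generalizing i j
    · exact this j i hij.symm e.symm (by omega)
    refine ⟨i, ?_⟩
    have e2 : f^[j - i] (f^[i] s) = f^[i] s := by
      rw [← Function.iterate_add_apply, Nat.sub_add_cancel hlt.le, ← e]
    have := h _ _ (by omega) e2
    rw [Function.iterate_succ_apply']
    exact this
  choose i hi using h1
  refine ⟨∑ s, i s, fun s => ?_⟩
  have hle : i s ≤ ∑ s, i s := Finset.single_le_sum (fun _ _ => Nat.zero_le _) (Finset.mem_univ s)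
  obtain ⟨d, hd⟩ := Nat.exists_eq_add_of_le hle
  rw [hd, show i s + d + 1 = d + (i s + 1) by ring, show i s + d = d + i s by ring,
    Function.iterate_add_apply f d (i s + 1), Function.iterate_add_apply f d (i s), hi s]

theorem star_iter {X : Type} (δ : X → α → X) (w : List α) : ∀ (k : ℕ) (s : X),
    (fun s => w.foldl δ s)^[k] s = (pw w k).foldl δ s
  | 0, _ => rfl
  | k + 1, s => by
    rw [Function.iterate_succ_apply, star_iter δ w k]
    simp [pw, List.foldl_append]

/-- languages of a counter-free automaton are star-free -/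
theorem star_SF_run {X : Type} [Fintype α] [Finite X] (δ : X → α → X)
    (h : ∀ (w : List α) (s : X) (k : ℕ), 0 < k → (pw w k).foldl δ s = s → w.foldl δ s = s)
    (s s' : X) : SF (LangOf fun w : List α => w.foldl δ s = s') := by
  classical
  let φ : α → (Function.End X)ᵐᵒᵖ := fun x => MulOpposite.op (fun s => δ s x)
  have hφ : ∀ w : List α, (w.map φ).prod = MulOpposite.op (fun s => w.foldl δ s) := by
    intro w
    induction w with
    | nil => rfl
    | cons x w ih =>
      rw [List.map_cons, List.prod_cons, ih]
      rfl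
  let S : Submonoid (Function.End X)ᵐᵒᵖ := MonoidHom.mrange (FreeMonoid.lift φ)
  have hS : ∀ m : S, ∃ w : List α, (m : (Function.End X)ᵐᵒᵖ) = (w.map φ).prod := by
    rintro ⟨m, hm⟩
    obtain ⟨l, hl⟩ := MonoidHom.mem_mrange.1 hm
    refine ⟨FreeMonoid.toList l, ?_⟩
    show m = _
    rw [← hl, FreeMonoid.lift_apply]
  have hmem : ∀ x, φ x ∈ S := fun x =>
    MonoidHom.mem_mrange.2 ⟨FreeMonoid.of x, by simp⟩
  let φ' : α → S := fun x => ⟨φ x, hmem x⟩
  have hφ' : ∀ w : List α, (((w.map φ').prod : S) : (Function.End X)ᵐᵒᵖ) = (w.map φ).prod := by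
    intro w
    rw [Submonoid.coe_list_prod, List.map_map]
    rfl
  have hpow : ∀ (w : List α) (k : ℕ), ((w.map φ).prod) ^ k = ((pw w k).map φ).prod := by
    intro w k
    induction k with
    | zero => simp [pw]
    | succ k ih => rw [pow_succ', ih]; simp [pw]
  have hap : ∀ m : S, ∃ n : ℕ, m ^ (n + 1) = m ^ n := by
    intro m
    obtain ⟨w, hw⟩ := hS m
    obtain ⟨n, hn⟩ := star_orbit (fun s => w.foldl δ s) (by
      intro s k hk e
      rw [star_iter] at e
      exact h w s k hk e)
    refine ⟨n, Subtype.ext ?_⟩
    rw [SubmonoidClass.coe_pow, SubmonoidClass.coe_pow, hw, hpow, hpow, hφ, hφ]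
    congr 1
    funext s
    have := hn s
    rw [star_iter, star_iter] at this
    exact this
  have hfin0 : Finite (Function.End X) := inferInstanceAs (Finite (X → X))
  have hfin1 : Finite (Function.End X)ᵐᵒᵖ := Finite.of_equiv _ MulOpposite.opEquiv
  have hfin : Finite S := Subtype.finite
  have := Fintype.ofFinite S
  have key := star_SF_union (Finset.univ.filter
    (fun m : S => (MulOpposite.unop (m : (Function.End X)ᵐᵒᵖ)) s = s'))
    (fun m => LangOf fun w : List α => (w.map φ').prod = m)
    (fun m _ => SF_of_aperiodic hap φ' m)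
  have e : (LangOf fun w => ∃ m ∈ Finset.univ.filter
      (fun m : S => (MulOpposite.unop (m : (Function.End X)ᵐᵒᵖ)) s = s'),
      w ∈ LangOf fun w : List α => (w.map φ').prod = m)
      = LangOf fun w : List α => w.foldl δ s = s' := by
    ext w
    simp only [mem_LangOf, Finset.mem_filter, Finset.mem_univ, true_and]
    constructor
    · rintro ⟨m, hm, rfl⟩
      rw [hφ', hφ] at hm
      exact hm
    · intro hw
      refine ⟨(w.map φ').prod, ?_, rfl⟩
      rw [hφ', hφ]
      exact hw
  rwa [e] at key

theorem star_cut_none [DecidableEq Q] (δ : Q → α → Q) (N : Q) (w : List α) :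
    w.foldl (cut δ N) none = none := by
  induction w with
  | nil => rfl
  | cons x w ih => exact ih

theorem star_path_iff [DecidableEq Q] (δ : Q → α → Q) (N : Q) (q' : Q) :
    ∀ (w : List α) (q : Q), Path δ {N}ᶜ q q' w ↔
      ∃ u x r, w = u ++ [x] ∧ u.foldl (cut δ N) (some q) = some r ∧ δ r x = q'
  | [], q => by
    constructor
    · intro h; exact h.elim
    · rintro ⟨u, x, r, e, _⟩
      simp at e
  | [x], q => by
    constructor
    · intro h; exact ⟨[], x, q, rfl, rfl, h⟩
    · rintro ⟨u, y, r, e, h1, h2⟩
      cases u with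
      | nil =>
        simp at e; subst e
        simp at h1; subst h1
        exact h2
      | cons z u => simp at e
  | x :: y :: w, q => by
    have ih := star_path_iff δ N q' (y :: w) (δ q x)
    constructor
    · rintro ⟨h1, h2⟩
      obtain ⟨u, z, r, e, h3, h4⟩ := ih.1 h2
      refine ⟨x :: u, z, r, by rw [e]; rfl, ?_, h4⟩
      have hN : δ q x ≠ N := h1
      simp only [List.foldl_cons, cut, if_neg hN]
      exact h3
    · rintro ⟨u, z, r, e, h3, h4⟩
      cases u with
      | nil => simp at e
      | cons x' u =>
        simp only [List.cons_append, List.cons.injEq] at e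
        obtain ⟨rfl, e⟩ := e
        simp only [List.foldl_cons, cut] at h3
        by_cases hN : δ q x = N
        · rw [if_pos hN, star_cut_none] at h3
          exact absurd h3 (by simp)
        · rw [if_neg hN] at h3
          exact ⟨hN, ih.2 ⟨u, z, r, e, h3, h4⟩⟩

/-- If the automaton cut at `N` is counter-free, then every language recognized by the automaton
has generalized star height at most one. -/
theorem Rec1_of_cut [Fintype α] [Finite Q] [DecidableEq Q] (δ : Q → α → Q) (N : Q)
    (h : ∀ (w : List α) (q : Q) (k : ℕ), 0 < k →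
      (pw w k).foldl (cut δ N) (some q) = some q → w.foldl (cut δ N) (some q) = some q)
    (q₀ : Q) : Rec1 (fun w : List α => w.foldl δ q₀) := by
  classical
  have := Fintype.ofFinite Q
  have hcf : ∀ (w : List α) (s : Option Q) (k : ℕ), 0 < k →
      (pw w k).foldl (cut δ N) s = s → w.foldl (cut δ N) s = s := by
    intro w s k hk e
    cases s with
    | none => exact star_cut_none δ N w
    | some q => exact h w q k hk e
  have hSF : SFm δ {N}ᶜ := by
    intro q q'
    have key := star_SF_union (Finset.univ.filter (fun rx : Q × α => δ rx.1 rx.2 = q'))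
      (fun rx => (LangOf fun w : List α => w.foldl (cut δ N) (some q) = some rx.1) * {[rx.2]})
      (fun rx _ => (star_SF_run (cut δ N) hcf (some q) (some rx.1)).mul (SF.letter rx.2))
    have e : (LangOf fun w => ∃ rx ∈ Finset.univ.filter (fun rx : Q × α => δ rx.1 rx.2 = q'),
        w ∈ (LangOf fun w : List α => w.foldl (cut δ N) (some q) = some rx.1) * {[rx.2]})
        = PathL δ {N}ᶜ q q' := by
      ext w
      rw [mem_PathL, star_path_iff, mem_LangOf]
      constructor
      · rintro ⟨⟨r, x⟩, hrx, hw⟩
        obtain ⟨u, hu, v, hv, rfl⟩ := Language.mem_mul.1 hw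
        have hv' : v = [x] := hv
        subst hv'
        exact ⟨u, x, r, rfl, hu, by simpa using hrx⟩
      · rintro ⟨u, x, r, rfl, h1, h2⟩
        exact ⟨(r, x), by simpa using h2, Language.mem_mul.2 ⟨u, h1, [x], rfl, rfl⟩⟩
    rwa [e] at key
  apply Rec1_run hSF
  ext s
  simp only [Set.mem_insert_iff, Set.mem_compl_iff, Set.mem_singleton_iff, Set.mem_univ, iff_true]
  exact em _

end Vale.Agent.Lib.P329
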