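import Vale.Agent.Lib.P329.Pat

open Computability

namespace Vale.Agent.Lib.P329

variable {α : Type}

theorem dvd_choose6 (m : ℕ) (hm : 0 < m) :
    m ∣ (6 * m).choose 1 ∧ m ∣ (6 * m).choose 2 ∧ m ∣ (6 * m).choose 3 := by
  obtain ⟨t, ht⟩ : ∃ t, 6 * m = t + 1 := ⟨6 * m - 1, by omega⟩
  refine ⟨by rw [Nat.choose_one_right]; exact Dvd.intro_left 6 rfl, ?_, ?_⟩
  · have h := Nat.add_one_mul_choose_eq t 1
    rw [← ht] at h
    have h' : 6 * (m * t.choose 1) = (6 * m).choose 2 * 2 := by rw [← h]; ring
    have : (6 * m).choose 2 = m * (3 * t.choose 1) := by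
      have : (6 * m).choose 2 = 3 * (m * t.choose 1) := by omega
      rw [this]; ring
    rw [this]; exact Dvd.intro _ rfl
  · have h := Nat.add_one_mul_choose_eq t 2
    rw [← ht] at h
    have h' : 6 * (m * t.choose 2) = (6 * m).choose 3 * 3 := by rw [← h]; ring
    have : (6 * m).choose 3 = m * (2 * t.choose 2) := by
      have : (6 * m).choose 3 = 2 * (m * t.choose 2) := by omega
      rw [this]; ring
    rw [this]; exact Dvd.intro _ rfl

theorem choose_per (m : ℕ) (hm : 0 < m) : ∀ (n k : ℕ), k ≤ 3 →
    (((n + 6 * m).choose k : ℕ) : ZMod m) = ((n.choose k : ℕ) : ZMod m) := by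
  intro n
  induction n with
  | zero =>
    intro k hk
    obtain ⟨h1, h2, h3⟩ := dvd_choose6 m hm
    rw [Nat.zero_add]
    interval_cases k
    · simp
    · rw [(ZMod.natCast_eq_zero_iff _ _).2 h1]; simp
    · rw [(ZMod.natCast_eq_zero_iff _ _).2 h2]; simp
    · rw [(ZMod.natCast_eq_zero_iff _ _).2 h3]; simp
  | succ n ih =>
    intro k hk
    cases k with
    | zero => simp
    | succ k =>
      rw [show n + 1 + 6 * m = (n + 6 * m) + 1 by ring, Nat.choose_succ_succ, Nat.choose_succ_succ]
      push_cast
      rw [ih k (by omega), ih (k + 1) hk]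

theorem choose_mod (m : ℕ) (hm : 0 < m) (n k : ℕ) (hk : k ≤ 3) :
    ((((n % (6 * m)).choose k : ℕ)) : ZMod m) = ((n.choose k : ℕ) : ZMod m) :=
  periodic_mod (6 * m) (fun n => ((n.choose k : ℕ) : ZMod m)) (fun c => choose_per m hm c k hk) n

section
variable [Fintype α]

theorem R_cnt (n : ℕ) [NeZero n] (U : Set α) : Rec1 (fun w : List α => (pc [U] w : ZMod n)) := by
  have h := Rec1_cntI n (kd U ∅)
  have e : (fun w : List α => (cntI (kd U ∅) w : ZMod n)) = fun w => (pc [U] w : ZMod n) := by
    funext w; rw [cntI_kd]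
  rwa [e] at h

theorem R_choose (m : ℕ) [NeZero m] (U : Set α) (k : ℕ) (hk : k ≤ 3) :
    Rec1 (fun w : List α => (((pc [U] w).choose k : ℕ) : ZMod m)) := by
  have hm : 0 < m := Nat.pos_of_ne_zero (NeZero.ne m)
  have : NeZero (6 * m) := ⟨by omega⟩
  have h := (R_cnt (6 * m) U).comp (fun v => (((v.val).choose k : ℕ) : ZMod m))
  have e : (fun w : List α => (((((pc [U] w : ℕ) : ZMod (6 * m)).val).choose k : ℕ) : ZMod m))
      = fun w => (((pc [U] w).choose k : ℕ) : ZMod m) := by
    funext w
    rw [ZMod.val_natCast, choose_mod m hm _ k hk]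
  rwa [e] at h

theorem R_two (m : ℕ) [NeZero m] (S B : Set α) (h : Disjoint S B) :
    Rec1 (fun w : List α => (pc [S, B] w : ZMod m)) := by
  have h1 := Rec1_piv m m (kd S B) (fun c => (c : ZMod m)) (fun c => by simp) 0
  have e : (fun w : List α => piv (kd S B) (fun c => (c : ZMod m)) 0 w)
      = fun w => (pc [S, B] w : ZMod m) := by
    funext w
    rw [← piv_cast m (kd S B) (fun c => c) w 0, piv_one S B h w 0]
    simp
  rwa [e] at h1

theorem R_three (m : ℕ) [NeZero m] (S B : Set α) (h : Disjoint S B) :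
    Rec1 (fun w : List α => (pc [S, S, B] w : ZMod m)) := by
  have hm : 0 < m := Nat.pos_of_ne_zero (NeZero.ne m)
  have : NeZero (6 * m) := ⟨by omega⟩
  have h1 := Rec1_piv (6 * m) m (kd S B) (fun c => ((c.choose 2 : ℕ) : ZMod m))
    (fun c => choose_per m hm c 2 (by omega)) 0
  have e : (fun w : List α => piv (kd S B) (fun c => ((c.choose 2 : ℕ) : ZMod m)) 0 w)
      = fun w => (pc [S, S, B] w : ZMod m) := by
    funext w
    rw [← piv_cast m (kd S B) (fun c => c.choose 2) w 0, piv_two S B h w 0]
    simp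
  rwa [e] at h1

/-- `X, Y, X` with `X`, `Y` disjoint -/
theorem R_xyx (m : ℕ) [NeZero m] (X Y : Set α) (h : Disjoint X Y) :
    Rec1 (fun w : List α => (pc [X, Y, X] w : ZMod m)) := by
  have h1 := ((((R_two m X Y h).mul' (R_cnt m X)).sub' (R_three m X Y h)).sub'
    (R_three m X Y h)).sub' (R_two m X Y h)
  have e : (fun w : List α => (pc [X, Y] w : ZMod m) * (pc [X] w : ZMod m)
      - (pc [X, X, Y] w : ZMod m) - (pc [X, X, Y] w : ZMod m) - (pc [X, Y] w : ZMod m))
      = fun w => (pc [X, Y, X] w : ZMod m) := by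
    funext w
    have := pc_mul21 X Y X w
    rw [Set.inter_self, Set.disjoint_iff_inter_eq_empty.1 h.symm, pc_empty2] at this
    have h2 := congrArg (fun n : ℕ => (n : ZMod m)) this
    push_cast at h2
    rw [h2]; ring
  rwa [e] at h1

/-- pairwise disjoint `X, Y, Z` -/
theorem R_xyz (m : ℕ) [NeZero m] (X Y Z : Set α) (hXY : Disjoint X Y) (hXZ : Disjoint X Z)
    (hYZ : Disjoint Y Z) : Rec1 (fun w : List α => (pc [X, Y, Z] w : ZMod m)) := by
  have hU : Disjoint (X ∪ Z) Y := Set.disjoint_union_left.2 ⟨hXY, hYZ.symm⟩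
  have h1 := ((((R_two m X Y hXY).mul' (R_cnt m Z)).sub' (R_three m (X ∪ Z) Y hU)).add'
    (R_three m X Y hXY)).add' (R_three m Z Y hYZ.symm)
  have e : (fun w : List α => (pc [X, Y] w : ZMod m) * (pc [Z] w : ZMod m)
      - (pc [X ∪ Z, X ∪ Z, Y] w : ZMod m) + (pc [X, X, Y] w : ZMod m) + (pc [Z, Z, Y] w : ZMod m))
      = fun w => (pc [X, Y, Z] w : ZMod m) := by
    funext w
    have := pc_mul21 X Y Z w
    rw [Set.disjoint_iff_inter_eq_empty.1 hXZ, Set.disjoint_iff_inter_eq_empty.1 hYZ, pc_empty2,
      pc_empty] at this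
    have h3 : pc [X ∪ Z, X ∪ Z, Y] w
        = pc [X, X, Y] w + pc [X, Z, Y] w + (pc [Z, X, Y] w + pc [Z, Z, Y] w) := by
      rw [pc_union1 X Z hXZ, pc_union2 X X Z hXZ, pc_union2 Z X Z hXZ]
    have h2 := congrArg (fun n : ℕ => (n : ZMod m)) this
    have h4 := congrArg (fun n : ℕ => (n : ZMod m)) h3
    push_cast at h2 h4
    rw [h2, h4]; ring
  rwa [e] at h1

/-- `X, Y, Y` with `X`, `Y` disjoint -/
theorem R_xyy (m : ℕ) [NeZero m] (X Y : Set α) (h : Disjoint X Y) :
    Rec1 (fun w : List α => (pc [X, Y, Y] w : ZMod m)) := by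
  have h1 := (((R_choose m Y 2 (by omega)).mul' (R_cnt m X)).sub' (R_three m Y X h.symm)).sub'
    (R_xyx m Y X h.symm)
  have e : (fun w : List α => (((pc [Y] w).choose 2 : ℕ) : ZMod m) * (pc [X] w : ZMod m)
      - (pc [Y, Y, X] w : ZMod m) - (pc [Y, X, Y] w : ZMod m))
      = fun w => (pc [X, Y, Y] w : ZMod m) := by
    funext w
    have := pc_mul21 Y Y X w
    rw [Set.disjoint_iff_inter_eq_empty.1 h.symm, pc_empty2, pc_empty, pc_two] at this
    have h2 := congrArg (fun n : ℕ => (n : ZMod m)) this
    push_cast at h2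
    rw [h2]; ring
  rwa [e] at h1

omit [Fintype α] in
theorem disj_sing {x y : α} (h : x ≠ y) : Disjoint ({x} : Set α) {y} :=
  Set.disjoint_singleton.2 h

/-- scattered patterns of length at most three -/
theorem R_word (m : ℕ) [NeZero m] (u : List α) (hu : u.length ≤ 3) :
    Rec1 (fun w : List α => (pc (u.map fun a => ({a} : Set α)) w : ZMod m)) := by
  classical
  match u, hu with
  | [], _ =>
    have h := (R_cnt m (∅ : Set α)).comp (fun _ => (1 : ZMod m))
    have e : (fun _ : List α => (1 : ZMod m))
        = fun w => (pc (([] : List α).map fun a => ({a} : Set α)) w : ZMod m) := by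
      funext w; simp [pc_nil]
    rwa [e] at h
  | [x], _ => exact R_cnt m {x}
  | [x, y], _ =>
    by_cases hxy : x = y
    · subst hxy
      have h := R_choose m ({x} : Set α) 2 (by omega)
      have e : (fun w : List α => (((pc [({x} : Set α)] w).choose 2 : ℕ) : ZMod m))
          = fun w => (pc ([x, x].map fun a => ({a} : Set α)) w : ZMod m) := by
        funext w
        simp only [List.map_cons, List.map_nil]
        rw [pc_two]
      rwa [e] at h
    · exact R_two m {x} {y} (disj_sing hxy)
  | [x, y, z], _ =>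
    by_cases hxy : x = y
    · subst hxy
      by_cases hxz : x = z
      · subst hxz
        have h := R_choose m ({x} : Set α) 3 (by omega)
        have e : (fun w : List α => (((pc [({x} : Set α)] w).choose 3 : ℕ) : ZMod m))
            = fun w => (pc ([x, x, x].map fun a => ({a} : Set α)) w : ZMod m) := by
          funext w
          simp only [List.map_cons, List.map_nil]
          rw [pc_three]
        rwa [e] at h
      · exact R_three m {x} {z} (disj_sing hxz)
    · by_cases hyz : y = z
      · subst hyz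
        exact R_xyy m {x} {y} (disj_sing hxy)
      · by_cases hxz : x = z
        · subst hxz
          exact R_xyx m {x} {y} (disj_sing hxy)
        · exact R_xyz m {x} {y} {z} (disj_sing hxy) (disj_sing hxz) (disj_sing hyz)

end

/-- `pc` on singletons counts occurrences as a scattered subword -/
theorem count_sublists' [DecidableEq α] : ∀ (w u : List α),
    List.count u (List.sublists' w) = pc (u.map fun a => ({a} : Set α)) w
  | [], u => by
    cases u with
    | nil => simp [pc_nil]
    | cons a u => simp [pc_cons_nil]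
  | x :: w, u => by
    rw [List.sublists'_cons, List.count_append, count_sublists' w u]
    cases u with
    | nil =>
      simp only [List.map_nil, pc_nil]
      rw [List.count_eq_zero_of_not_mem]
      simp
    | cons a u =>
      simp only [List.map_cons]
      by_cases hxa : x = a
      · subst hxa
        rw [pc_pos (Set.mem_singleton x), List.count_map_of_injective _ _ (List.cons_injective),
          count_sublists' w u]
      · rw [pc_neg (fun h => hxa (Set.mem_singleton_iff.1 h)), List.count_eq_zero_of_not_mem]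
        · rfl
        · intro h
          obtain ⟨v, _, hv⟩ := List.mem_map.1 h
          exact hxa (List.cons.inj hv).1

theorem count_sublists [DecidableEq α] (w u : List α) :
    List.count u (List.sublists w) = pc (u.map fun a => ({a} : Set α)) w := by
  rw [← count_sublists' w u]
  exact (List.sublists_perm_sublists' w).count_eq u

end Vale.Agent.Lib.P329
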