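import Vale.Agent.Lib.P329.Sub3

open Computability

namespace Vale.Agent.Lib.P329

variable {α : Type}

/-- number of jump letters such that the number of increment letters to their right is
congruent to `t` modulo `M` -/
def sufJ (M : ℕ) (κ : α → OK) (t : ℕ) : List α → ℕ
  | [] => 0
  | x :: w => match κ x with
    | .z => sufJ M κ t w
    | .i => sufJ M κ t w
    | .j => (if cntI κ w % M = t then 1 else 0) + sufJ M κ t w

theorem sufJ_z {M : ℕ} {κ : α → OK} {x : α} (h : κ x = .z) (t : ℕ) (w : List α) :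
    sufJ M κ t (x :: w) = sufJ M κ t w := by simp only [sufJ, h]
theorem sufJ_i {M : ℕ} {κ : α → OK} {x : α} (h : κ x = .i) (t : ℕ) (w : List α) :
    sufJ M κ t (x :: w) = sufJ M κ t w := by simp only [sufJ, h]
theorem sufJ_j {M : ℕ} {κ : α → OK} {x : α} (h : κ x = .j) (t : ℕ) (w : List α) :
    sufJ M κ t (x :: w) = (if cntI κ w % M = t then 1 else 0) + sufJ M κ t w := by
  simp only [sufJ, h]

theorem cntJ_eq_sufJ (M : ℕ) (κ : α → OK) : ∀ (w : List α) (c : ℕ),
    cntJ M κ c w = sufJ M κ ((c + cntI κ w) % M) w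
  | [], _ => rfl
  | x :: w, c => by
    cases hk : κ x with
    | z => rw [cntJ_z hk, sufJ_z hk, cntI_z hk]; exact cntJ_eq_sufJ M κ w c
    | i =>
      rw [cntJ_i hk, sufJ_i hk, cntI_i hk, cntJ_eq_sufJ M κ w (c + 1)]
      rw [show c + 1 + cntI κ w = c + (cntI κ w + 1) by ring]
    | j =>
      rw [cntJ_j hk, sufJ_j hk, cntI_j hk, cntJ_eq_sufJ M κ w c]
      congr 1
      have : M ∣ c ↔ cntI κ w % M = (c + cntI κ w) % M := by
        constructor
        · rintro ⟨q, rfl⟩
          rw [Nat.mul_add_mod]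
        · intro h
          have h1 : 0 + cntI κ w ≡ c + cntI κ w [MOD M] := by
            rw [Nat.zero_add]; exact h
          have h2 : 0 ≡ c [MOD M] := Nat.ModEq.add_right_cancel' _ h1
          exact (Nat.modEq_zero_iff_dvd).1 h2.symm
      by_cases hc : M ∣ c
      · rw [if_pos hc, if_pos (this.1 hc)]
      · rw [if_neg hc, if_neg (fun h => hc (this.2 h))]

theorem Rec1_sufJ [Fintype α] (M m : ℕ) [NeZero M] [NeZero m] (κ : α → OK) (t : ℕ) (ht : t < M) :
    Rec1 (fun w : List α => (sufJ M κ t w : ZMod m)) := by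
  have hM : 0 < M := Nat.pos_of_ne_zero (NeZero.ne M)
  have h1 : Rec1 (fun (w : List α) (c : Fin M) => (cntJ M κ c.val w : ZMod m)) :=
    Rec1.pi (fun c => Rec1_cntJ M m κ c.val)
  have h2 := ((Rec1_cntI M κ).prod h1).comp
    (fun p => p.2 ⟨(t + (M - p.1.val)) % M, Nat.mod_lt _ hM⟩)
  have e : (fun w : List α => (cntJ M κ ((t + (M - ((cntI κ w : ℕ) : ZMod M).val)) % M) w : ZMod m))
      = fun w => (sufJ M κ t w : ZMod m) := by
    funext w
    rw [cntJ_eq_sufJ, ZMod.val_natCast, Nat.mod_add_mod]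
    have hr : cntI κ w % M < M := Nat.mod_lt _ hM
    have : (t + (M - cntI κ w % M) + cntI κ w) % M = t := by
      have e1 : t + (M - cntI κ w % M) + cntI κ w = t + M * (1 + cntI κ w / M) := by
        have := Nat.mod_add_div (cntI κ w) M
        rw [Nat.mul_add, Nat.mul_one]
        omega
      rw [e1, Nat.add_mul_mod_self_left, Nat.mod_eq_of_lt ht]
    rw [this]
  rwa [e] at h2

theorem cntI_kd' (S B : Set α) (h : Disjoint S B) : ∀ w : List α, cntI (kd S B) w = pc [S] w
  | [] => rfl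
  | x :: w => by
    by_cases hB : x ∈ B
    · have hS : x ∉ S := fun hS => (Set.disjoint_left.1 h) hS hB
      rw [cntI_j (kd_j hB), pc_neg hS, cntI_kd' S B h w]
    · by_cases hS : x ∈ S
      · rw [cntI_i (kd_i hB hS), pc_pos hS, pc_nil, cntI_kd' S B h w]
      · rw [cntI_z (kd_z hB hS), pc_neg hS, cntI_kd' S B h w]

end Vale.Agent.Lib.P329
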